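import Mathlib

/-!
# Choice of numerical parameters
-/

set_option autoImplicit false

namespace Crest.Agent.S0175Lib

open Set Filter Topology

/-- The constant `L₀`. -/
noncomputable def L₀ (s : ℝ) : ℝ := s * (2 : ℝ) ^ (s + 2)

/-- The curvature constant of the potentials. -/
noncomputable def κ₀ (s : ℝ) : ℝ := 4 * L₀ s

/-- The value `a₀` of the potential at the origin. -/
noncomputable def a₀ (s : ℝ) : ℝ := 2 + (2 : ℝ) ^ (-s)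

lemma L₀_pos {s : ℝ} (hs : 0 < s) : 0 < L₀ s := by
  unfold L₀; positivity

lemma κ₀_pos {s : ℝ} (hs : 0 < s) : 0 < κ₀ s := by
  unfold κ₀; have := L₀_pos hs; positivity

lemma a₀_ge {s : ℝ} : 2 ≤ a₀ s := by
  unfold a₀; have : (0 : ℝ) < 2 ^ (-s) := by positivity
  linarith

lemma two_rpow_s_add_two_ge {s : ℝ} (hs : 0 < s) : (4 : ℝ) ≤ 2 ^ (s + 2) := by
  have h : (2 : ℝ) ^ (2 : ℝ) ≤ 2 ^ (s + 2) :=
    Real.rpow_le_rpow_of_exponent_le (by norm_num) (by linarith)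
  rw [show (2 : ℝ) ^ (2 : ℝ) = 4 by norm_num] at h
  exact h

/-- `ρ₀ = 2^(-s-2)`. -/
noncomputable def ρ₀ (s : ℝ) : ℝ := (2 : ℝ) ^ (-s - 2)

lemma ρ₀_pos (s : ℝ) : 0 < ρ₀ s := by unfold ρ₀; positivity

lemma ρ₀_le {s : ℝ} (hs : 0 < s) : ρ₀ s ≤ 1 / 4 := by
  unfold ρ₀
  have h : (2 : ℝ) ^ (-s - 2) ≤ 2 ^ (-2 : ℝ) :=
    Real.rpow_le_rpow_of_exponent_le (by norm_num) (by linarith)
  have h2 : (2 : ℝ) ^ (-2 : ℝ) = 1 / 4 := by
    rw [Real.rpow_neg (by norm_num)]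
    norm_num
  rw [h2] at h
  exact h

lemma κ₀_mul_ρ₀ {s : ℝ} (hs : 0 < s) : κ₀ s * ρ₀ s = 4 * s := by
  unfold κ₀ L₀ ρ₀
  have h : (2 : ℝ) ^ (s + 2) * 2 ^ (-s - 2) = 1 := by
    rw [← Real.rpow_add (by norm_num)]
    have : s + 2 + (-s - 2) = 0 := by ring
    rw [this, Real.rpow_zero]
  calc 4 * (s * (2 : ℝ) ^ (s + 2)) * 2 ^ (-s - 2) = 4 * s * ((2 : ℝ) ^ (s + 2) * 2 ^ (-s - 2)) := by
        ring
    _ = 4 * s := by rw [h, mul_one]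

lemma κ₀_ge {s : ℝ} (hs : 0 < s) : 16 * s ≤ κ₀ s := by
  unfold κ₀ L₀
  have := two_rpow_s_add_two_ge hs
  nlinarith

lemma hκ1 {s : ℝ} (hs : 0 < s) : (1 + 2 * ρ₀ s) * s < κ₀ s := by
  have h1 := ρ₀_le hs
  have h2 := κ₀_ge hs
  nlinarith

lemma hκ2 {s : ℝ} (hs : 0 < s) : (1 + 2 * ρ₀ s) * s < κ₀ s * ρ₀ s := by
  rw [κ₀_mul_ρ₀ hs]
  have h1 := ρ₀_le hs
  nlinarith

lemma hκ3 {s : ℝ} (hs : 0 < s) : 3 * s < κ₀ s := by
  have h2 := κ₀_ge hs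
  nlinarith

/-- The numerical conditions on `r` and `δ`. -/
structure GoodParams (s G r δ : ℝ) : Prop where
  hr0 : 0 < r
  hr1 : r ≤ 1 / 8
  hδ0 : 0 < δ
  hδ1 : δ ≤ 1
  hκr : κ₀ s * r ^ 2 ≤ 2
  hG : G * r + κ₀ s * r ^ 2 / 2 ≤ δ
  hδ3 : δ < (3 : ℝ) ^ (-s)
  hbig : 3 * a₀ s + 1 < (2 * r) ^ (-s)
  hcross : a₀ s + 2 * δ < 2 * (1 + 2 * r) ^ (-s) + (Real.sqrt 2 + 2 * r) ^ (-s)

theorem exists_params {s : ℝ} (hs : 0 < s) (G : ℝ) : ∃ r δ : ℝ, GoodParams s G r δ := by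
  have h2 : (2 : ℝ) ^ (-s) < 2 ^ (-s / 2) :=
    Real.rpow_lt_rpow_of_exponent_lt (by norm_num) (by linarith)
  have h3 : (0 : ℝ) < 3 ^ (-s) := by positivity
  set δ : ℝ := min 1 (min ((3 : ℝ) ^ (-s) / 2) (((2 : ℝ) ^ (-s / 2) - 2 ^ (-s)) / 4)) with hδ
  have hδ0 : 0 < δ := by
    refine lt_min one_pos (lt_min (by positivity) (by linarith))
  have hδ1 : δ ≤ 1 := min_le_left _ _
  have hδ2 : δ ≤ (3 : ℝ) ^ (-s) / 2 := (min_le_right _ _).trans (min_le_left _ _)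
  have hδ3 : δ ≤ ((2 : ℝ) ^ (-s / 2) - 2 ^ (-s)) / 4 := (min_le_right _ _).trans (min_le_right _ _)
  -- the eventual conditions
  have e1 : ∀ᶠ r in 𝓝[>] (0 : ℝ), r ≤ 1 / 8 := by
    filter_upwards [Ioc_mem_nhdsGT (show (0 : ℝ) < 1 / 8 by norm_num)] with r hr using hr.2
  have e0 : ∀ᶠ r in 𝓝[>] (0 : ℝ), 0 < r := self_mem_nhdsWithin
  have c1 : Continuous fun r : ℝ => κ₀ s * r ^ 2 := by fun_prop
  have e2 : ∀ᶠ r in 𝓝[>] (0 : ℝ), κ₀ s * r ^ 2 ≤ 2 := by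
    have : ∀ᶠ r in 𝓝 (0 : ℝ), κ₀ s * r ^ 2 < 2 :=
      c1.continuousAt.eventually (gt_mem_nhds (by simp))
    filter_upwards [this.filter_mono nhdsWithin_le_nhds] with r hr using hr.le
  have c2 : Continuous fun r : ℝ => G * r + κ₀ s * r ^ 2 / 2 := by fun_prop
  have e3 : ∀ᶠ r in 𝓝[>] (0 : ℝ), G * r + κ₀ s * r ^ 2 / 2 ≤ δ := by
    have : ∀ᶠ r in 𝓝 (0 : ℝ), G * r + κ₀ s * r ^ 2 / 2 < δ :=
      c2.continuousAt.eventually (gt_mem_nhds (by simpa using hδ0))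
    filter_upwards [this.filter_mono nhdsWithin_le_nhds] with r hr using hr.le
  have e4 : ∀ᶠ r in 𝓝[>] (0 : ℝ), 3 * a₀ s + 1 < (2 * r) ^ (-s) := by
    have h1 : Tendsto (fun r : ℝ => 2 * r) (𝓝[>] 0) (𝓝[>] 0) := by
      refine tendsto_nhdsWithin_iff.2 ⟨?_, ?_⟩
      · have : Tendsto (fun r : ℝ => 2 * r) (𝓝 0) (𝓝 (2 * 0)) :=
          (continuous_const.mul continuous_id).tendsto 0
        rw [mul_zero] at this
        exact this.mono_left nhdsWithin_le_nhds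
      · filter_upwards [self_mem_nhdsWithin] with r hr
        have : 0 < r := hr
        show 0 < 2 * r
        positivity
    have h4 := (tendsto_rpow_neg_nhdsGT_zero (y := -s) (by linarith)).comp h1
    exact h4.eventually (eventually_gt_atTop _)
  have e5 : ∀ᶠ r in 𝓝[>] (0 : ℝ),
      a₀ s + 2 * δ < 2 * (1 + 2 * r) ^ (-s) + (Real.sqrt 2 + 2 * r) ^ (-s) := by
    have hs2 : Real.sqrt 2 ≠ 0 := by positivity
    have hc : ContinuousAt (fun r : ℝ => 2 * (1 + 2 * r) ^ (-s) + (Real.sqrt 2 + 2 * r) ^ (-s)) 0 := by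
      refine ContinuousAt.add (continuousAt_const.mul (ContinuousAt.rpow_const ?_ ?_))
        (ContinuousAt.rpow_const ?_ ?_)
      · fun_prop
      · left; simp
      · fun_prop
      · left; simpa using hs2
    have hv : (fun r : ℝ => 2 * (1 + 2 * r) ^ (-s) + (Real.sqrt 2 + 2 * r) ^ (-s)) 0 =
        2 + (2 : ℝ) ^ (-s / 2) := by
      simp only [mul_zero, add_zero, Real.one_rpow, mul_one]
      congr 1
      rw [Real.sqrt_eq_rpow, ← Real.rpow_mul (by norm_num)]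
      congr 1
      ring
    have hlt : a₀ s + 2 * δ < (fun r : ℝ => 2 * (1 + 2 * r) ^ (-s) + (Real.sqrt 2 + 2 * r) ^ (-s)) 0 := by
      rw [hv, a₀]
      linarith
    exact (hc.eventually (lt_mem_nhds hlt)).filter_mono nhdsWithin_le_nhds
  obtain ⟨r, h0, h1, h2', h3', h4, h5⟩ := (e0.and (e1.and (e2.and (e3.and (e4.and e5))))).exists
  exact ⟨r, δ, ⟨h0, h1, hδ0, hδ1, h2', h3', by linarith, h4, h5⟩⟩

end Crest.Agent.S0175Lib
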