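import Mathlib
import Crest.Prelude.Def_MultiMarginal

/-!
# Basic facts on the Riesz kernel

`gradH s v = -s ‖v‖^(-s-2) v` is the gradient of `‖v‖^(-s)`.  The key inequality below (convexity of
`t ↦ t^(-s/2)`) gives exact dual potentials.
-/

set_option autoImplicit false
set_option linter.unusedSectionVars false

namespace Crest.Agent.S0175Lib

open MeasureTheory Set Filter Topology
open scoped ENNReal ContDiff RealInnerProductSpace
open Crest.AnalysisR.OT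

variable {E : Type*} [NormedAddCommGroup E] [InnerProductSpace ℝ E]

/-- The gradient of `v ↦ ‖v‖^(-s)`. -/
noncomputable def gradH (s : ℝ) (v : E) : E := (-s * ‖v‖ ^ (-s - 2)) • v

lemma gradH_neg (s : ℝ) (v : E) : gradH s (-v) = -gradH s v := by
  simp [gradH]

lemma rpow_tangent {a b s : ℝ} (ha : 0 < a) (hb : 0 < b) (hs : 0 < s) :
    a ^ (-s) - (s / 2) * a ^ (-s - 2) * (b ^ 2 - a ^ 2) ≤ b ^ (-s) := by
  set r : ℝ := (b / a) ^ 2 with hr
  have hrpos : 0 < r := by positivity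
  have h1 : b ^ (-s) = a ^ (-s) * r ^ (-s / 2) := by
    have : r ^ (-s / 2) = (b / a) ^ (-s) := by
      rw [hr, ← Real.rpow_natCast, ← Real.rpow_mul (by positivity)]
      congr 1
      push_cast
      ring
    rw [this, Real.div_rpow hb.le ha.le]
    field_simp
  have h2 : a ^ (-s - 2) = a ^ (-s) / a ^ 2 := by
    rw [Real.rpow_sub ha, Real.rpow_two]
  have h3 : 1 - (s / 2) * (r - 1) ≤ r ^ (-s / 2) := by
    have hlog : Real.log r ≤ r - 1 := Real.log_le_sub_one_of_pos hrpos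
    have hexp : r ^ (-s / 2) = Real.exp (Real.log r * (-s / 2)) := by
      rw [Real.rpow_def_of_pos hrpos]
    rw [hexp]
    have := Real.add_one_le_exp (Real.log r * (-s / 2))
    have h4 : (s / 2) * Real.log r ≤ (s / 2) * (r - 1) :=
      mul_le_mul_of_nonneg_left hlog (by positivity)
    nlinarith
  have hapos : 0 < a ^ (-s) := Real.rpow_pos_of_pos ha _
  have h5 : a ^ (-s) - (s / 2) * a ^ (-s - 2) * (b ^ 2 - a ^ 2) =
      a ^ (-s) * (1 - (s / 2) * (r - 1)) := by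
    rw [h2, hr]
    field_simp
  rw [h5, h1]
  exact mul_le_mul_of_nonneg_left h3 hapos.le

/-- The key inequality: `‖·‖^(-s)` lies above its tangent paraboloid. -/
lemma norm_rpow_tangent {s : ℝ} (hs : 0 < s) {v w : E} (hv : v ≠ 0) (hw : w ≠ 0) :
    ‖v‖ ^ (-s) + ⟪gradH s v, w - v⟫ - (s / 2) * ‖v‖ ^ (-s - 2) * ‖w - v‖ ^ 2 ≤ ‖w‖ ^ (-s) := by
  have h := rpow_tangent (norm_pos_iff.2 hv) (norm_pos_iff.2 hw) hs
  have hw2 : ‖w‖ ^ 2 = ‖v‖ ^ 2 + 2 * ⟪v, w - v⟫ + ‖w - v‖ ^ 2 := by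
    have := norm_add_sq_real v (w - v)
    rwa [add_sub_cancel] at this
  have hin : ⟪gradH s v, w - v⟫ = (-s * ‖v‖ ^ (-s - 2)) * ⟪v, w - v⟫ := by
    rw [gradH, real_inner_smul_left]
  rw [hin]
  rw [hw2] at h
  nlinarith

lemma gradH_sub_comm (s : ℝ) (x y : E) : gradH s (y - x) = -gradH s (x - y) := by
  rw [← gradH_neg, neg_sub]

/-- The real-valued three-particle cost. -/
noncomputable def realCost (s : ℝ) (x y z : E) : ℝ :=
  ‖x - y‖ ^ (-s) + ‖x - z‖ ^ (-s) + ‖y - z‖ ^ (-s)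

lemma pairCost_eq_ofReal {s : ℝ} {x y : E} (hxy : x ≠ y) :
    pairCost s x y = ENNReal.ofReal (‖x - y‖ ^ (-s)) := by
  rw [pairCost, ENNReal.ofReal_rpow_of_pos (norm_pos_iff.2 (sub_ne_zero.2 hxy))]

lemma pairCost_self {s : ℝ} (hs : 0 < s) (x : E) : pairCost s x x = ⊤ := by
  rw [pairCost]
  simp [ENNReal.zero_rpow_of_neg, hs]

lemma pairCost_comm (s : ℝ) (x y : E) : pairCost s x y = pairCost s y x := by
  rw [pairCost, pairCost, norm_sub_rev]

lemma tripleCost_eq_ofReal {s : ℝ} {x y z : E} (hxy : x ≠ y) (hxz : x ≠ z)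
    (hyz : y ≠ z) : tripleCost s (x, y, z) = ENNReal.ofReal (realCost s x y z) := by
  have hnn : ∀ {u v : E}, 0 ≤ ‖u - v‖ ^ (-s) := fun {u v} => by positivity
  simp only [tripleCost, realCost]
  rw [pairCost_eq_ofReal hxy, pairCost_eq_ofReal hxz, pairCost_eq_ofReal hyz,
    ENNReal.ofReal_add (add_nonneg hnn hnn) hnn, ENNReal.ofReal_add hnn hnn]

lemma tripleCost_swap12 (s : ℝ) (x y z : E) : tripleCost s (x, y, z) = tripleCost s (y, x, z) := by
  simp only [tripleCost]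
  rw [pairCost_comm s x y]
  ring

lemma tripleCost_swap23 (s : ℝ) (x y z : E) : tripleCost s (x, y, z) = tripleCost s (x, z, y) := by
  simp only [tripleCost]
  rw [pairCost_comm s y z]
  ring

lemma measurable_tripleCost [MeasurableSpace E] [BorelSpace E] [SecondCountableTopology E]
    (s : ℝ) : Measurable (tripleCost (E := E) s) := by
  have hp : Measurable fun q : E × E => pairCost s q.1 q.2 := by
    simp only [pairCost]
    exact (ENNReal.measurable_ofReal.comp (measurable_norm.comp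
      (measurable_fst.sub measurable_snd))).pow_const _
  have h1 : Measurable fun p : E × E × E => pairCost s p.1 p.2.1 :=
    hp.comp (measurable_fst.prodMk (measurable_fst.comp measurable_snd))
  have h2 : Measurable fun p : E × E × E => pairCost s p.1 p.2.2 :=
    hp.comp (measurable_fst.prodMk (measurable_snd.comp measurable_snd))
  have h3 : Measurable fun p : E × E × E => pairCost s p.2.1 p.2.2 :=
    hp.comp ((measurable_fst.comp measurable_snd).prodMk (measurable_snd.comp measurable_snd))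
  exact (h1.add h2).add h3

/-- The first critical point equation. -/
noncomputable def F1 (s κ : ℝ) (x y z : E) : E := gradH s (x - y) + gradH s (x - z) + κ • x

/-- The second critical point equation. -/
noncomputable def F2 (s κ : ℝ) (e g : E) (x y z : E) : E :=
  gradH s (y - x) + gradH s (y - z) - g + κ • (y - e)

/-- The function minimised in `(x, y)` for fixed `z`. -/
noncomputable def Psi (s κ : ℝ) (e g : E) (x y z : E) : ℝ :=
  realCost s x y z + (κ / 2) * ‖x‖ ^ 2 + (κ / 2) * ‖y - e‖ ^ 2 - ⟪g, y - e⟫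

/-- Strong convexity type lower bound: a critical point of `Psi` in `(x, y)` is a strict global
minimum, quantitatively. -/
lemma Psi_ge {s κ L : ℝ} (hs : 0 < s) {e g x₀ y₀ z x y : E}
    (hF1 : F1 s κ x₀ y₀ z = 0) (hF2 : F2 s κ e g x₀ y₀ z = 0)
    (h0xy : x₀ ≠ y₀) (h0xz : x₀ ≠ z) (h0yz : y₀ ≠ z)
    (hxy : x ≠ y) (hxz : x ≠ z) (hyz : y ≠ z)
    (hL1 : s * ‖x₀ - y₀‖ ^ (-s - 2) ≤ L) (hL2 : s * ‖x₀ - z‖ ^ (-s - 2) ≤ L)
    (hL3 : s * ‖y₀ - z‖ ^ (-s - 2) ≤ L) (hκ : 4 * L ≤ κ) :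
    Psi s κ e g x₀ y₀ z + (L / 2) * (‖x - x₀‖ ^ 2 + ‖y - y₀‖ ^ 2) ≤ Psi s κ e g x y z := by
  set ξ := x - x₀ with hξ
  set η := y - y₀ with hη
  have hx : x = x₀ + ξ := by rw [hξ]; abel
  have hy : y = y₀ + η := by rw [hη]; abel
  have e1 : (x - y) - (x₀ - y₀) = ξ - η := by rw [hξ, hη]; abel
  have e2 : (x - z) - (x₀ - z) = ξ := by rw [hξ]; abel
  have e3 : (y - z) - (y₀ - z) = η := by rw [hη]; abel
  have k1 := norm_rpow_tangent hs (sub_ne_zero.2 h0xy) (sub_ne_zero.2 hxy)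
  have k2 := norm_rpow_tangent hs (sub_ne_zero.2 h0xz) (sub_ne_zero.2 hxz)
  have k3 := norm_rpow_tangent hs (sub_ne_zero.2 h0yz) (sub_ne_zero.2 hyz)
  rw [e1] at k1
  rw [e2] at k2
  rw [e3] at k3
  -- linear terms
  have hl1 : ⟪F1 s κ x₀ y₀ z, ξ⟫ = 0 := by rw [hF1]; simp
  have hl2 : ⟪F2 s κ e g x₀ y₀ z, η⟫ = 0 := by rw [hF2]; simp
  simp only [F1, F2, inner_add_left, inner_sub_left, real_inner_smul_left] at hl1 hl2
  rw [gradH_sub_comm s x₀ y₀, inner_neg_left] at hl2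
  have hinnerξη : ⟪gradH s (x₀ - y₀), ξ - η⟫ = ⟪gradH s (x₀ - y₀), ξ⟫ - ⟪gradH s (x₀ - y₀), η⟫ :=
    inner_sub_right _ _ _
  rw [hinnerξη] at k1
  -- quadratic terms
  have q1 : ‖x‖ ^ 2 = ‖x₀‖ ^ 2 + 2 * ⟪x₀, ξ⟫ + ‖ξ‖ ^ 2 := by
    rw [hx]; exact norm_add_sq_real _ _
  have q2 : ‖y - e‖ ^ 2 = ‖y₀ - e‖ ^ 2 + 2 * ⟪y₀ - e, η⟫ + ‖η‖ ^ 2 := by
    have : y - e = (y₀ - e) + η := by rw [hy]; abel
    rw [this]; exact norm_add_sq_real _ _
  have q3 : ⟪g, y - e⟫ = ⟪g, y₀ - e⟫ + ⟪g, η⟫ := by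
    have : y - e = (y₀ - e) + η := by rw [hy]; abel
    rw [this, inner_add_right]
  have q4 : ‖ξ - η‖ ^ 2 ≤ 2 * ‖ξ‖ ^ 2 + 2 * ‖η‖ ^ 2 := by
    have h1 := norm_sub_sq_real ξ η
    have h2 := norm_add_sq_real ξ η
    have h3 : 0 ≤ ‖ξ + η‖ ^ 2 := by positivity
    linarith
  have b1 : (s / 2) * ‖x₀ - y₀‖ ^ (-s - 2) * ‖ξ - η‖ ^ 2 ≤ (L / 2) * ‖ξ - η‖ ^ 2 :=
    mul_le_mul_of_nonneg_right (by linarith) (by positivity)
  have b2 : (s / 2) * ‖x₀ - z‖ ^ (-s - 2) * ‖ξ‖ ^ 2 ≤ (L / 2) * ‖ξ‖ ^ 2 :=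
    mul_le_mul_of_nonneg_right (by linarith) (by positivity)
  have b3 : (s / 2) * ‖y₀ - z‖ ^ (-s - 2) * ‖η‖ ^ 2 ≤ (L / 2) * ‖η‖ ^ 2 :=
    mul_le_mul_of_nonneg_right (by linarith) (by positivity)
  have hLnn : 0 ≤ L := le_trans (by positivity) hL1
  have b4 : (L / 2) * ‖ξ - η‖ ^ 2 ≤ (L / 2) * (2 * ‖ξ‖ ^ 2 + 2 * ‖η‖ ^ 2) :=
    mul_le_mul_of_nonneg_left q4 (by positivity)
  have b5 : L * 2 * (‖ξ‖ ^ 2 + ‖η‖ ^ 2) ≤ (κ / 2) * (‖ξ‖ ^ 2 + ‖η‖ ^ 2) :=
    mul_le_mul_of_nonneg_right (by linarith) (by positivity)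
  simp only [Psi, realCost]
  rw [inner_sub_left] at q2
  rw [q1, q2, q3]
  linarith [k1, k2, k3, b1, b2, b3, b4, b5, hl1, hl2]

end Crest.Agent.S0175Lib
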