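import Mathlib
import Crest.Agent.S0175Lib.RieszBasic

/-!
# The sheets, by the inverse function theorem
-/

set_option autoImplicit false
set_option linter.unusedSectionVars false

namespace Crest.Agent.S0175Lib

open MeasureTheory Set Filter Topology
open scoped ENNReal ContDiff RealInnerProductSpace

section chart

variable {P : Type*} [NormedAddCommGroup P] [NormedSpace ℝ P] [CompleteSpace P]

/-- A version of the inverse function theorem giving a chart with smooth inverse on all of its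
target. -/
lemma exists_chart (f : P → P) (b : P) (W : Set P) (hW : IsOpen W) (hb : b ∈ W)
    (hsmooth : ∀ p ∈ W, ContDiffAt ℝ ∞ f p) (f' : P ≃L[ℝ] P)
    (hf' : HasFDerivAt f (f' : P →L[ℝ] P) b) :
    ∃ Φ : OpenPartialHomeomorph P P, b ∈ Φ.source ∧ (∀ p, Φ p = f p) ∧ Φ.source ⊆ W ∧
      ∀ q ∈ Φ.target, ContDiffAt ℝ ∞ Φ.symm q := by
  have hb' := hsmooth b hb
  have hcont : ContinuousAt (fderiv ℝ f) b :=
    (hb'.fderiv_right (m := 0) (by norm_cast)).continuousAt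
  have hrange := ContinuousLinearEquiv.nhds f'
  have hev : ∀ᶠ p in 𝓝 b, fderiv ℝ f p ∈ Set.range ContinuousLinearEquiv.toContinuousLinearMap :=
    hcont.eventually (by rw [hf'.fderiv]; exact hrange)
  obtain ⟨V, hVsub, hVo, hbV⟩ := eventually_nhds_iff.1 hev
  let Φ₀ := hb'.toOpenPartialHomeomorph f hf' (by simp)
  refine ⟨Φ₀.restrOpen (V ∩ W) (hVo.inter hW), ?_, fun p => rfl, ?_, ?_⟩
  · rw [OpenPartialHomeomorph.restrOpen_source]
    exact ⟨hb'.mem_toOpenPartialHomeomorph_source hf' (by simp), hbV, hb⟩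
  · rw [OpenPartialHomeomorph.restrOpen_source]
    exact fun p hp => hp.2.2
  · intro q hq
    set Φ := Φ₀.restrOpen (V ∩ W) (hVo.inter hW) with hΦ
    have hp : Φ.symm q ∈ Φ.source := Φ.map_target hq
    have hp' : Φ.symm q ∈ V ∩ W := by
      rw [hΦ, OpenPartialHomeomorph.restrOpen_source] at hp
      exact hp.2
    obtain ⟨e, he⟩ := hVsub _ hp'.1
    have hd : HasFDerivAt Φ (e : P →L[ℝ] P) (Φ.symm q) := by
      have := (hsmooth _ hp'.2).differentiableAt (by norm_cast)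
      have h2 := this.hasFDerivAt
      rw [← he] at h2
      exact h2
    exact Φ.contDiffAt_symm hq hd (hsmooth _ hp'.2)

end chart

variable {E : Type*} [NormedAddCommGroup E] [InnerProductSpace ℝ E]

/-- The derivative of the gradient. -/
noncomputable def dGrad (s : ℝ) (v : E) : E →L[ℝ] E :=
  (-s * ‖v‖ ^ (-s - 2)) • ContinuousLinearMap.id ℝ E +
    (s * (s + 2) * ‖v‖ ^ (-s - 4)) • (innerSL ℝ v).smulRight v

lemma gradH_eq (s : ℝ) : gradH (E := E) s = fun w => (-s * (‖w‖ ^ 2) ^ ((-s - 2) / 2)) • w := by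
  funext w
  rw [gradH, ← Real.rpow_natCast ‖w‖ 2, ← Real.rpow_mul (norm_nonneg _)]
  congr 3
  push_cast
  ring

lemma hasFDerivAt_gradH (s : ℝ) {v : E} (hv : v ≠ 0) :
    HasFDerivAt (gradH s) (dGrad s v) v := by
  have hn : 0 < ‖v‖ := norm_pos_iff.2 hv
  have h1 : HasFDerivAt (fun w : E => ‖w‖ ^ 2) (2 • (innerSL ℝ v)) v :=
    (hasStrictFDerivAt_norm_sq v).hasFDerivAt
  have h2 := h1.rpow_const (p := (-s - 2) / 2) (Or.inl (by positivity))
  have h3 := h2.const_mul (-s)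
  have h4 := h3.smul (hasFDerivAt_id v)
  have e1 : (‖v‖ ^ 2) ^ ((-s - 2) / 2) = ‖v‖ ^ (-s - 2) := by
    rw [← Real.rpow_natCast ‖v‖ 2, ← Real.rpow_mul (norm_nonneg _)]
    congr 1
    push_cast
    ring
  have e2 : (‖v‖ ^ 2) ^ ((-s - 2) / 2 - 1) = ‖v‖ ^ (-s - 4) := by
    rw [← Real.rpow_natCast ‖v‖ 2, ← Real.rpow_mul (norm_nonneg _)]
    congr 1
    push_cast
    ring
  have key : dGrad s v = (-s * (‖v‖ ^ 2) ^ ((-s - 2) / 2)) • ContinuousLinearMap.id ℝ E +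
      (-s • ((-s - 2) / 2 * (‖v‖ ^ 2) ^ ((-s - 2) / 2 - 1)) • 2 • (innerSL ℝ) v).smulRight
        (id v) := by
    ext h
    have e3 : ((2 : ℕ) • (innerSL ℝ v)) h = 2 * ⟪v, h⟫ := by
      simp [two_smul, two_mul]
    simp only [dGrad, add_apply, smul_apply, ContinuousLinearMap.id_apply,
      ContinuousLinearMap.smulRight_apply, innerSL_apply_apply, id_eq, e1, e2, e3, smul_eq_mul]
    rw [smul_smul]
    congr 2
    ring
  rw [gradH_eq, key]
  exact h4

lemma contDiffAt_gradH (s : ℝ) {v : E} (hv : v ≠ 0) : ContDiffAt ℝ ∞ (gradH s) v := by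
  have hn : ‖v‖ ≠ 0 := norm_ne_zero_iff.2 hv
  have h1 : ContDiffAt ℝ ∞ (fun w : E => ‖w‖) v := contDiffAt_norm ℝ hv
  have h2 : ContDiffAt ℝ ∞ (fun w : E => ‖w‖ ^ (-s - 2)) v := h1.rpow_const_of_ne hn
  exact (contDiffAt_const.mul h2).smul contDiffAt_id

section base

variable {e : E}

lemma dGrad_neg (s : ℝ) (v : E) : dGrad s (-v) = dGrad s v := by
  ext w
  simp [dGrad]

lemma dGrad_two_smul (s : ℝ) (he : ‖e‖ = 1) :
    dGrad s ((2 : ℝ) • e) = ((2 : ℝ) ^ (-s - 2)) • dGrad s e := by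
  have h2 : ‖(2 : ℝ) • e‖ = 2 := by simp [norm_smul, he]
  have h3 : (2 : ℝ) ^ (-s - 4) * 4 = 2 ^ (-s - 2) := by
    have : (-s - 2 : ℝ) = (-s - 4) + 2 := by ring
    rw [this, Real.rpow_add (by norm_num), Real.rpow_two]
    norm_num
  ext w
  simp only [dGrad, add_apply, smul_apply, ContinuousLinearMap.id_apply,
    ContinuousLinearMap.smulRight_apply, innerSL_apply_apply, h2, he, real_inner_smul_left,
    Real.one_rpow, smul_smul]
  rw [smul_add, smul_smul, smul_smul]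
  congr 2
  · ring
  · rw [← h3]; ring

lemma dGrad_apply (s : ℝ) (he : ‖e‖ = 1) (w : E) :
    dGrad s e w = (-s) • w + (s * (s + 2) * ⟪e, w⟫) • e := by
  simp only [dGrad, add_apply, smul_apply, ContinuousLinearMap.id_apply,
    ContinuousLinearMap.smulRight_apply, innerSL_apply_apply, he, Real.one_rpow, smul_smul]
  simp

lemma inner_self_unit (he : ‖e‖ = 1) : ⟪e, e⟫ = 1 := by
  rw [real_inner_self_eq_norm_sq, he]; norm_num

lemma dGrad_inj {s : ℝ} (hs : 0 < s) (he : ‖e‖ = 1) {w : E} (h : dGrad s e w = 0) : w = 0 := by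
  rw [dGrad_apply s he] at h
  have h1 : ⟪e, w⟫ = 0 := by
    have := congrArg (fun u => ⟪e, u⟫) h
    simp only [inner_add_right, real_inner_smul_right, inner_self_unit he, inner_zero_right] at this
    have h2 : s * (s + 1) * ⟪e, w⟫ = 0 := by linarith
    have h3 : s * (s + 1) ≠ 0 := by positivity
    exact (mul_eq_zero.1 h2).resolve_left h3
  rw [h1] at h
  simp only [mul_zero, zero_smul, add_zero] at h
  exact (smul_eq_zero.1 h).resolve_left (by simpa using hs.ne')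

lemma dGrad_comb_inj {s c l : ℝ} (hs : 0 < s) (he : ‖e‖ = 1) (hc : 0 < c) (hl : c * s < l) {w : E}
    (h : c • dGrad s e w + l • w = 0) : w = 0 := by
  rw [dGrad_apply s he] at h
  have h1 : ⟪e, w⟫ = 0 := by
    have := congrArg (fun u => ⟪e, u⟫) h
    simp only [inner_add_right, real_inner_smul_right, inner_self_unit he, inner_zero_right,
      inner_smul_right] at this
    have h2 : (l + c * s * (s + 1)) * ⟪e, w⟫ = 0 := by linarith
    have h3 : (l + c * s * (s + 1)) ≠ 0 := by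
      have : 0 < c * s := by positivity
      have : 0 < l := by linarith
      positivity
    exact (mul_eq_zero.1 h2).resolve_left h3
  rw [h1] at h
  simp only [mul_zero, zero_smul, add_zero, smul_add, smul_smul] at h
  rw [← add_smul] at h
  have h3 : c * -s + l ≠ 0 := by nlinarith
  exact (smul_eq_zero.1 h).resolve_left h3

lemma dGrad_quad_ge {s : ℝ} (hs : 0 < s) (he : ‖e‖ = 1) (w : E) :
    -s * ‖w‖ ^ 2 ≤ ⟪dGrad s e w, w⟫ := by
  rw [dGrad_apply s he, inner_add_left, real_inner_smul_left, real_inner_smul_left,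
    real_inner_self_eq_norm_sq, real_inner_comm]
  have : 0 ≤ s * (s + 2) * (⟪w, e⟫ * ⟪w, e⟫) := by
    have := mul_self_nonneg ⟪w, e⟫
    positivity
  nlinarith

/-- Injectivity in the `x`-chart -/
lemma inj_x {s κ ρ : ℝ} (hs : 0 < s) (he : ‖e‖ = 1) (hρ : 0 < ρ) (hκ : (1 + 2 * ρ) * s < κ) {η ζ : E}
    (h1 : dGrad s e (-η) + dGrad s e (-ζ) = 0)
    (h2 : dGrad s e η + ρ • dGrad s e (η - ζ) + κ • η = 0) : η = 0 ∧ ζ = 0 := by
  have h3 : dGrad s e (η + ζ) = 0 := by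
    rw [map_neg, map_neg] at h1
    rw [map_add, ← neg_eq_zero, neg_add]
    exact h1
  have h4 : η + ζ = 0 := dGrad_inj hs he h3
  have hζ : ζ = -η := by
    rw [eq_neg_iff_add_eq_zero, add_comm]; exact h4
  subst hζ
  have h5 : (1 + 2 * ρ) • dGrad s e η + κ • η = 0 := by
    have : η - -η = (2 : ℝ) • η := by rw [sub_neg_eq_add, two_smul]
    rw [this, map_smul, smul_smul] at h2
    rw [← h2, add_smul, one_smul, mul_comm 2 ρ]
  have h6 : η = 0 := dGrad_comb_inj hs he (by positivity) hκ h5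
  exact ⟨h6, by rw [h6, neg_zero]⟩

/-- Injectivity in the `y`-chart -/
lemma inj_y {s κ ρ : ℝ} (hs : 0 < s) (he : ‖e‖ = 1) (hρ : 0 < ρ) (hκ : (1 + 2 * ρ) * s < κ * ρ)
    {ξ ζ : E}
    (h1 : dGrad s e ξ + dGrad s e (ξ - ζ) + κ • ξ = 0)
    (h2 : dGrad s e (-ξ) + ρ • dGrad s e (-ζ) = 0) : ξ = 0 ∧ ζ = 0 := by
  have h3 : dGrad s e (ξ + ρ • ζ) = 0 := by
    rw [map_neg, map_neg, smul_neg] at h2
    rw [map_add, map_smul, ← neg_eq_zero, neg_add]
    exact h2
  have h4 : ξ + ρ • ζ = 0 := dGrad_inj hs he h3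
  have hξ : ξ = -(ρ • ζ) := eq_neg_of_add_eq_zero_left h4
  subst hξ
  have h5 : (1 + 2 * ρ) • dGrad s e ζ + (κ * ρ) • ζ = 0 := by
    rw [map_sub] at h1
    simp only [map_neg, map_smul] at h1
    linear_combination (norm := module) (-1 : ℝ) • h1
  have h6 : ζ = 0 := dGrad_comb_inj hs he (by positivity) hκ h5
  refine ⟨?_, h6⟩
  rw [h6]; simp

/-- Injectivity in the `z`-chart -/
lemma inj_z {s κ ρ : ℝ} (hs : 0 < s) (he : ‖e‖ = 1) (hρ : 0 < ρ) (hρ' : ρ ≤ 1) (hκ : 3 * s < κ)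
    {ξ η : E}
    (h1 : dGrad s e (ξ - η) + dGrad s e ξ + κ • ξ = 0)
    (h2 : dGrad s e (η - ξ) + ρ • dGrad s e η + κ • η = 0) : ξ = 0 ∧ η = 0 := by
  have h3 := congrArg (fun u => ⟪u, ξ⟫) h1
  have h4 := congrArg (fun u => ⟪u, η⟫) h2
  simp only [inner_add_left, real_inner_smul_left, real_inner_self_eq_norm_sq, inner_zero_left]
    at h3 h4
  have q1 := dGrad_quad_ge hs he (ξ - η)
  have q2 := dGrad_quad_ge hs he ξ
  have q3 := dGrad_quad_ge hs he η
  have e1 : ⟪dGrad s e (η - ξ), η⟫ = -⟪dGrad s e (ξ - η), η⟫ := by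
    rw [← neg_sub, map_neg, inner_neg_left]
  have e2 : ⟪dGrad s e (ξ - η), ξ - η⟫ = ⟪dGrad s e (ξ - η), ξ⟫ - ⟪dGrad s e (ξ - η), η⟫ :=
    inner_sub_right _ _ _
  rw [e1] at h4
  have n1 : ‖ξ - η‖ ^ 2 ≤ 2 * ‖ξ‖ ^ 2 + 2 * ‖η‖ ^ 2 := by
    have h1 := norm_sub_sq_real ξ η
    have h2 := norm_add_sq_real ξ η
    have h3 : 0 ≤ ‖ξ + η‖ ^ 2 := by positivity
    linarith
  have n2 : 0 ≤ ‖ξ‖ ^ 2 := by positivity
  have n3 : 0 ≤ ‖η‖ ^ 2 := by positivity
  have h5 : ρ * (-s * ‖η‖ ^ 2) ≤ ρ * ⟪dGrad s e η, η⟫ := mul_le_mul_of_nonneg_left q3 hρ.le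
  have h6 : ρ * ‖η‖ ^ 2 ≤ 1 * ‖η‖ ^ 2 := mul_le_mul_of_nonneg_right hρ' n3
  have h7 : s * (ρ * ‖η‖ ^ 2) ≤ s * ‖η‖ ^ 2 := by
    have := mul_le_mul_of_nonneg_left h6 hs.le
    linarith
  have h8 : s * ‖ξ - η‖ ^ 2 ≤ s * (2 * ‖ξ‖ ^ 2 + 2 * ‖η‖ ^ 2) :=
    mul_le_mul_of_nonneg_left n1 hs.le
  have h9 : (κ - 3 * s) * (‖ξ‖ ^ 2 + ‖η‖ ^ 2) ≤ 0 := by nlinarith
  have hpos : 0 < κ - 3 * s := by linarith
  have h10 : ‖ξ‖ ^ 2 + ‖η‖ ^ 2 ≤ 0 := by
    by_contra hcon
    push Not at hcon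
    have := mul_pos hpos hcon
    linarith
  have h11 : ‖ξ‖ ^ 2 = 0 := by linarith
  have h12 : ‖η‖ ^ 2 = 0 := by linarith
  constructor
  · simpa using h11
  · simpa using h12

end base

section maps

/-- Projection to the first factor. -/
noncomputable def πx : (E × E × E) →L[ℝ] E := ContinuousLinearMap.fst ℝ E (E × E)
/-- Projection to the second factor. -/
noncomputable def πy : (E × E × E) →L[ℝ] E :=
  (ContinuousLinearMap.fst ℝ E E).comp (ContinuousLinearMap.snd ℝ E (E × E))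
/-- Projection to the third factor. -/
noncomputable def πz : (E × E × E) →L[ℝ] E :=
  (ContinuousLinearMap.snd ℝ E E).comp (ContinuousLinearMap.snd ℝ E (E × E))

@[simp] lemma πx_apply (p : E × E × E) : πx p = p.1 := rfl
@[simp] lemma πy_apply (p : E × E × E) : πy p = p.2.1 := rfl
@[simp] lemma πz_apply (p : E × E × E) : πz p = p.2.2 := rfl

/-- The set of triples of pairwise distinct points -/
def WW : Set (E × E × E) := {p | p.1 ≠ p.2.1 ∧ p.1 ≠ p.2.2 ∧ p.2.1 ≠ p.2.2}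

lemma isOpen_WW : IsOpen (WW (E := E)) := by
  have h1 : IsOpen {p : E × E × E | p.1 ≠ p.2.1} :=
    isOpen_ne_fun continuous_fst (continuous_fst.comp continuous_snd)
  have h2 : IsOpen {p : E × E × E | p.1 ≠ p.2.2} :=
    isOpen_ne_fun continuous_fst (continuous_snd.comp continuous_snd)
  have h3 : IsOpen {p : E × E × E | p.2.1 ≠ p.2.2} :=
    isOpen_ne_fun (continuous_fst.comp continuous_snd) (continuous_snd.comp continuous_snd)
  exact h1.inter (h2.inter h3)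

/-- The first equation as a function on triples. -/
noncomputable def G1 (s κ : ℝ) (p : E × E × E) : E := F1 s κ p.1 p.2.1 p.2.2

/-- The second equation as a function on triples. -/
noncomputable def G2 (s κ : ℝ) (e g : E) (p : E × E × E) : E := F2 s κ e g p.1 p.2.1 p.2.2

/-- Derivative of `G1`. -/
noncomputable def D1 (s κ : ℝ) (p : E × E × E) : (E × E × E) →L[ℝ] E :=
  (dGrad s (p.1 - p.2.1)).comp (πx - πy) + (dGrad s (p.1 - p.2.2)).comp (πx - πz) + κ • πx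

/-- Derivative of `G2`. -/
noncomputable def D2 (s κ : ℝ) (p : E × E × E) : (E × E × E) →L[ℝ] E :=
  (dGrad s (p.2.1 - p.1)).comp (πy - πx) + (dGrad s (p.2.1 - p.2.2)).comp (πy - πz) + κ • πy

lemma comp_gradH {s : ℝ} (A : (E × E × E) →L[ℝ] E) {f : E × E × E → E} (hf : ∀ q, A q = f q)
    {p : E × E × E} (hv : f p ≠ 0) :
    HasFDerivAt (fun q => gradH s (f q)) ((dGrad s (f p)).comp A) p := by
  have h : f = ⇑A := funext fun q => (hf q).symm
  subst h
  exact (hasFDerivAt_gradH s hv).comp p A.hasFDerivAt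

lemma comp_contDiff_gradH {s : ℝ} (A : (E × E × E) →L[ℝ] E) {f : E × E × E → E}
    (hf : ∀ q, A q = f q) {p : E × E × E} (hv : f p ≠ 0) :
    ContDiffAt ℝ ∞ (fun q => gradH s (f q)) p := by
  have h : f = ⇑A := funext fun q => (hf q).symm
  subst h
  exact (contDiffAt_gradH s hv).comp p A.contDiff.contDiffAt

lemma hasFDerivAt_G1 (s κ : ℝ) {p : E × E × E} (hp : p ∈ WW) :
    HasFDerivAt (G1 s κ) (D1 s κ p) p := by
  have h1 : HasFDerivAt (fun q : E × E × E => gradH s (q.1 - q.2.1))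
      ((dGrad s (p.1 - p.2.1)).comp (πx - πy)) p :=
    comp_gradH (πx - πy) (f := fun q : E × E × E => q.1 - q.2.1) (fun q => by simp) (sub_ne_zero.2 hp.1)
  have h2 : HasFDerivAt (fun q : E × E × E => gradH s (q.1 - q.2.2))
      ((dGrad s (p.1 - p.2.2)).comp (πx - πz)) p :=
    comp_gradH (πx - πz) (f := fun q : E × E × E => q.1 - q.2.2) (fun q => by simp) (sub_ne_zero.2 hp.2.1)
  have h3' : HasFDerivAt (fun q : E × E × E => q.1) (πx (E := E)) p := ContinuousLinearMap.hasFDerivAt (πx (E := E))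
  have h3 : HasFDerivAt (fun q : E × E × E => κ • q.1) (κ • πx) p := h3'.const_smul κ
  exact (h1.add h2).add h3

lemma hasFDerivAt_G2 (s κ : ℝ) (e g : E) {p : E × E × E} (hp : p ∈ WW) :
    HasFDerivAt (G2 s κ e g) (D2 s κ p) p := by
  have h1 : HasFDerivAt (fun q : E × E × E => gradH s (q.2.1 - q.1))
      ((dGrad s (p.2.1 - p.1)).comp (πy - πx)) p :=
    comp_gradH (πy - πx) (f := fun q : E × E × E => q.2.1 - q.1) (fun q => by simp) (sub_ne_zero.2 hp.1.symm)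
  have h2 : HasFDerivAt (fun q : E × E × E => gradH s (q.2.1 - q.2.2))
      ((dGrad s (p.2.1 - p.2.2)).comp (πy - πz)) p :=
    comp_gradH (πy - πz) (f := fun q : E × E × E => q.2.1 - q.2.2) (fun q => by simp) (sub_ne_zero.2 hp.2.2)
  have h3' : HasFDerivAt (fun q : E × E × E => q.2.1) (πy (E := E)) p :=
    ContinuousLinearMap.hasFDerivAt (πy (E := E))
  have h3 : HasFDerivAt (fun q : E × E × E => κ • (q.2.1 - e)) (κ • πy) p :=
    (h3'.sub_const e).const_smul κ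
  have h4 := ((h1.add h2).sub_const g).add h3
  exact h4

lemma contDiffAt_G1 (s κ : ℝ) {p : E × E × E} (hp : p ∈ WW) : ContDiffAt ℝ ∞ (G1 s κ) p := by
  have h1 : ContDiffAt ℝ ∞ (fun q : E × E × E => gradH s (q.1 - q.2.1)) p :=
    comp_contDiff_gradH (πx - πy) (f := fun q : E × E × E => q.1 - q.2.1) (fun q => by simp) (sub_ne_zero.2 hp.1)
  have h2 : ContDiffAt ℝ ∞ (fun q : E × E × E => gradH s (q.1 - q.2.2)) p :=
    comp_contDiff_gradH (πx - πz) (f := fun q : E × E × E => q.1 - q.2.2) (fun q => by simp) (sub_ne_zero.2 hp.2.1)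
  have h3' : ContDiffAt ℝ ∞ (fun q : E × E × E => q.1) p :=
    (ContinuousLinearMap.contDiff (πx (E := E))).contDiffAt
  have h3 : ContDiffAt ℝ ∞ (fun q : E × E × E => κ • q.1) p := contDiffAt_const.smul h3'
  exact (h1.add h2).add h3

lemma contDiffAt_G2 (s κ : ℝ) (e g : E) {p : E × E × E} (hp : p ∈ WW) :
    ContDiffAt ℝ ∞ (G2 s κ e g) p := by
  have h1 : ContDiffAt ℝ ∞ (fun q : E × E × E => gradH s (q.2.1 - q.1)) p :=
    comp_contDiff_gradH (πy - πx) (f := fun q : E × E × E => q.2.1 - q.1) (fun q => by simp) (sub_ne_zero.2 hp.1.symm)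
  have h2 : ContDiffAt ℝ ∞ (fun q : E × E × E => gradH s (q.2.1 - q.2.2)) p :=
    comp_contDiff_gradH (πy - πz) (f := fun q : E × E × E => q.2.1 - q.2.2) (fun q => by simp) (sub_ne_zero.2 hp.2.2)
  have h3' : ContDiffAt ℝ ∞ (fun q : E × E × E => q.2.1) p :=
    (ContinuousLinearMap.contDiff (πy (E := E))).contDiffAt
  have h3 : ContDiffAt ℝ ∞ (fun q : E × E × E => κ • (q.2.1 - e)) p :=
    contDiffAt_const.smul (h3'.sub contDiffAt_const)
  exact ((h1.add h2).sub contDiffAt_const).add h3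

end maps

section sheet

variable [FiniteDimensional ℝ E]

/-- An injective endomorphism of a finite dimensional space is an equivalence. -/
lemma exists_equiv_of_injective {P : Type*} [NormedAddCommGroup P] [NormedSpace ℝ P]
    [FiniteDimensional ℝ P] (L : P →L[ℝ] P) (h : Function.Injective L) :
    ∃ e : P ≃L[ℝ] P, (e : P →L[ℝ] P) = L := by
  refine ⟨(LinearEquiv.ofInjectiveEndo (L : P →ₗ[ℝ] P) h).toContinuousLinearEquiv, ?_⟩
  ext x
  rfl

/-- The chart map attached to a coordinate `a`. -/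
noncomputable def chartMap (s κ : ℝ) (e g : E) (a : (E × E × E) →L[ℝ] E) (p : E × E × E) :
    E × E × E := (a p, G1 s κ p, G2 s κ e g p)

lemma chart_exists {s κ : ℝ} {e g : E} (a : (E × E × E) →L[ℝ] E) {b : E × E × E} (hb : b ∈ WW)
    (hinj : Function.Injective (a.prod ((D1 s κ b).prod (D2 s κ b)))) :
    ∃ Φ : OpenPartialHomeomorph (E × E × E) (E × E × E), b ∈ Φ.source ∧
      (∀ p, Φ p = chartMap s κ e g a p) ∧ Φ.source ⊆ WW ∧
      ∀ q ∈ Φ.target, ContDiffAt ℝ ∞ Φ.symm q := by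
  obtain ⟨f', hf'⟩ := exists_equiv_of_injective _ hinj
  have hsmooth : ∀ p ∈ WW, ContDiffAt ℝ ∞ (chartMap s κ e g a) p := fun p hp =>
    a.contDiff.contDiffAt.prodMk ((contDiffAt_G1 s κ hp).prodMk (contDiffAt_G2 s κ e g hp))
  have hd : HasFDerivAt (chartMap s κ e g a) (f' : (E × E × E) →L[ℝ] (E × E × E)) b := by
    rw [hf']
    exact a.hasFDerivAt.prodMk ((hasFDerivAt_G1 s κ hb).prodMk (hasFDerivAt_G2 s κ e g hb))
  exact exists_chart _ b WW isOpen_WW hb hsmooth f' hd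

lemma chart_facts {s κ : ℝ} {e g : E} (a : (E × E × E) →L[ℝ] E)
    (Φ : OpenPartialHomeomorph (E × E × E) (E × E × E))
    (hΦ : ∀ p, Φ p = chartMap s κ e g a p) (hsm : ∀ q ∈ Φ.target, ContDiffAt ℝ ∞ Φ.symm q)
    (S : Set (E × E × E)) (hS : IsOpen S) (hSsub : S ⊆ Φ.source) :
    ∃ U : Set E, ∃ Γ : E → E × E × E, IsOpen U ∧
      (∀ t ∈ U, Γ t ∈ S ∧ a (Γ t) = t ∧ G1 s κ (Γ t) = 0 ∧ G2 s κ e g (Γ t) = 0) ∧
      (∀ p ∈ S, G1 s κ p = 0 → G2 s κ e g p = 0 → a p ∈ U ∧ Γ (a p) = p) ∧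
      (∀ t ∈ U, ContDiffAt ℝ ∞ Γ t) := by
  have hj : Continuous fun t : E => (t, (0 : E), (0 : E)) := by fun_prop
  have hjs : ContDiff ℝ ∞ fun t : E => (t, (0 : E), (0 : E)) :=
    contDiff_id.prodMk contDiff_const
  refine ⟨(fun t : E => (t, (0 : E), (0 : E))) ⁻¹' (Φ '' S), fun t => Φ.symm (t, 0, 0),
    (Φ.isOpen_image_of_subset_source hS hSsub).preimage hj, ?_, ?_, ?_⟩
  · rintro t ⟨p, hp, hpt⟩
    have hpt' : Φ p = (t, 0, 0) := hpt
    have h1 : Φ.symm (t, 0, 0) = p := by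
      rw [← hpt']; exact Φ.left_inv (hSsub hp)
    have h2 : chartMap s κ e g a p = (t, 0, 0) := by rw [← hΦ]; exact hpt
    simp only [chartMap, Prod.mk.injEq] at h2
    simp only [h1]
    exact ⟨hp, h2.1, h2.2.1, h2.2.2⟩
  · intro p hp h1 h2
    have h3 : Φ p = (a p, 0, 0) := by
      rw [hΦ, chartMap, h1, h2]
    refine ⟨⟨p, hp, h3⟩, ?_⟩
    simp only
    rw [← h3]
    exact Φ.left_inv (hSsub hp)
  · rintro t ⟨p, hp, hpt⟩
    have hpt' : Φ p = (t, 0, 0) := hpt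
    have htgt : (t, (0 : E), (0 : E)) ∈ Φ.target := by
      rw [← hpt']; exact Φ.map_source (hSsub hp)
    exact (hsm _ htgt).comp t hjs.contDiffAt

/-- The sheet data. -/
structure Sheet (s κ : ℝ) (e g : E) where
  Ux : Set E
  Uy : Set E
  Uz : Set E
  hUx : IsOpen Ux
  hUy : IsOpen Uy
  hUz : IsOpen Uz
  Y : E → E
  Z : E → E
  XY : E → E
  XZ : E → E
  zero_mem : (0 : E) ∈ Ux
  Y_zero : Y 0 = e
  Z_zero : Z 0 = -e
  Y_maps : ∀ t ∈ Ux, Y t ∈ Uy
  Z_maps : ∀ t ∈ Ux, Z t ∈ Uz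
  XY_maps : ∀ y ∈ Uy, XY y ∈ Ux
  XZ_maps : ∀ z ∈ Uz, XZ z ∈ Ux
  XY_Y : ∀ t ∈ Ux, XY (Y t) = t
  Y_XY : ∀ y ∈ Uy, Y (XY y) = y
  XZ_Z : ∀ t ∈ Ux, XZ (Z t) = t
  Z_XZ : ∀ z ∈ Uz, Z (XZ z) = z
  Y_smooth : ContDiffOn ℝ ∞ Y Ux
  Z_smooth : ContDiffOn ℝ ∞ Z Ux
  XY_smooth : ContDiffOn ℝ ∞ XY Uy
  XZ_smooth : ContDiffOn ℝ ∞ XZ Uz
  F1_eq : ∀ t ∈ Ux, F1 s κ t (Y t) (Z t) = 0
  F2_eq : ∀ t ∈ Ux, F2 s κ e g t (Y t) (Z t) = 0
  ne1 : ∀ t ∈ Ux, t ≠ Y t
  ne2 : ∀ t ∈ Ux, t ≠ Z t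
  ne3 : ∀ t ∈ Ux, Y t ≠ Z t

/-- Linking lemma for charts: from three charts sharing the equations to the sheet data. -/
theorem exists_sheet {s κ ρ : ℝ} (hs : 0 < s) {e : E} (he : ‖e‖ = 1) (hρ : ρ = (2 : ℝ) ^ (-s - 2))
    (hρ1 : ρ ≤ 1) (hκ1 : (1 + 2 * ρ) * s < κ) (hκ2 : (1 + 2 * ρ) * s < κ * ρ) (hκ3 : 3 * s < κ) :
    Nonempty (Sheet s κ e (gradH s e + gradH s ((2 : ℝ) • e))) := by
  set g := gradH s e + gradH s ((2 : ℝ) • e) with hg
  have he0 : e ≠ 0 := by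
    intro h; rw [h] at he; simp at he
  have hρ0 : 0 < ρ := by rw [hρ]; exact Real.rpow_pos_of_pos (by norm_num) _
  set b : E × E × E := (0, e, -e) with hb
  have hbW : b ∈ WW := by
    refine ⟨?_, ?_, ?_⟩
    · exact he0.symm
    · simpa [hb] using he0
    · intro h
      have h1 : e = -e := h
      have h2 : e + e = 0 := by nth_rw 1 [h1]; simp
      have h3 : (2 : ℝ) • e = 0 := by rw [two_smul]; exact h2
      exact he0 ((smul_eq_zero.1 h3).resolve_left (by norm_num))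
  have e2 : e - -e = (2 : ℝ) • e := by rw [sub_neg_eq_add, two_smul]
  -- the derivatives at the base point
  have hD1 : ∀ ξ η ζ : E, D1 s κ b (ξ, η, ζ) =
      dGrad s e (ξ - η) + dGrad s e (ξ - ζ) + κ • ξ := by
    intro ξ η ζ
    simp only [D1, hb, add_apply, ContinuousLinearMap.comp_apply, sub_apply, smul_apply,
      πx_apply, πy_apply, πz_apply, zero_sub, neg_neg, dGrad_neg]
  have hD2 : ∀ ξ η ζ : E, D2 s κ b (ξ, η, ζ) =
      dGrad s e (η - ξ) + ρ • dGrad s e (η - ζ) + κ • η := by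
    intro ξ η ζ
    simp only [D2, hb, add_apply, ContinuousLinearMap.comp_apply, sub_apply, smul_apply,
      πx_apply, πy_apply, πz_apply, sub_zero, e2, dGrad_two_smul s he, ← hρ]
  have hinjx : Function.Injective (πx.prod ((D1 s κ b).prod (D2 s κ b))) := by
    rw [injective_iff_map_eq_zero]
    rintro ⟨ξ, η, ζ⟩ h
    have h0 : ξ = 0 := congrArg Prod.fst h
    have h1 := congrArg (fun u => u.2.1) h
    have h2 := congrArg (fun u => u.2.2) h
    simp only [ContinuousLinearMap.prod_apply, hD1, hD2] at h1 h2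
    subst h0
    simp only [zero_sub, smul_zero, add_zero, sub_zero] at h1 h2
    obtain ⟨h3, h4⟩ := inj_x hs he hρ0 hκ1 h1 h2
    simp [h3, h4]
  have hinjy : Function.Injective (πy.prod ((D1 s κ b).prod (D2 s κ b))) := by
    rw [injective_iff_map_eq_zero]
    rintro ⟨ξ, η, ζ⟩ h
    have h0 : η = 0 := congrArg Prod.fst h
    have h1 := congrArg (fun u => u.2.1) h
    have h2 := congrArg (fun u => u.2.2) h
    simp only [ContinuousLinearMap.prod_apply, hD1, hD2] at h1 h2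
    subst h0
    simp only [zero_sub, smul_zero, add_zero, sub_zero] at h1 h2
    obtain ⟨h3, h4⟩ := inj_y hs he hρ0 hκ2 h1 h2
    simp [h3, h4]
  have hinjz : Function.Injective (πz.prod ((D1 s κ b).prod (D2 s κ b))) := by
    rw [injective_iff_map_eq_zero]
    rintro ⟨ξ, η, ζ⟩ h
    have h0 : ζ = 0 := congrArg Prod.fst h
    have h1 := congrArg (fun u => u.2.1) h
    have h2 := congrArg (fun u => u.2.2) h
    simp only [ContinuousLinearMap.prod_apply, hD1, hD2] at h1 h2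
    subst h0
    simp only [zero_sub, smul_zero, add_zero, sub_zero] at h1 h2
    obtain ⟨h3, h4⟩ := inj_z hs he hρ0 hρ1 hκ3 h1 h2
    simp [h3, h4]
  obtain ⟨Φx, hbx, hΦx, hsx, hsmx⟩ := chart_exists (e := e) (g := g) πx hbW hinjx
  obtain ⟨Φy, hby, hΦy, hsy, hsmy⟩ := chart_exists (e := e) (g := g) πy hbW hinjy
  obtain ⟨Φz, hbz, hΦz, hsz, hsmz⟩ := chart_exists (e := e) (g := g) πz hbW hinjz
  set S := Φx.source ∩ (Φy.source ∩ Φz.source) with hS
  have hSo : IsOpen S := Φx.open_source.inter (Φy.open_source.inter Φz.open_source)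
  obtain ⟨Ux, Γx, hUx, hx1, hx2, hx3⟩ :=
    chart_facts πx Φx hΦx hsmx S hSo inter_subset_left
  obtain ⟨Uy, Γy, hUy, hy1, hy2, hy3⟩ :=
    chart_facts πy Φy hΦy hsmy S hSo (inter_subset_right.trans inter_subset_left)
  obtain ⟨Uz, Γz, hUz, hz1, hz2, hz3⟩ :=
    chart_facts πz Φz hΦz hsmz S hSo (inter_subset_right.trans inter_subset_right)
  have hSW : S ⊆ WW := inter_subset_left.trans hsx
  have hbS : b ∈ S := ⟨hbx, hby, hbz⟩
  have hG1b : G1 s κ b = 0 := by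
    simp [G1, F1, hb, gradH_neg]
  have hG2b : G2 s κ e g b = 0 := by
    simp only [G2, F2, hb, sub_zero, e2, sub_self, smul_zero, add_zero, hg]
  have hx0 := hx2 b hbS hG1b hG2b
  have hy0 := hy2 b hbS hG1b hG2b
  have hz0 := hz2 b hbS hG1b hG2b
  have hΓ0 : Γx 0 = b := hx0.2
  refine ⟨{ Ux := Ux, Uy := Uy, Uz := Uz, hUx := hUx, hUy := hUy, hUz := hUz,
            Y := fun t => (Γx t).2.1, Z := fun t => (Γx t).2.2,
            XY := fun y => (Γy y).1, XZ := fun z => (Γz z).1,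
            zero_mem := hx0.1, Y_zero := ?_, Z_zero := ?_, Y_maps := ?_, Z_maps := ?_,
            XY_maps := ?_, XZ_maps := ?_, XY_Y := ?_, Y_XY := ?_, XZ_Z := ?_, Z_XZ := ?_,
            Y_smooth := ?_, Z_smooth := ?_, XY_smooth := ?_, XZ_smooth := ?_,
            F1_eq := ?_, F2_eq := ?_, ne1 := ?_, ne2 := ?_, ne3 := ?_ }⟩
  · simp [hΓ0, hb]
  · simp [hΓ0, hb]
  · intro t ht
    obtain ⟨h1, -, h3, h4⟩ := hx1 t ht
    exact (hy2 _ h1 h3 h4).1
  · intro t ht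
    obtain ⟨h1, -, h3, h4⟩ := hx1 t ht
    exact (hz2 _ h1 h3 h4).1
  · intro t ht
    obtain ⟨h1, -, h3, h4⟩ := hy1 t ht
    exact (hx2 _ h1 h3 h4).1
  · intro t ht
    obtain ⟨h1, -, h3, h4⟩ := hz1 t ht
    exact (hx2 _ h1 h3 h4).1
  · intro t ht
    obtain ⟨h1, h2, h3, h4⟩ := hx1 t ht
    have h5 := (hy2 _ h1 h3 h4).2
    have h6 : Γy (Γx t).2.1 = Γx t := h5
    simp only [h6]
    exact h2
  · intro t ht
    obtain ⟨h1, h2, h3, h4⟩ := hy1 t ht
    have h5 := (hx2 _ h1 h3 h4).2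
    have h6 : Γx (Γy t).1 = Γy t := h5
    simp only [h6]
    exact h2
  · intro t ht
    obtain ⟨h1, h2, h3, h4⟩ := hx1 t ht
    have h5 := (hz2 _ h1 h3 h4).2
    have h6 : Γz (Γx t).2.2 = Γx t := h5
    simp only [h6]
    exact h2
  · intro t ht
    obtain ⟨h1, h2, h3, h4⟩ := hz1 t ht
    have h5 := (hx2 _ h1 h3 h4).2
    have h6 : Γx (Γz t).1 = Γz t := h5
    simp only [h6]
    exact h2
  · intro t ht
    have : ContDiffAt ℝ ∞ (fun t => πy (Γx t)) t :=
      (ContinuousLinearMap.contDiff (πy (E := E))).contDiffAt.comp t (hx3 t ht)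
    exact this.contDiffWithinAt
  · intro t ht
    have : ContDiffAt ℝ ∞ (fun t => πz (Γx t)) t :=
      (ContinuousLinearMap.contDiff (πz (E := E))).contDiffAt.comp t (hx3 t ht)
    exact this.contDiffWithinAt
  · intro t ht
    have : ContDiffAt ℝ ∞ (fun t => πx (Γy t)) t :=
      (ContinuousLinearMap.contDiff (πx (E := E))).contDiffAt.comp t (hy3 t ht)
    exact this.contDiffWithinAt
  · intro t ht
    have : ContDiffAt ℝ ∞ (fun t => πx (Γz t)) t :=
      (ContinuousLinearMap.contDiff (πx (E := E))).contDiffAt.comp t (hz3 t ht)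
    exact this.contDiffWithinAt
  · intro t ht
    obtain ⟨h1, h2, h3, h4⟩ := hx1 t ht
    have h5 : (Γx t).1 = t := h2
    have : F1 s κ (Γx t).1 (Γx t).2.1 (Γx t).2.2 = 0 := h3
    rwa [h5] at this
  · intro t ht
    obtain ⟨h1, h2, h3, h4⟩ := hx1 t ht
    have h5 : (Γx t).1 = t := h2
    have : F2 s κ e g (Γx t).1 (Γx t).2.1 (Γx t).2.2 = 0 := h4
    rwa [h5] at this
  · intro t ht
    obtain ⟨h1, h2, h3, h4⟩ := hx1 t ht
    have h5 : (Γx t).1 = t := h2
    have h6 := (hSW h1).1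
    rwa [h5] at h6
  · intro t ht
    obtain ⟨h1, h2, h3, h4⟩ := hx1 t ht
    have h5 : (Γx t).1 = t := h2
    have h6 := (hSW h1).2.1
    rwa [h5] at h6
  · intro t ht
    obtain ⟨h1, h2, h3, h4⟩ := hx1 t ht
    exact (hSW h1).2.2

end sheet

end Crest.Agent.S0175Lib
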