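import Mathlib
import Crest.Agent.S0175Lib.Sheet
import Crest.Agent.S0175Lib.Params

/-!
# The geometric setup: five small regions in a cross
-/

set_option autoImplicit false
set_option linter.unusedSectionVars false

namespace Crest.Agent.S0175Lib

open MeasureTheory Set Filter Topology Metric
open scoped ENNReal ContDiff RealInnerProductSpace
open Crest.AnalysisR.OT

variable {E : Type*} [NormedAddCommGroup E] [InnerProductSpace ℝ E]

/-- The slope of the potential at `e`. -/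
noncomputable def gE (s : ℝ) (e : E) : E := gradH s e + gradH s ((2 : ℝ) • e)

/-- The full setup. -/
structure Setup (E : Type*) [NormedAddCommGroup E] [InnerProductSpace ℝ E] where
  s : ℝ
  hs : 0 < s
  e₁ : E
  e₂ : E
  he₁ : ‖e₁‖ = 1
  he₂ : ‖e₂‖ = 1
  horth : ⟪e₁, e₂⟫ = 0
  R : E ≃ₗᵢ[ℝ] E
  hRR : ∀ x, R (R x) = x
  hRe : R e₁ = e₂
  sh : Sheet s (κ₀ s) e₁ (gE s e₁)
  r : ℝ
  δ : ℝ
  a : ℝ
  good : GoodParams s ‖gE s e₁‖ r δ
  ha0 : 0 < a
  har : a ≤ r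
  hball : closedBall (0 : E) a ⊆ sh.Ux
  hY : ∀ t ∈ closedBall (0 : E) a, ‖sh.Y t - e₁‖ ≤ r
  hZ : ∀ t ∈ closedBall (0 : E) a, ‖sh.Z t + e₁‖ ≤ r
  hW : ∀ t ∈ closedBall (0 : E) a,
    |Psi s (κ₀ s) e₁ (gE s e₁) t (sh.Y t) (sh.Z t) - a₀ s| ≤ δ

namespace Setup

variable (D : Setup E)

/-- The base region. -/
def A : Set E := closedBall 0 D.a

/-- The isometric involution attached to a sheet. -/
def Rj (j : Bool) (x : E) : E := match j with
  | true => x
  | false => D.R x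

@[simp] lemma Rj_true (x : E) : D.Rj true x = x := rfl
@[simp] lemma Rj_false (x : E) : D.Rj false x = D.R x := rfl

@[simp] lemma Rj_Rj (j : Bool) (x : E) : D.Rj j (D.Rj j x) = x := by
  cases j
  · exact D.hRR x
  · rfl

lemma Rj_norm (j : Bool) (x : E) : ‖D.Rj j x‖ = ‖x‖ := by
  cases j
  · exact D.R.norm_map x
  · rfl

lemma Rj_sub (j : Bool) (x y : E) : D.Rj j x - D.Rj j y = D.Rj j (x - y) := by
  cases j
  · exact (map_sub D.R x y).symm
  · rfl

lemma Rj_add (j : Bool) (x y : E) : D.Rj j x + D.Rj j y = D.Rj j (x + y) := by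
  cases j
  · exact (map_add D.R x y).symm
  · rfl

lemma Rj_neg (j : Bool) (x : E) : D.Rj j (-x) = -D.Rj j x := by
  cases j
  · exact map_neg D.R x
  · rfl

lemma Rj_dist (j : Bool) (x y : E) : ‖D.Rj j x - D.Rj j y‖ = ‖x - y‖ := by
  rw [Rj_sub, Rj_norm]

lemma Rj_continuous (j : Bool) : Continuous (D.Rj j) := by
  cases j
  · exact D.R.continuous
  · exact continuous_id

lemma mem_A_iff {x : E} : x ∈ D.A ↔ ‖x‖ ≤ D.a := by
  simp [A]

lemma Rj_mem_A (j : Bool) {x : E} (hx : x ∈ D.A) : D.Rj j x ∈ D.A := by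
  rw [mem_A_iff, Rj_norm]; exact D.mem_A_iff.1 hx

lemma A_sub_Ux : D.A ⊆ D.sh.Ux := D.hball

/-- The base copy of the region `B`. -/
def B₀ : Set E := D.sh.Y '' D.A

/-- The base copy of the region `C`. -/
def C₀ : Set E := D.sh.Z '' D.A

/-- The region `B` of sheet `j`. -/
def Bj (j : Bool) : Set E := D.Rj j ⁻¹' D.B₀

/-- The region `C` of sheet `j`. -/
def Cj (j : Bool) : Set E := D.Rj j ⁻¹' D.C₀

/-- The center of `B` of sheet `j`. -/
def Pj (j : Bool) : E := D.Rj j D.e₁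

lemma Pj_true : D.Pj true = D.e₁ := rfl
lemma Pj_false : D.Pj false = D.e₂ := D.hRe

lemma Pj_norm (j : Bool) : ‖D.Pj j‖ = 1 := by
  rw [Pj, Rj_norm, D.he₁]

lemma inner_Pj {j j' : Bool} (h : j ≠ j') : ⟪D.Pj j, D.Pj j'⟫ = 0 := by
  cases j <;> cases j'
  · exact absurd rfl h
  · rw [Pj_false, Pj_true, real_inner_comm]; exact D.horth
  · rw [Pj_false, Pj_true]; exact D.horth
  · exact absurd rfl h

lemma norm_A {x : E} (hx : x ∈ D.A) : ‖x‖ ≤ D.r := (D.mem_A_iff.1 hx).trans D.har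

lemma mem_B_loc {j : Bool} {y : E} (hy : y ∈ D.Bj j) : ‖y - D.Pj j‖ ≤ D.r := by
  obtain ⟨t, ht, hty⟩ := hy
  have := D.hY t ht
  rw [hty] at this
  rw [Pj, ← D.Rj_dist j y (D.Rj j D.e₁), Rj_Rj]
  exact this

lemma mem_C_loc {j : Bool} {y : E} (hy : y ∈ D.Cj j) : ‖y - (-D.Pj j)‖ ≤ D.r := by
  obtain ⟨t, ht, hty⟩ := hy
  have := D.hZ t ht
  rw [hty] at this
  rw [Pj, ← Rj_neg, ← D.Rj_dist j y (D.Rj j (-D.e₁)), Rj_Rj, sub_neg_eq_add]
  exact this

lemma r_pos : 0 < D.r := D.good.hr0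
lemma r_le : D.r ≤ 1 / 8 := D.good.hr1

/-- Closed balls with far apart centers are disjoint -/
lemma far_apart {x y P Q : E} {r : ℝ} (hx : ‖x - P‖ ≤ r) (hy : ‖y - Q‖ ≤ r) (h : 2 * r < ‖P - Q‖) :
    x ≠ y := by
  rintro rfl
  have : ‖P - Q‖ ≤ ‖x - P‖ + ‖x - Q‖ := by
    have h1 : P - Q = -(x - P) + (x - Q) := by abel
    rw [h1]
    exact (norm_add_le _ _).trans (by rw [norm_neg])
  linarith

lemma one_le_norm_of_orth {u v : E} (hu : ‖u‖ = 1) (hv : ‖v‖ = 1) (h : ⟪u, v⟫ = 0) :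
    ‖u - v‖ = Real.sqrt 2 := by
  have h1 : ‖u - v‖ ^ 2 = 2 := by
    rw [norm_sub_sq_real, hu, hv, h]; norm_num
  rw [← h1, Real.sqrt_sq (norm_nonneg _)]

lemma sqrt_two_gt : (1 : ℝ) < Real.sqrt 2 := by
  have : Real.sqrt 1 < Real.sqrt 2 := Real.sqrt_lt_sqrt (by norm_num) (by norm_num)
  rwa [Real.sqrt_one] at this

lemma two_r_lt : 2 * D.r < 1 := by
  have := D.r_le; linarith

lemma Pj_neg_dist (j : Bool) : ‖D.Pj j - (-D.Pj j)‖ = 2 := by
  rw [sub_neg_eq_add, ← two_smul ℝ, norm_smul, Pj_norm]; norm_num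

/-- `A` is disjoint from `B j`. -/
lemma dAB (j : Bool) : Disjoint D.A (D.Bj j) := by
  refine Set.disjoint_left.2 fun x hx hy => ?_
  refine far_apart (P := 0) (Q := D.Pj j) (r := D.r) (by simpa using D.norm_A hx) (D.mem_B_loc hy)
    ?_ rfl
  rw [zero_sub, norm_neg, Pj_norm]
  exact D.two_r_lt

lemma dAC (j : Bool) : Disjoint D.A (D.Cj j) := by
  refine Set.disjoint_left.2 fun x hx hy => ?_
  refine far_apart (P := 0) (Q := -D.Pj j) (r := D.r) (by simpa using D.norm_A hx) (D.mem_C_loc hy)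
    ?_ rfl
  rw [zero_sub, neg_neg, Pj_norm]
  exact D.two_r_lt

lemma dBC (j j' : Bool) : Disjoint (D.Bj j) (D.Cj j') := by
  refine Set.disjoint_left.2 fun x hx hy => ?_
  refine far_apart (P := D.Pj j) (Q := -D.Pj j') (r := D.r) (D.mem_B_loc hx) (D.mem_C_loc hy) ?_ rfl
  by_cases h : j = j'
  · subst h
    rw [Pj_neg_dist]
    have := D.two_r_lt; linarith
  · rw [one_le_norm_of_orth (D.Pj_norm j) (by rw [norm_neg, Pj_norm]) (by
      rw [inner_neg_right, D.inner_Pj h, neg_zero])]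
    have := D.two_r_lt; have := sqrt_two_gt; linarith

lemma dBB : Disjoint (D.Bj true) (D.Bj false) := by
  refine Set.disjoint_left.2 fun x hx hy => ?_
  refine far_apart (P := D.Pj true) (Q := D.Pj false) (r := D.r) (D.mem_B_loc hx)
    (D.mem_B_loc hy) ?_ rfl
  rw [one_le_norm_of_orth (D.Pj_norm _) (D.Pj_norm _) (D.inner_Pj (by simp))]
  have := D.two_r_lt; have := sqrt_two_gt; linarith

lemma dCC : Disjoint (D.Cj true) (D.Cj false) := by
  refine Set.disjoint_left.2 fun x hx hy => ?_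
  refine far_apart (P := -D.Pj true) (Q := -D.Pj false) (r := D.r) (D.mem_C_loc hx)
    (D.mem_C_loc hy) ?_ rfl
  rw [one_le_norm_of_orth (by rw [norm_neg, Pj_norm]) (by rw [norm_neg, Pj_norm]) (by
    rw [inner_neg_left, inner_neg_right, D.inner_Pj (by simp)]; simp)]
  have := D.two_r_lt; have := sqrt_two_gt; linarith

end Setup

end Crest.Agent.S0175Lib
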