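import Mathlib
import Crest.Agent.S0175Lib.Setup

/-!
# The dual potential of the setup and its contact set
-/

set_option autoImplicit false
set_option linter.unusedSectionVars false

namespace Crest.Agent.S0175Lib

open MeasureTheory Set Filter Topology Metric
open scoped ENNReal ContDiff RealInnerProductSpace
open Crest.AnalysisR.OT

variable {E : Type*} [NormedAddCommGroup E] [InnerProductSpace ℝ E]

section cut

/-- Extension of a map from `U` to the whole space by a constant. -/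
noncomputable def cut (U : Set E) (f : E → E) (c : E) : E → E :=
  open Classical in U.piecewise f (fun _ => c)

lemma cut_of_mem {U : Set E} {f : E → E} {c x : E} (hx : x ∈ U) : cut U f c x = f x := by
  simp [cut, hx]

lemma cut_measurable [MeasurableSpace E] [BorelSpace E] {U : Set E} {f : E → E} (c : E)
    (hU : IsOpen U) (hf : ContinuousOn f U) : Measurable (cut U f c) := by
  classical
  exact hf.measurable_piecewise continuousOn_const hU.measurableSet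

end cut

lemma half_rpow_neg (p : ℝ) : (1 / 2 : ℝ) ^ (-p) = 2 ^ p := by
  rw [Real.rpow_neg (by norm_num), one_div, Real.inv_rpow (by norm_num), inv_inv]

lemma rpow_le_of_half_le {v : ℝ} (hv : 1 / 2 ≤ v) {p : ℝ} (hp : 0 ≤ p) :
    v ^ (-p) ≤ 2 ^ p := by
  rw [← half_rpow_neg]
  exact Real.rpow_le_rpow_of_nonpos (by norm_num) hv (by linarith)

namespace Setup

variable (D : Setup E)

/-- The potential on the base region. -/
noncomputable def uA (x : E) : ℝ := a₀ D.s - (κ₀ D.s / 2) * ‖x‖ ^ 2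

/-- The potential on `B`. -/
noncomputable def uB (y : E) : ℝ :=
  ⟪gE D.s D.e₁, y - D.e₁⟫ - (κ₀ D.s / 2) * ‖y - D.e₁‖ ^ 2

/-- The potential of `C` in terms of the parameter `t`. -/
noncomputable def W (t : E) : ℝ :=
  Psi D.s (κ₀ D.s) D.e₁ (gE D.s D.e₁) t (D.sh.Y t) (D.sh.Z t) - a₀ D.s

lemma psi_eq (x y z : E) : Psi D.s (κ₀ D.s) D.e₁ (gE D.s D.e₁) x y z =
    realCost D.s x y z - D.uA x - D.uB y + a₀ D.s := by
  simp only [Psi, uA, uB]
  ring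

lemma W_eq (t : E) : D.W t = realCost D.s t (D.sh.Y t) (D.sh.Z t) - D.uA t - D.uB (D.sh.Y t) := by
  rw [W, psi_eq]
  ring

lemma sheet_dist {t : E} (ht : t ∈ D.A) : 1 / 2 ≤ ‖t - D.sh.Y t‖ ∧ 1 / 2 ≤ ‖t - D.sh.Z t‖ ∧
    1 / 2 ≤ ‖D.sh.Y t - D.sh.Z t‖ := by
  have h1 := D.norm_A ht
  have h2 := D.hY t ht
  have h3 := D.hZ t ht
  have hr := D.r_le
  refine ⟨?_, ?_, ?_⟩
  · have : ‖D.e₁‖ ≤ ‖D.sh.Y t - D.e₁‖ + ‖t - D.sh.Y t‖ + ‖t‖ := by
      have e : D.e₁ = -(D.sh.Y t - D.e₁) + -(t - D.sh.Y t) + t := by abel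
      calc ‖D.e₁‖ = ‖-(D.sh.Y t - D.e₁) + -(t - D.sh.Y t) + t‖ := by rw [← e]
        _ ≤ ‖-(D.sh.Y t - D.e₁)‖ + ‖-(t - D.sh.Y t)‖ + ‖t‖ := norm_add₃_le
        _ = _ := by rw [norm_neg, norm_neg]
    rw [D.he₁] at this
    linarith
  · have : ‖D.e₁‖ ≤ ‖D.sh.Z t + D.e₁‖ + ‖t - D.sh.Z t‖ + ‖t‖ := by
      have e : D.e₁ = (D.sh.Z t + D.e₁) + (t - D.sh.Z t) + -t := by abel
      calc ‖D.e₁‖ = ‖(D.sh.Z t + D.e₁) + (t - D.sh.Z t) + -t‖ := by rw [← e]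
        _ ≤ ‖D.sh.Z t + D.e₁‖ + ‖t - D.sh.Z t‖ + ‖-t‖ := norm_add₃_le
        _ = _ := by rw [norm_neg]
    rw [D.he₁] at this
    linarith
  · have : ‖(2 : ℝ) • D.e₁‖ ≤ ‖D.sh.Y t - D.e₁‖ + ‖D.sh.Z t + D.e₁‖ + ‖D.sh.Y t - D.sh.Z t‖ := by
      have e : (2 : ℝ) • D.e₁ = -(D.sh.Y t - D.e₁) + (D.sh.Z t + D.e₁) + (D.sh.Y t - D.sh.Z t) := by
        rw [two_smul]; abel
      calc ‖(2 : ℝ) • D.e₁‖ = ‖-(D.sh.Y t - D.e₁) + (D.sh.Z t + D.e₁) + (D.sh.Y t - D.sh.Z t)‖ := by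
            rw [← e]
        _ ≤ ‖-(D.sh.Y t - D.e₁)‖ + ‖D.sh.Z t + D.e₁‖ + ‖D.sh.Y t - D.sh.Z t‖ := norm_add₃_le
        _ = _ := by rw [norm_neg]
    rw [norm_smul, D.he₁] at this
    simp only [Real.norm_ofNat, mul_one] at this
    linarith

lemma L_bound {v : E} (hv : 1 / 2 ≤ ‖v‖) : D.s * ‖v‖ ^ (-D.s - 2) ≤ L₀ D.s := by
  have hs := D.hs
  have : ‖v‖ ^ (-D.s - 2) ≤ 2 ^ (D.s + 2) := by
    have h := rpow_le_of_half_le hv (p := D.s + 2) (by linarith)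
    rwa [show -(D.s + 2) = -D.s - 2 by ring] at h
  exact mul_le_mul_of_nonneg_left this hs.le

/-- The key contact inequality at the level of real numbers. -/
lemma contact_real {t : E} (ht : t ∈ D.A) {x y : E} (hxy : x ≠ y) (hxz : x ≠ D.sh.Z t)
    (hyz : y ≠ D.sh.Z t) :
    D.uA x + D.uB y + D.W t + (L₀ D.s / 2) * (‖x - t‖ ^ 2 + ‖y - D.sh.Y t‖ ^ 2) ≤
      realCost D.s x y (D.sh.Z t) := by
  have htU := D.A_sub_Ux ht
  obtain ⟨d1, d2, d3⟩ := D.sheet_dist ht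
  have h := Psi_ge D.hs (x := x) (y := y) (D.sh.F1_eq t htU) (D.sh.F2_eq t htU)
    (D.sh.ne1 t htU) (D.sh.ne2 t htU) (D.sh.ne3 t htU) hxy hxz hyz
    (D.L_bound d1) (D.L_bound d2) (D.L_bound d3) (le_of_eq rfl)
  rw [psi_eq, psi_eq] at h
  have hW := D.W_eq t
  linarith

end Setup

end Crest.Agent.S0175Lib
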