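import Mathlib

/-!
# Pushing atomless measures

For a finite atomless measure `m₁` and a finite measure `m₂` of the same mass on a standard
Borel space there is a measurable map pushing `m₁` to `m₂`.  From this: a splitting lemma
used to build Monge plans close to a given two-sheeted plan.
-/

set_option autoImplicit false
set_option linter.unusedSectionVars false

namespace Crest.Agent.S0175Lib

open MeasureTheory Set Filter Topology ProbabilityTheory
open scoped ENNReal unitInterval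

lemma cdf_continuous (ν : Measure ℝ) [IsProbabilityMeasure ν] [NullSingletonClass ν] :
    Continuous (cdf ν) := by
  rw [continuous_iff_continuousAt]
  intro a
  have hmono : Monotone (cdf ν) := (cdf ν).mono
  have h1 : (cdf ν).measure {a} = 0 := by
    rw [measure_cdf]; exact measure_singleton a
  rw [StieltjesFunction.measure_singleton, ENNReal.ofReal_eq_zero] at h1
  have h2 : Function.leftLim (cdf ν) a ≤ cdf ν a := hmono.leftLim_le le_rfl
  have h3 : Function.leftLim (cdf ν) a = cdf ν a := by linarith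
  rw [continuousAt_iff_continuous_left_right]
  constructor
  · -- left continuity
    rw [← continuousWithinAt_Iio_iff_Iic]
    have := hmono.tendsto_leftLim a
    rw [h3] at this
    exact this
  · exact (cdf ν).right_continuous a

/-- the sublevel sets of the distribution function have the right mass. -/
lemma measure_cdf_le (ν : Measure ℝ) [IsProbabilityMeasure ν] [NullSingletonClass ν]
    {a : ℝ} (ha0 : 0 ≤ a) (ha1 : a ≤ 1) :
    ν {t | cdf ν t ≤ a} = ENNReal.ofReal a := by
  have hc := cdf_continuous ν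
  have hmono : Monotone (cdf ν) := (cdf ν).mono
  by_cases ha : a = 1
  · subst ha
    have : {t | cdf ν t ≤ 1} = univ := by
      ext t; simp [cdf_le_one]
    simp [this]
  have ha' : a < 1 := lt_of_le_of_ne ha1 ha
  set L : Set ℝ := {t | cdf ν t ≤ a} with hL
  have hclosed : IsClosed L := isClosed_le hc continuous_const
  rcases L.eq_empty_or_nonempty with hE | hne
  · have h0 : a = 0 := by
      by_contra h0
      have hpos : 0 < a := lt_of_le_of_ne ha0 (Ne.symm h0)
      have := (tendsto_cdf_atBot ν).eventually (gt_mem_nhds hpos)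
      obtain ⟨t, ht⟩ := this.exists
      have : t ∈ L := ht.le
      rw [hE] at this; exact this
    rw [hE, h0]; simp
  have hbdd : BddAbove L := by
    have := (tendsto_cdf_atTop ν).eventually (lt_mem_nhds ha')
    obtain ⟨t, ht⟩ := this.exists
    refine ⟨t, fun x hx => ?_⟩
    by_contra hlt
    push Not at hlt
    have h1 := hmono hlt.le
    have h2 : cdf ν x ≤ a := hx
    linarith
  set t₀ := sSup L with ht₀
  have hmem : t₀ ∈ L := hclosed.csSup_mem hne hbdd
  have hLeq : L = Iic t₀ := by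
    ext x
    constructor
    · intro hx; exact le_csSup hbdd hx
    · intro hx; exact (hmono hx).trans hmem
  have hval : cdf ν t₀ = a := by
    refine le_antisymm hmem ?_
    refine ge_of_tendsto (hc.tendsto' t₀ _ rfl |>.mono_left (nhdsWithin_le_nhds (s := Ioi t₀))) ?_
    filter_upwards [self_mem_nhdsWithin] with x hx
    by_contra hlt
    push Not at hlt
    have : x ∈ L := hlt.le
    have := le_csSup hbdd this
    exact absurd hx (not_lt.mpr this)
  rw [hLeq, ← hval, ← ofReal_cdf ν t₀]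

/-- The distribution function of an atomless probability measure, as a map to the unit interval,
pushes the measure to Lebesgue measure. -/
lemma exists_map_volume_unitInterval (ν : Measure ℝ) [IsProbabilityMeasure ν]
    [NullSingletonClass ν] :
    ∃ G : ℝ → I, Measurable G ∧ ν.map G = volume := by
  have hG : ∀ t, cdf ν t ∈ I := fun t => ⟨cdf_nonneg ν t, cdf_le_one ν t⟩
  refine ⟨fun t => ⟨cdf ν t, hG t⟩, ?_, ?_⟩
  · exact (cdf_continuous ν).measurable.subtype_mk
  · have hm : Measurable (fun t => (⟨cdf ν t, hG t⟩ : I)) :=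
      (cdf_continuous ν).measurable.subtype_mk
    have : IsFiniteMeasure (ν.map (fun t => (⟨cdf ν t, hG t⟩ : I))) := by
      infer_instance
    refine Measure.ext_of_Iic _ _ fun x => ?_
    rw [Measure.map_apply hm measurableSet_Iic, unitInterval.volume_Iic]
    have : (fun t => (⟨cdf ν t, hG t⟩ : I)) ⁻¹' Iic x = {t | cdf ν t ≤ (x : ℝ)} := by
      ext t; simp [← Subtype.coe_le_coe]
    rw [this, measure_cdf_le ν x.2.1 x.2.2]

section push

variable {X : Type*} [MeasurableSpace X] [StandardBorelSpace X] [Nonempty X]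

/-- An atomless probability measure on a standard Borel space can be pushed to Lebesgue measure
on the unit interval. -/
lemma exists_map_volume_of_atomless (m : Measure X) [IsProbabilityMeasure m]
    [NullSingletonClass m] : ∃ G : X → I, Measurable G ∧ m.map G = volume := by
  have he := measurableEmbedding_embeddingReal X
  set e := embeddingReal X
  have : IsProbabilityMeasure (m.map e) :=
    Measure.isProbabilityMeasure_map he.measurable.aemeasurable
  have : NullSingletonClass (m.map e) := ⟨fun x => by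
    rw [he.map_apply]
    by_cases hx : x ∈ range e
    · obtain ⟨y, rfl⟩ := hx
      have : e ⁻¹' {e y} = {y} := by
        ext z; simp [he.injective.eq_iff]
      rw [this]; exact measure_singleton y
    · have : e ⁻¹' {x} = ∅ := by
        ext z; simp only [mem_preimage, mem_singleton_iff, mem_empty_iff_false, iff_false]
        rintro rfl; exact hx ⟨z, rfl⟩
      rw [this]; simp⟩
  obtain ⟨G, hG, hmap⟩ := exists_map_volume_unitInterval (m.map e)
  refine ⟨G ∘ e, hG.comp he.measurable, ?_⟩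
  rw [← hmap, Measure.map_map hG he.measurable]

/-- **Push lemma** for probability measures. -/
lemma exists_push_prob (m₁ m₂ : Measure X) [IsProbabilityMeasure m₁] [NullSingletonClass m₁]
    [IsProbabilityMeasure m₂] : ∃ T : X → X, Measurable T ∧ m₁.map T = m₂ := by
  obtain ⟨G, hG, hG'⟩ := exists_map_volume_of_atomless m₁
  obtain ⟨f, hf, hf'⟩ := Measure.exists_measurable_map_eq m₂
  refine ⟨f ∘ G, hf.comp hG, ?_⟩
  rw [← Measure.map_map hf hG, hG', hf']

/-- **Push lemma** for finite measures of the same mass. -/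
lemma exists_push (m₁ m₂ : Measure X) [IsFiniteMeasure m₁] [NullSingletonClass m₁]
    [IsFiniteMeasure m₂] (h : m₁ univ = m₂ univ) : ∃ T : X → X, Measurable T ∧ m₁.map T = m₂ := by
  by_cases h0 : m₁ univ = 0
  · have h1 : m₁ = 0 := Measure.measure_univ_eq_zero.mp h0
    have h2 : m₂ = 0 := Measure.measure_univ_eq_zero.mp (h ▸ h0)
    exact ⟨id, measurable_id, by simp [h1, h2]⟩
  set M := m₁ univ with hM
  have hMtop : M ≠ ⊤ := measure_ne_top _ _
  have : IsProbabilityMeasure (M⁻¹ • m₁) := ⟨by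
    simp only [Measure.smul_apply, smul_eq_mul]
    exact ENNReal.inv_mul_cancel h0 hMtop⟩
  have : IsProbabilityMeasure (M⁻¹ • m₂) := ⟨by
    simp only [Measure.smul_apply, smul_eq_mul, ← h]
    exact ENNReal.inv_mul_cancel h0 hMtop⟩
  have : NullSingletonClass (M⁻¹ • m₁) := ⟨fun x => by simp⟩
  obtain ⟨T, hT, hT'⟩ := exists_push_prob (M⁻¹ • m₁) (M⁻¹ • m₂)
  refine ⟨T, hT, ?_⟩
  have hMinv : M * M⁻¹ = 1 := ENNReal.mul_inv_cancel h0 hMtop
  have e1 : m₁ = M • (M⁻¹ • m₁) := by
    rw [smul_smul, hMinv, one_smul]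
  have e2 : m₂ = M • (M⁻¹ • m₂) := by
    rw [smul_smul, hMinv, one_smul]
  rw [e1, e2, Measure.map_smul, hT']

/-- Halving: an atomless finite measure gives half of its mass to some measurable set. -/
lemma exists_half (m : Measure X) [IsFiniteMeasure m] [NullSingletonClass m] :
    ∃ S : Set X, MeasurableSet S ∧ m S = (2⁻¹ : ℝ≥0∞) * m univ := by
  by_cases h0 : m univ = 0
  · exact ⟨univ, MeasurableSet.univ, by simp [h0]⟩
  set M := m univ with hM
  have hMtop : M ≠ ⊤ := measure_ne_top _ _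
  have : IsProbabilityMeasure (M⁻¹ • m) := ⟨by
    simp only [Measure.smul_apply, smul_eq_mul]
    exact ENNReal.inv_mul_cancel h0 hMtop⟩
  have : NullSingletonClass (M⁻¹ • m) := ⟨fun x => by simp⟩
  obtain ⟨G, hG, hG'⟩ := exists_map_volume_of_atomless (M⁻¹ • m)
  have hS : MeasurableSet (G ⁻¹' Iic (⟨1 / 2, by constructor <;> norm_num⟩ : I)) :=
    hG measurableSet_Iic
  refine ⟨_, hS, ?_⟩
  have h1 : (M⁻¹ • m) (G ⁻¹' Iic (⟨1 / 2, by constructor <;> norm_num⟩ : I)) = 2⁻¹ := by
    rw [← Measure.map_apply hG measurableSet_Iic, hG', unitInterval.volume_Iic]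
    show ENNReal.ofReal (1 / 2) = 2⁻¹
    rw [one_div, ENNReal.ofReal_inv_of_pos (by norm_num)]
    simp
  simp only [Measure.smul_apply, smul_eq_mul] at h1
  have hMinv : M * M⁻¹ = 1 := ENNReal.mul_inv_cancel h0 hMtop
  calc m _ = M * (M⁻¹ * m (G ⁻¹' Iic (⟨1 / 2, by constructor <;> norm_num⟩ : I))) := by
        rw [← mul_assoc, hMinv, one_mul]
    _ = 2⁻¹ * M := by rw [h1, mul_comm]

end push

section split

variable {X : Type*} [MetricSpace X] [TopologicalSpace.SeparableSpace X] [MeasurableSpace X]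
  [BorelSpace X] [StandardBorelSpace X] [Nonempty X]

/-- A measurable countable partition into sets of small diameter. -/
lemma exists_small_partition {δ : ℝ} (hδ : 0 < δ) :
    ∃ Q : ℕ → Set X, (∀ n, MeasurableSet (Q n)) ∧ Pairwise (Function.onFun Disjoint Q) ∧
      (⋃ n, Q n) = univ ∧ ∀ n, ∀ x ∈ Q n, ∀ y ∈ Q n, dist x y ≤ δ := by
  obtain ⟨u, hu⟩ := TopologicalSpace.exists_dense_seq X
  set B : ℕ → Set X := fun n => Metric.ball (u n) (δ / 2) with hB
  have hcover : (⋃ n, B n) = univ := by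
    refine eq_univ_of_forall fun x => ?_
    obtain ⟨n, hn⟩ := hu.exists_dist_lt x (half_pos hδ)
    exact mem_iUnion.2 ⟨n, by simpa [hB] using hn⟩
  refine ⟨disjointed B, fun n => MeasurableSet.disjointed
    (fun n => Metric.isOpen_ball.measurableSet) n, disjoint_disjointed B, ?_, ?_⟩
  · rw [iUnion_disjointed, hcover]
  · intro n x hx y hy
    have hx' : x ∈ B n := disjointed_subset B n hx
    have hy' : y ∈ B n := disjointed_subset B n hy
    have h1 : dist x (u n) < δ / 2 := hx'
    have h2 : dist y (u n) < δ / 2 := hy'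
    have := dist_triangle_right x y (u n)
    linarith

/-- Gluing measurable maps along a countable measurable partition. -/
lemma exists_glue (Q : ℕ → Set X) (hQ : ∀ n, MeasurableSet (Q n))
    (hd : Pairwise (Function.onFun Disjoint Q)) (T : ℕ → X → X) (hT : ∀ n, Measurable (T n)) :
    ∃ f : X → X, Measurable f ∧ ∀ n, EqOn f (T n) (Q n) := by
  refine exists_measurable_piecewise Q hQ T hT ?_
  intro i j hij x hx
  exact absurd hx.2 (Set.disjoint_left.mp (hd hij) hx.1)

/-- Pushforward of a glued map, in terms of the pieces. -/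
lemma map_glue (Q : ℕ → Set X) (hQ : ∀ n, MeasurableSet (Q n))
    (hd : Pairwise (Function.onFun Disjoint Q)) (hu : (⋃ n, Q n) = univ)
    (T : ℕ → X → X) (f : X → X) (hf : Measurable f) (hfT : ∀ n, EqOn f (T n) (Q n))
    (ν : Measure X) : ν.map f = Measure.sum fun n => (ν.restrict (Q n)).map (T n) := by
  have h1 : ν = Measure.sum fun n => ν.restrict (Q n) := by
    rw [← Measure.restrict_iUnion hd hQ, hu, Measure.restrict_univ]
  conv_lhs => rw [h1]
  rw [Measure.map_sum hf.aemeasurable]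
  congr 1
  funext n
  refine Measure.map_congr ?_
  filter_upwards [ae_restrict_mem (hQ n)] with x hx using hfT n hx

/-- if `T` pushes `ν` to a measure not charging `Aᶜ`, then `T x ∈ A` for `ν`-a.e. `x`. -/
lemma ae_mem_of_map_eq {ν ν' : Measure X} {T : X → X} (hT : Measurable T) (h : ν.map T = ν')
    {A : Set X} (hA : MeasurableSet A) (h0 : ν' Aᶜ = 0) : ∀ᵐ x ∂ν, T x ∈ A := by
  have : ν (T ⁻¹' Aᶜ) = 0 := by
    rw [← Measure.map_apply hT hA.compl, h, h0]
  rw [ae_iff]
  exact this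

/-- **Splitting lemma.** An atomless finite measure `m` can be split into two parts `m|S`, `m|Sᶜ`,
each of which can be rearranged to `m / 2` and back, moving points only by at most `δ`. -/
theorem exists_split (m : Measure X) [IsFiniteMeasure m] [NullSingletonClass m] {δ : ℝ}
    (hδ : 0 < δ) :
    ∃ (S : Set X) (ψ₁ θ₁ ψ₂ θ₂ : X → X), MeasurableSet S ∧
      Measurable ψ₁ ∧ Measurable θ₁ ∧ Measurable ψ₂ ∧ Measurable θ₂ ∧
      (m.restrict S).map ψ₁ = (2⁻¹ : ℝ≥0∞) • m ∧
      ((2⁻¹ : ℝ≥0∞) • m).map θ₁ = m.restrict S ∧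
      (m.restrict Sᶜ).map ψ₂ = (2⁻¹ : ℝ≥0∞) • m ∧
      ((2⁻¹ : ℝ≥0∞) • m).map θ₂ = m.restrict Sᶜ ∧
      (∀ᵐ x ∂(m.restrict S), dist (ψ₁ x) x ≤ δ) ∧
      (∀ᵐ x ∂m, dist (θ₁ x) x ≤ δ) ∧
      (∀ᵐ x ∂(m.restrict Sᶜ), dist (ψ₂ x) x ≤ δ) ∧
      (∀ᵐ x ∂m, dist (θ₂ x) x ≤ δ) := by
  obtain ⟨Q, hQm, hQd, hQu, hQδ⟩ := exists_small_partition (X := X) hδ
  set m' : Measure X := (2⁻¹ : ℝ≥0∞) • m with hm'
  have : NullSingletonClass m' := ⟨fun x => by simp [hm']⟩
  have : IsFiniteMeasure m' := by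
    rw [hm']; exact Measure.smul_finite m (by simp)
  -- halves of the cells
  have hhalf : ∀ n, ∃ S : Set X, MeasurableSet S ∧ S ⊆ Q n ∧ m S = (2⁻¹ : ℝ≥0∞) * m (Q n) := by
    intro n
    obtain ⟨S, hS, hSm⟩ := exists_half (m.restrict (Q n))
    refine ⟨S ∩ Q n, hS.inter (hQm n), inter_subset_right, ?_⟩
    rw [Measure.restrict_apply hS, Measure.restrict_apply MeasurableSet.univ, univ_inter] at hSm
    exact hSm
  choose Sn hSnm hSnQ hSnhalf using hhalf
  have hcompl : ∀ n, m (Q n \ Sn n) = (2⁻¹ : ℝ≥0∞) * m (Q n) := by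
    intro n
    have h1 : m (Q n \ Sn n) + m (Q n ∩ Sn n) = m (Q n) := measure_sdiff_add_inter _ (hSnm n)
    rw [inter_eq_right.2 (hSnQ n), hSnhalf n] at h1
    have h2 : (2⁻¹ : ℝ≥0∞) * m (Q n) + (2⁻¹ : ℝ≥0∞) * m (Q n) = m (Q n) := by
      rw [← add_mul, ENNReal.inv_two_add_inv_two, one_mul]
    have hfin : (2⁻¹ : ℝ≥0∞) * m (Q n) ≠ ⊤ := ENNReal.mul_ne_top (by simp) (measure_ne_top _ _)
    exact (ENNReal.add_left_inj hfin).1 (h1.trans h2.symm)
  -- the pushes
  have hp1 : ∀ n, ∃ T : X → X, Measurable T ∧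
      (m.restrict (Sn n)).map T = m'.restrict (Q n) := by
    intro n
    refine exists_push _ _ ?_
    simp [hm', hSnhalf n]
  have hp2 : ∀ n, ∃ T : X → X, Measurable T ∧
      (m'.restrict (Q n)).map T = m.restrict (Sn n) := by
    intro n
    refine exists_push _ _ ?_
    simp [hm', hSnhalf n]
  have hp3 : ∀ n, ∃ T : X → X, Measurable T ∧
      (m.restrict (Q n \ Sn n)).map T = m'.restrict (Q n) := by
    intro n
    refine exists_push _ _ ?_
    simp [hm', hcompl n]
  have hp4 : ∀ n, ∃ T : X → X, Measurable T ∧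
      (m'.restrict (Q n)).map T = m.restrict (Q n \ Sn n) := by
    intro n
    refine exists_push _ _ ?_
    simp [hm', hcompl n]
  choose T1 hT1 hT1' using hp1
  choose T2 hT2 hT2' using hp2
  choose T3 hT3 hT3' using hp3
  choose T4 hT4 hT4' using hp4
  obtain ⟨ψ₁, hψ₁, hψ₁'⟩ := exists_glue Q hQm hQd T1 hT1
  obtain ⟨θ₁, hθ₁, hθ₁'⟩ := exists_glue Q hQm hQd T2 hT2
  obtain ⟨ψ₂, hψ₂, hψ₂'⟩ := exists_glue Q hQm hQd T3 hT3
  obtain ⟨θ₂, hθ₂, hθ₂'⟩ := exists_glue Q hQm hQd T4 hT4
  set S : Set X := ⋃ n, Sn n with hS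
  have hSm : MeasurableSet S := MeasurableSet.iUnion hSnm
  have hSnd : Pairwise (Function.onFun Disjoint Sn) := fun i j hij =>
    (hQd hij).mono (hSnQ i) (hSnQ j)
  have hSnd' : Pairwise (Function.onFun Disjoint fun n => Q n \ Sn n) := fun i j hij =>
    (hQd hij).mono sdiff_subset sdiff_subset
  have hQS : ∀ n, Q n ∩ S = Sn n := by
    intro n
    ext x
    constructor
    · rintro ⟨hx, hxS⟩
      obtain ⟨k, hk⟩ := mem_iUnion.1 hxS
      by_cases hkn : k = n
      · exact hkn ▸ hk
      · exact absurd (hSnQ k hk) (Set.disjoint_left.mp (hQd (Ne.symm hkn)) hx)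
    · intro hx
      exact ⟨hSnQ n hx, mem_iUnion.2 ⟨n, hx⟩⟩
  have hQSc : ∀ n, Q n ∩ Sᶜ = Q n \ Sn n := by
    intro n
    ext x
    constructor
    · rintro ⟨hx, hxS⟩
      refine ⟨hx, fun hh => hxS (mem_iUnion.2 ⟨n, hh⟩)⟩
    · rintro ⟨hx, hxS⟩
      refine ⟨hx, fun hh => hxS ?_⟩
      rw [← hQS n]
      exact ⟨hx, hh⟩
  have hScU : Sᶜ = ⋃ n, Q n \ Sn n := by
    ext x
    constructor
    · intro hx
      have : x ∈ ⋃ n, Q n := hQu ▸ mem_univ x
      obtain ⟨n, hn⟩ := mem_iUnion.1 this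
      exact mem_iUnion.2 ⟨n, (hQSc n) ▸ ⟨hn, hx⟩⟩
    · intro hx
      obtain ⟨n, hn⟩ := mem_iUnion.1 hx
      exact ((hQSc n) ▸ hn : x ∈ Q n ∩ Sᶜ).2
  have hsum : ∀ ν : Measure X, ν = Measure.sum fun n => ν.restrict (Q n) := by
    intro ν
    rw [← Measure.restrict_iUnion hQd hQm, hQu, Measure.restrict_univ]
  refine ⟨S, ψ₁, θ₁, ψ₂, θ₂, hSm, hψ₁, hθ₁, hψ₂, hθ₂, ?_, ?_, ?_, ?_, ?_, ?_, ?_, ?_⟩
  · rw [map_glue Q hQm hQd hQu T1 ψ₁ hψ₁ hψ₁']
    conv_rhs => rw [hsum m']
    congr 1
    funext n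
    rw [Measure.restrict_restrict (hQm n), hQS n, hT1']
  · rw [map_glue Q hQm hQd hQu T2 θ₁ hθ₁ hθ₁']
    rw [hS, Measure.restrict_iUnion hSnd hSnm]
    congr 1
    funext n
    rw [hT2']
  · rw [map_glue Q hQm hQd hQu T3 ψ₂ hψ₂ hψ₂']
    conv_rhs => rw [hsum m']
    congr 1
    funext n
    rw [Measure.restrict_restrict (hQm n), hQSc n, hT3']
  · rw [map_glue Q hQm hQd hQu T4 θ₂ hθ₂ hθ₂']
    rw [hScU, Measure.restrict_iUnion hSnd' (fun n => (hQm n).diff (hSnm n))]
    congr 1
    funext n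
    rw [hT4']
  · -- closeness of ψ₁
    rw [hS, Measure.restrict_iUnion hSnd hSnm, Measure.ae_sum_iff]
    intro n
    have h1 : ∀ᵐ x ∂(m.restrict (Sn n)), T1 n x ∈ Q n :=
      ae_mem_of_map_eq (hT1 n) (hT1' n) (hQm n) (by
        rw [Measure.restrict_apply (hQm n).compl]; simp)
    filter_upwards [h1, ae_restrict_mem (hSnm n)] with x hx hxS
    rw [hψ₁' n (hSnQ n hxS)]
    exact hQδ n _ hx _ (hSnQ n hxS)
  · -- closeness of θ₁
    have h0 : ∀ᵐ x ∂m', dist (θ₁ x) x ≤ δ := by
      rw [hsum m', Measure.ae_sum_iff]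
      intro n
      have h1 : ∀ᵐ x ∂(m'.restrict (Q n)), T2 n x ∈ Sn n :=
        ae_mem_of_map_eq (hT2 n) (hT2' n) (hSnm n) (by
          rw [Measure.restrict_apply (hSnm n).compl]; simp)
      filter_upwards [h1, ae_restrict_mem (hQm n)] with x hx hxS
      rw [hθ₁' n hxS]
      exact hQδ n _ (hSnQ n hx) _ hxS
    rwa [hm', Measure.ae_ennreal_smul_measure_iff (by simp)] at h0
  · -- closeness of ψ₂
    rw [hScU, Measure.restrict_iUnion hSnd' (fun n => (hQm n).diff (hSnm n)), Measure.ae_sum_iff]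
    intro n
    have h1 : ∀ᵐ x ∂(m.restrict (Q n \ Sn n)), T3 n x ∈ Q n :=
      ae_mem_of_map_eq (hT3 n) (hT3' n) (hQm n) (by
        rw [Measure.restrict_apply (hQm n).compl]; simp)
    filter_upwards [h1, ae_restrict_mem ((hQm n).diff (hSnm n))] with x hx hxS
    rw [hψ₂' n hxS.1]
    exact hQδ n _ hx _ hxS.1
  · -- closeness of θ₂
    have h0 : ∀ᵐ x ∂m', dist (θ₂ x) x ≤ δ := by
      rw [hsum m', Measure.ae_sum_iff]
      intro n
      have h1 : ∀ᵐ x ∂(m'.restrict (Q n)), T4 n x ∈ Q n \ Sn n :=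
        ae_mem_of_map_eq (hT4 n) (hT4' n) ((hQm n).diff (hSnm n)) (by
          rw [Measure.restrict_apply ((hQm n).diff (hSnm n)).compl]; simp)
      filter_upwards [h1, ae_restrict_mem (hQm n)] with x hx hxS
      rw [hθ₂' n hxS]
      exact hQδ n _ hx.1 _ hxS
    rwa [hm', Measure.ae_ennreal_smul_measure_iff (by simp)] at h0

end split

end Crest.Agent.S0175Lib
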