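import Mathlib
import Crest.Prelude.Def_MultiMarginal
import Crest.Agent.S0175Lib.AtomlessPush

/-!
# The abstract two-sheet argument

Measure-theoretic core: a cost `c`, a potential `v` whose contact set is made of two sheets over
a common base `A`.  Then the symmetrised sheet plan is optimal, no Monge plan is optimal, and Monge
plans approximate the optimum.
-/

set_option autoImplicit false
set_option linter.unusedSectionVars false

namespace Crest.Agent.S0175Lib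

open MeasureTheory Set Filter Topology
open scoped ENNReal
open Crest.AnalysisR.OT

/-- The triple `(x, y, z)` is an ordering of `(t, a, b)`. -/
def IsOrderingOf {X : Type*} (x y z t a b : X) : Prop :=
  (x = t ∧ y = a ∧ z = b) ∨ (x = t ∧ y = b ∧ z = a) ∨ (x = a ∧ y = t ∧ z = b) ∨
  (x = a ∧ y = b ∧ z = t) ∨ (x = b ∧ y = t ∧ z = a) ∨ (x = b ∧ y = a ∧ z = t)

/-- Data of the abstract two-sheet situation. -/
structure TwoSheet (X : Type*) [MetricSpace X] [MeasurableSpace X] where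
  c : X × X × X → ℝ≥0∞
  hc : Measurable c
  c_swap12 : ∀ x y z, c (x, y, z) = c (y, x, z)
  c_swap23 : ∀ x y z, c (x, y, z) = c (x, z, y)
  m₀ : Measure X
  prob : IsProbabilityMeasure m₀
  atomless : NullSingletonClass m₀
  A : Set X
  hA : MeasurableSet A
  hm₀A : m₀ Aᶜ = 0
  Y : Bool → X → X
  Z : Bool → X → X
  XY : Bool → X → X
  XZ : Bool → X → X
  hY : ∀ j, Measurable (Y j)
  hZ : ∀ j, Measurable (Z j)
  hXY : ∀ j, Measurable (XY j)
  hXZ : ∀ j, Measurable (XZ j)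
  B : Bool → Set X
  C : Bool → Set X
  hB : ∀ j, MeasurableSet (B j)
  hC : ∀ j, MeasurableSet (C j)
  dAB : ∀ j, Disjoint A (B j)
  dAC : ∀ j, Disjoint A (C j)
  dBC : ∀ j j', Disjoint (B j) (C j')
  dBB : Disjoint (B true) (B false)
  dCC : Disjoint (C true) (C false)
  Y_mem : ∀ j, ∀ t ∈ A, Y j t ∈ B j
  Z_mem : ∀ j, ∀ t ∈ A, Z j t ∈ C j
  XY_Y : ∀ j, ∀ t ∈ A, XY j (Y j t) = t
  XZ_Z : ∀ j, ∀ t ∈ A, XZ j (Z j t) = t
  v : X → ℝ≥0∞
  hv : Measurable v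
  K : ℝ≥0∞
  hK : K ≠ ⊤
  Vmax : ℝ≥0∞
  hVmax : Vmax ≠ ⊤
  v_bdd : ∀ x ∈ A ∪ (B true ∪ C true) ∪ (B false ∪ C false), v x ≤ Vmax
  v_le : ∀ x ∈ A ∪ (B true ∪ C true) ∪ (B false ∪ C false),
    ∀ y ∈ A ∪ (B true ∪ C true) ∪ (B false ∪ C false),
    ∀ z ∈ A ∪ (B true ∪ C true) ∪ (B false ∪ C false), v x + v y + v z ≤ c (x, y, z) + K
  v_eq : ∀ j, ∀ t ∈ A, v t + v (Y j t) + v (Z j t) = c (t, Y j t, Z j t) + K
  contact : ∀ x ∈ A ∪ (B true ∪ C true) ∪ (B false ∪ C false),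
    ∀ y ∈ A ∪ (B true ∪ C true) ∪ (B false ∪ C false),
    ∀ z ∈ A ∪ (B true ∪ C true) ∪ (B false ∪ C false),
    v x + v y + v z = c (x, y, z) + K → ∃ j, ∃ t ∈ A, IsOrderingOf x y z t (Y j t) (Z j t)
  approx : ∀ η : ℝ≥0∞, 0 < η → ∃ δ : ℝ, 0 < δ ∧ ∀ j, ∀ t ∈ A, ∀ a ∈ A, dist a t ≤ δ →
    c (a, Y j t, Z j t) ≤ c (t, Y j t, Z j t) + η

namespace TwoSheet

variable {X : Type*} [MetricSpace X] [MeasurableSpace X] (d : TwoSheet X)

instance : IsProbabilityMeasure d.m₀ := d.prob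
instance : NullSingletonClass d.m₀ := d.atomless

/-- The domain `D`. -/
def D : Set X := d.A ∪ (d.B true ∪ d.C true) ∪ (d.B false ∪ d.C false)

lemma hD : MeasurableSet d.D :=
  (d.hA.union ((d.hB _).union (d.hC _))).union ((d.hB _).union (d.hC _))

/-- `m₀`-almost every point is in `A`. -/
lemma ae_mem_A : ∀ᵐ t ∂d.m₀, t ∈ d.A := by
  rw [ae_iff]; exact d.hm₀A

lemma A_sub_D : d.A ⊆ d.D := fun _ h => Or.inl (Or.inl h)
lemma B_sub_D (j : Bool) : d.B j ⊆ d.D := fun _ h => by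
  cases j
  · exact Or.inr (Or.inl h)
  · exact Or.inl (Or.inr (Or.inl h))
lemma C_sub_D (j : Bool) : d.C j ⊆ d.D := fun _ h => by
  cases j
  · exact Or.inr (Or.inr h)
  · exact Or.inl (Or.inr (Or.inr h))

/-- The mixture measure (mass 6) -/
noncomputable def M : Measure X :=
  d.m₀ + d.m₀ + d.m₀.map (d.Y true) + d.m₀.map (d.Z true) + d.m₀.map (d.Y false) +
    d.m₀.map (d.Z false)

/-- The marginal measure. -/
noncomputable def μ : Measure X := (6⁻¹ : ℝ≥0∞) • d.M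

lemma lintegral_μ {f : X → ℝ≥0∞} (hf : Measurable f) :
    ∫⁻ x, f x ∂d.μ = 6⁻¹ * (∫⁻ t, f t ∂d.m₀ + ∫⁻ t, f t ∂d.m₀ + ∫⁻ t, f (d.Y true t) ∂d.m₀ +
      ∫⁻ t, f (d.Z true t) ∂d.m₀ + ∫⁻ t, f (d.Y false t) ∂d.m₀ + ∫⁻ t, f (d.Z false t) ∂d.m₀) := by
  simp only [μ, M, lintegral_smul_measure, lintegral_add_measure, smul_eq_mul]
  rw [lintegral_map hf (d.hY _), lintegral_map hf (d.hZ _), lintegral_map hf (d.hY _),
    lintegral_map hf (d.hZ _)]

lemma μ_apply {s : Set X} (hs : MeasurableSet s) :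
    d.μ s = 6⁻¹ * (d.m₀ s + d.m₀ s + d.m₀ (d.Y true ⁻¹' s) + d.m₀ (d.Z true ⁻¹' s) +
      d.m₀ (d.Y false ⁻¹' s) + d.m₀ (d.Z false ⁻¹' s)) := by
  simp only [μ, M, Measure.smul_apply, Measure.add_apply, smul_eq_mul]
  rw [Measure.map_apply (d.hY _) hs, Measure.map_apply (d.hZ _) hs, Measure.map_apply (d.hY _) hs,
    Measure.map_apply (d.hZ _) hs]

lemma six_inv_mul_six : (6⁻¹ : ℝ≥0∞) * 6 = 1 :=
  ENNReal.inv_mul_cancel (by norm_num) (by norm_num)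

instance : IsProbabilityMeasure d.μ := ⟨by
  rw [μ_apply d MeasurableSet.univ]
  simp only [preimage_univ, measure_univ]
  have : (1 + 1 + 1 + 1 + 1 + 1 : ℝ≥0∞) = 6 := by norm_num
  rw [this, six_inv_mul_six]⟩

lemma μ_compl_D : d.μ d.Dᶜ = 0 := by
  rw [μ_apply d d.hD.compl]
  have h1 : d.m₀ d.Dᶜ = 0 := measure_mono_null (compl_subset_compl.2 d.A_sub_D) d.hm₀A
  have hY : ∀ j, d.m₀ (d.Y j ⁻¹' d.Dᶜ) = 0 := fun j => by
    refine measure_mono_null (fun t ht => ?_) d.hm₀A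
    intro htA
    exact ht (d.B_sub_D j (d.Y_mem j t htA))
  have hZ : ∀ j, d.m₀ (d.Z j ⁻¹' d.Dᶜ) = 0 := fun j => by
    refine measure_mono_null (fun t ht => ?_) d.hm₀A
    intro htA
    exact ht (d.C_sub_D j (d.Z_mem j t htA))
  rw [h1, hY, hZ, hY, hZ]
  simp

lemma ae_μ_mem_D : ∀ᵐ x ∂d.μ, x ∈ d.D := by
  rw [ae_iff]; exact d.μ_compl_D

/-- `V = ∫ v dμ`. -/
noncomputable def V : ℝ≥0∞ := ∫⁻ x, d.v x ∂d.μ

lemma V_ne_top : d.V ≠ ⊤ := by
  have : ∫⁻ x, d.v x ∂d.μ ≤ ∫⁻ _, d.Vmax ∂d.μ := by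
    refine lintegral_mono_ae ?_
    filter_upwards [d.ae_μ_mem_D] with x hx using d.v_bdd x hx
  simp only [lintegral_const, measure_univ, mul_one] at this
  exact ne_top_of_le_ne_top d.hVmax this

/-- The cost of sheet `j`. -/
noncomputable def Cj (j : Bool) : ℝ≥0∞ := ∫⁻ t, d.c (t, d.Y j t, d.Z j t) ∂d.m₀

lemma meas_G (j : Bool) : Measurable fun t => (t, d.Y j t, d.Z j t) :=
  measurable_id.prodMk ((d.hY j).prodMk (d.hZ j))

lemma Cj_eq (j : Bool) : d.Cj j + d.K =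
    ∫⁻ t, d.v t ∂d.m₀ + ∫⁻ t, d.v (d.Y j t) ∂d.m₀ + ∫⁻ t, d.v (d.Z j t) ∂d.m₀ := by
  have hc' : Measurable fun t => d.c (t, d.Y j t, d.Z j t) := d.hc.comp (d.meas_G j)
  have hm : Measurable fun t => d.v t + d.v (d.Y j t) := d.hv.add (d.hv.comp (d.hY j))
  rw [← lintegral_add_left d.hv, ← lintegral_add_left hm]
  rw [Cj]
  have : d.K = ∫⁻ _, d.K ∂d.m₀ := by simp
  rw [this, ← lintegral_add_left hc']
  refine lintegral_congr_ae ?_
  filter_upwards [d.ae_mem_A] with t ht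
  simpa using (d.v_eq j t ht).symm

lemma Cj_ne_top (j : Bool) : d.Cj j ≠ ⊤ := by
  have h1 : ∀ f : X → ℝ≥0∞, (∀ᵐ t ∂d.m₀, f t ≤ d.Vmax) → ∫⁻ t, f t ∂d.m₀ ≠ ⊤ := by
    intro f hf
    have := lintegral_mono_ae (μ := d.m₀) hf
    simp only [lintegral_const, measure_univ, mul_one] at this
    exact ne_top_of_le_ne_top d.hVmax this
  have h2 : d.Cj j + d.K ≠ ⊤ := by
    rw [d.Cj_eq j]
    refine ENNReal.add_ne_top.2 ⟨ENNReal.add_ne_top.2 ⟨h1 _ ?_, h1 _ ?_⟩, h1 _ ?_⟩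
    · filter_upwards [d.ae_mem_A] with t ht using d.v_bdd t (d.A_sub_D ht)
    · filter_upwards [d.ae_mem_A] with t ht using d.v_bdd _ (d.B_sub_D j (d.Y_mem j t ht))
    · filter_upwards [d.ae_mem_A] with t ht using d.v_bdd _ (d.C_sub_D j (d.Z_mem j t ht))
  exact (ENNReal.add_ne_top.1 h2).1

/-- `3 V = C₀ + K`, where `C₀ = (C_true + C_false)/2`. -/
lemma three_V : 3 * d.V = (2⁻¹ : ℝ≥0∞) * (d.Cj true + d.Cj false) + d.K := by
  have h1 := d.Cj_eq true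
  have h2 := d.Cj_eq false
  have h3 : d.V = _ := d.lintegral_μ d.hv
  set a := ∫⁻ t, d.v t ∂d.m₀
  set y1 := ∫⁻ t, d.v (d.Y true t) ∂d.m₀
  set z1 := ∫⁻ t, d.v (d.Z true t) ∂d.m₀
  set y2 := ∫⁻ t, d.v (d.Y false t) ∂d.m₀
  set z2 := ∫⁻ t, d.v (d.Z false t) ∂d.m₀
  have h4 : (a + a + y1 + z1 + y2 + z2) = (a + y1 + z1) + (a + y2 + z2) := by abel
  rw [h3, h4, ← h1, ← h2]
  have h5 : (3 : ℝ≥0∞) * (6⁻¹ * (d.Cj true + d.K + (d.Cj false + d.K))) =
      (3 * 6⁻¹) * (d.Cj true + d.K + (d.Cj false + d.K)) := by ring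
  rw [h5]
  have h6 : (3 : ℝ≥0∞) * 6⁻¹ = 2⁻¹ := by
    rw [show (6 : ℝ≥0∞) = 3 * 2 by norm_num, ENNReal.mul_inv (by simp) (by simp), ← mul_assoc,
      ENNReal.mul_inv_cancel (by simp) (by simp), one_mul]
  rw [h6]
  have h7 : (d.Cj true + d.K + (d.Cj false + d.K)) = (d.Cj true + d.Cj false) + 2 * d.K := by ring
  rw [h7, mul_add, ← mul_assoc, ENNReal.inv_mul_cancel (by simp) (by simp), one_mul]

/-- Sheet part of the plan. -/
noncomputable def Pj (j : Bool) : Measure (X × X × X) :=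
  d.m₀.map (fun t => (t, d.Y j t, d.Z j t)) + d.m₀.map (fun t => (d.Y j t, d.Z j t, t)) +
    d.m₀.map (fun t => (d.Z j t, t, d.Y j t))

/-- The symmetrised plan. -/
noncomputable def π₀ : Measure (X × X × X) := (6⁻¹ : ℝ≥0∞) • (d.Pj true + d.Pj false)

lemma meas1 (j : Bool) : Measurable fun t => (t, d.Y j t, d.Z j t) :=
  measurable_id.prodMk ((d.hY j).prodMk (d.hZ j))
lemma meas2 (j : Bool) : Measurable fun t => (d.Y j t, d.Z j t, t) :=
  (d.hY j).prodMk ((d.hZ j).prodMk measurable_id)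
lemma meas3 (j : Bool) : Measurable fun t => (d.Z j t, t, d.Y j t) :=
  (d.hZ j).prodMk (measurable_id.prodMk (d.hY j))

lemma map_fst_Pj (j : Bool) : (d.Pj j).map (fun p => p.1) =
    d.m₀ + d.m₀.map (d.Y j) + d.m₀.map (d.Z j) := by
  have hf : Measurable fun p : X × X × X => p.1 := measurable_fst
  rw [Pj, Measure.map_add _ _ hf, Measure.map_add _ _ hf, Measure.map_map hf (d.meas1 j),
    Measure.map_map hf (d.meas2 j), Measure.map_map hf (d.meas3 j)]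
  have h1 : (fun p : X × X × X => p.1) ∘ (fun t => (t, d.Y j t, d.Z j t)) = id := rfl
  have h2 : (fun p : X × X × X => p.1) ∘ (fun t => (d.Y j t, d.Z j t, t)) = d.Y j := rfl
  have h3 : (fun p : X × X × X => p.1) ∘ (fun t => (d.Z j t, t, d.Y j t)) = d.Z j := rfl
  rw [h1, h2, h3, Measure.map_id]

lemma map_snd_Pj (j : Bool) : (d.Pj j).map (fun p => p.2.1) =
    d.m₀ + d.m₀.map (d.Y j) + d.m₀.map (d.Z j) := by
  have hf : Measurable fun p : X × X × X => p.2.1 := measurable_fst.comp measurable_snd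
  rw [Pj, Measure.map_add _ _ hf, Measure.map_add _ _ hf, Measure.map_map hf (d.meas1 j),
    Measure.map_map hf (d.meas2 j), Measure.map_map hf (d.meas3 j)]
  have h1 : (fun p : X × X × X => p.2.1) ∘ (fun t => (t, d.Y j t, d.Z j t)) = d.Y j := rfl
  have h2 : (fun p : X × X × X => p.2.1) ∘ (fun t => (d.Y j t, d.Z j t, t)) = d.Z j := rfl
  have h3 : (fun p : X × X × X => p.2.1) ∘ (fun t => (d.Z j t, t, d.Y j t)) = id := rfl
  rw [h1, h2, h3, Measure.map_id]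
  abel

lemma map_thd_Pj (j : Bool) : (d.Pj j).map (fun p => p.2.2) =
    d.m₀ + d.m₀.map (d.Y j) + d.m₀.map (d.Z j) := by
  have hf : Measurable fun p : X × X × X => p.2.2 := measurable_snd.comp measurable_snd
  rw [Pj, Measure.map_add _ _ hf, Measure.map_add _ _ hf, Measure.map_map hf (d.meas1 j),
    Measure.map_map hf (d.meas2 j), Measure.map_map hf (d.meas3 j)]
  have h1 : (fun p : X × X × X => p.2.2) ∘ (fun t => (t, d.Y j t, d.Z j t)) = d.Z j := rfl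
  have h2 : (fun p : X × X × X => p.2.2) ∘ (fun t => (d.Y j t, d.Z j t, t)) = id := rfl
  have h3 : (fun p : X × X × X => p.2.2) ∘ (fun t => (d.Z j t, t, d.Y j t)) = d.Y j := rfl
  rw [h1, h2, h3, Measure.map_id]
  abel

lemma M_eq : d.M = (d.m₀ + d.m₀.map (d.Y true) + d.m₀.map (d.Z true)) +
    (d.m₀ + d.m₀.map (d.Y false) + d.m₀.map (d.Z false)) := by
  rw [M]; abel

theorem π₀_coupling : IsCoupling₃ d.μ d.π₀ := by
  refine ⟨?_, ?_, ?_⟩
  · have hf : Measurable fun p : X × X × X => p.1 := measurable_fst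
    rw [π₀, Measure.map_smul, Measure.map_add _ _ hf, map_fst_Pj, map_fst_Pj, μ, M_eq]
  · have hf : Measurable fun p : X × X × X => p.2.1 := measurable_fst.comp measurable_snd
    rw [π₀, Measure.map_smul, Measure.map_add _ _ hf, map_snd_Pj, map_snd_Pj, μ, M_eq]
  · have hf : Measurable fun p : X × X × X => p.2.2 := measurable_snd.comp measurable_snd
    rw [π₀, Measure.map_smul, Measure.map_add _ _ hf, map_thd_Pj, map_thd_Pj, μ, M_eq]

lemma lintegral_Pj (j : Bool) : ∫⁻ p, d.c p ∂(d.Pj j) = 3 * d.Cj j := by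
  rw [Pj, lintegral_add_measure, lintegral_add_measure, lintegral_map d.hc (d.meas1 j),
    lintegral_map d.hc (d.meas2 j), lintegral_map d.hc (d.meas3 j)]
  have h1 : ∀ t, d.c (d.Y j t, d.Z j t, t) = d.c (t, d.Y j t, d.Z j t) := fun t => by
    rw [d.c_swap23, d.c_swap12]
  have h2 : ∀ t, d.c (d.Z j t, t, d.Y j t) = d.c (t, d.Y j t, d.Z j t) := fun t => by
    rw [d.c_swap12, d.c_swap23]
  simp only [h1, h2]
  rw [Cj]
  ring

/-- The optimal cost -/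
lemma cost_π₀ : ∫⁻ p, d.c p ∂d.π₀ = (2⁻¹ : ℝ≥0∞) * (d.Cj true + d.Cj false) := by
  rw [π₀, lintegral_smul_measure, lintegral_add_measure, lintegral_Pj, lintegral_Pj, smul_eq_mul,
    ← mul_add]
  rw [← mul_assoc]
  have h6 : (6⁻¹ : ℝ≥0∞) * 3 = 2⁻¹ := by
    rw [show (6 : ℝ≥0∞) = 3 * 2 by norm_num, ENNReal.mul_inv (by simp) (by simp), mul_comm,
      ← mul_assoc, ENNReal.mul_inv_cancel (by simp) (by simp), one_mul]
  rw [h6]

lemma cost_π₀_add_K : ∫⁻ p, d.c p ∂d.π₀ + d.K = 3 * d.V := by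
  rw [cost_π₀, three_V]

lemma cost_π₀_ne_top : ∫⁻ p, d.c p ∂d.π₀ ≠ ⊤ := by
  rw [cost_π₀]
  exact ENNReal.mul_ne_top (by simp) (ENNReal.add_ne_top.2 ⟨d.Cj_ne_top _, d.Cj_ne_top _⟩)

/-- A coupling lives on `D³`, almost surely. -/
lemma coupling_ae {π : Measure (X × X × X)} (h : IsCoupling₃ d.μ π) :
    ∀ᵐ p ∂π, p.1 ∈ d.D ∧ p.2.1 ∈ d.D ∧ p.2.2 ∈ d.D := by
  have hm1 : Measurable fun p : X × X × X => p.1 := measurable_fst
  have hm2 : Measurable fun p : X × X × X => p.2.1 := measurable_fst.comp measurable_snd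
  have hm3 : Measurable fun p : X × X × X => p.2.2 := measurable_snd.comp measurable_snd
  have hDs : MeasurableSet {x | x ∈ d.D} := d.hD
  have h1 := d.ae_μ_mem_D
  rw [← h.1, ae_map_iff hm1.aemeasurable hDs] at h1
  have h2 := d.ae_μ_mem_D
  rw [← h.2.1, ae_map_iff hm2.aemeasurable hDs] at h2
  have h3 := d.ae_μ_mem_D
  rw [← h.2.2, ae_map_iff hm3.aemeasurable hDs] at h3
  filter_upwards [h1, h2, h3] with p hp1 hp2 hp3 using ⟨hp1, hp2, hp3⟩

lemma lintegral_v_coupling {π : Measure (X × X × X)} (h : IsCoupling₃ d.μ π) :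
    ∫⁻ p, (d.v p.1 + d.v p.2.1 + d.v p.2.2) ∂π = 3 * d.V := by
  have hm1 : Measurable fun p : X × X × X => p.1 := measurable_fst
  have hm2 : Measurable fun p : X × X × X => p.2.1 := measurable_fst.comp measurable_snd
  have hm3 : Measurable fun p : X × X × X => p.2.2 := measurable_snd.comp measurable_snd
  have e1 : ∫⁻ p, d.v p.1 ∂π = d.V := by
    rw [V, ← h.1, lintegral_map d.hv hm1]
  have e2 : ∫⁻ p, d.v p.2.1 ∂π = d.V := by
    rw [V, ← h.2.1, lintegral_map d.hv hm2]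
  have e3 : ∫⁻ p, d.v p.2.2 ∂π = d.V := by
    rw [V, ← h.2.2, lintegral_map d.hv hm3]
  have hm12 : Measurable fun p : X × X × X => d.v p.1 + d.v p.2.1 :=
    (d.hv.comp hm1).add (d.hv.comp hm2)
  have hm1' : Measurable fun p : X × X × X => d.v p.1 := d.hv.comp hm1
  rw [lintegral_add_left hm12, lintegral_add_left hm1', e1, e2, e3]
  ring

lemma coupling_prob {π : Measure (X × X × X)} (h : IsCoupling₃ d.μ π) : π univ = 1 := by
  have hm1 : Measurable fun p : X × X × X => p.1 := measurable_fst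
  have := measure_univ (μ := d.μ)
  rw [← h.1, Measure.map_apply hm1 MeasurableSet.univ, preimage_univ] at this
  exact this

/-- weak duality -/
lemma three_V_le {π : Measure (X × X × X)} (h : IsCoupling₃ d.μ π) :
    3 * d.V ≤ ∫⁻ p, d.c p ∂π + d.K := by
  rw [← d.lintegral_v_coupling h]
  have hK : ∫⁻ _, d.K ∂π = d.K := by
    rw [lintegral_const, d.coupling_prob h, mul_one]
  conv_rhs => rw [← hK]
  rw [← lintegral_add_left d.hc]
  refine lintegral_mono_ae ?_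
  filter_upwards [d.coupling_ae h] with p hp
  exact d.v_le _ hp.1 _ hp.2.1 _ hp.2.2

/-- `π₀` is optimal. -/
theorem π₀_optimal {π : Measure (X × X × X)} (h : IsCoupling₃ d.μ π) :
    ∫⁻ p, d.c p ∂d.π₀ ≤ ∫⁻ p, d.c p ∂π := by
  have h1 := d.three_V_le h
  rw [← d.cost_π₀_add_K] at h1
  exact (ENNReal.add_le_add_iff_right d.hK).1 h1

/-- Monge plans induce couplings. -/
lemma monge_coupling {T₂ T₃ : X → X} (hT₂ : Measurable T₂) (hT₃ : Measurable T₃)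
    (h2 : d.μ.map T₂ = d.μ) (h3 : d.μ.map T₃ = d.μ) :
    IsCoupling₃ d.μ (d.μ.map fun x => (x, T₂ x, T₃ x)) := by
  have hm : Measurable fun x => (x, T₂ x, T₃ x) := measurable_id.prodMk (hT₂.prodMk hT₃)
  have hm1 : Measurable fun p : X × X × X => p.1 := measurable_fst
  have hm2 : Measurable fun p : X × X × X => p.2.1 := measurable_fst.comp measurable_snd
  have hm3 : Measurable fun p : X × X × X => p.2.2 := measurable_snd.comp measurable_snd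
  refine ⟨?_, ?_, ?_⟩
  · rw [Measure.map_map hm1 hm]
    exact Measure.map_id
  · rw [Measure.map_map hm2 hm]
    exact h2
  · rw [Measure.map_map hm3 hm]
    exact h3

/-- If a Monge plan is not costlier than `π₀` then almost every triple is a contact triple. -/
lemma monge_ae_contact {T₂ T₃ : X → X} (hT₂ : Measurable T₂) (hT₃ : Measurable T₃)
    (h2 : d.μ.map T₂ = d.μ) (h3 : d.μ.map T₃ = d.μ)
    (hle : ∫⁻ x, d.c (x, T₂ x, T₃ x) ∂d.μ ≤ ∫⁻ p, d.c p ∂d.π₀) :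
    ∀ᵐ x ∂d.μ, ∃ j, ∃ t ∈ d.A, IsOrderingOf x (T₂ x) (T₃ x) t (d.Y j t) (d.Z j t) := by
  have hm : Measurable fun x => (x, T₂ x, T₃ x) := measurable_id.prodMk (hT₂.prodMk hT₃)
  have hcoup := d.monge_coupling hT₂ hT₃ h2 h3
  have hf : Measurable fun x => d.v x + d.v (T₂ x) + d.v (T₃ x) :=
    (d.hv.add (d.hv.comp hT₂)).add (d.hv.comp hT₃)
  have hg : Measurable fun x => d.c (x, T₂ x, T₃ x) + d.K :=
    (d.hc.comp hm).add measurable_const
  have hint : ∫⁻ x, (d.v x + d.v (T₂ x) + d.v (T₃ x)) ∂d.μ = 3 * d.V := by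
    have := d.lintegral_v_coupling hcoup
    have hm' : Measurable fun p : X × X × X => d.v p.1 + d.v p.2.1 + d.v p.2.2 :=
      ((d.hv.comp measurable_fst).add (d.hv.comp (measurable_fst.comp measurable_snd))).add
        (d.hv.comp (measurable_snd.comp measurable_snd))
    rw [lintegral_map hm' hm] at this
    exact this
  have hae_mem : ∀ᵐ x ∂d.μ, x ∈ d.D ∧ T₂ x ∈ d.D ∧ T₃ x ∈ d.D := by
    have h := d.coupling_ae hcoup
    have hmeas : MeasurableSet {p : X × X × X | p.1 ∈ d.D ∧ p.2.1 ∈ d.D ∧ p.2.2 ∈ d.D} :=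
      (measurable_fst d.hD).inter
        (((measurable_fst.comp measurable_snd) d.hD).inter
          ((measurable_snd.comp measurable_snd) d.hD))
    rw [ae_map_iff hm.aemeasurable hmeas] at h
    exact h
  have hle1 : (fun x => d.v x + d.v (T₂ x) + d.v (T₃ x)) ≤ᵐ[d.μ]
      fun x => d.c (x, T₂ x, T₃ x) + d.K := by
    filter_upwards [hae_mem] with x hx
    exact d.v_le _ hx.1 _ hx.2.1 _ hx.2.2
  have hfin : ∫⁻ x, (d.v x + d.v (T₂ x) + d.v (T₃ x)) ∂d.μ ≠ ⊤ := by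
    rw [hint]
    exact ENNReal.mul_ne_top (by simp) d.V_ne_top
  have hle2 : ∫⁻ x, (d.c (x, T₂ x, T₃ x) + d.K) ∂d.μ ≤
      ∫⁻ x, (d.v x + d.v (T₂ x) + d.v (T₃ x)) ∂d.μ := by
    rw [hint, lintegral_add_right _ measurable_const, lintegral_const, measure_univ, mul_one,
      ← d.cost_π₀_add_K]
    gcongr
  have heq := ae_eq_of_ae_le_of_lintegral_le hle1 hfin hg.aemeasurable hle2
  filter_upwards [heq, hae_mem] with x hx hxm
  exact d.contact _ hxm.1 _ hxm.2.1 _ hxm.2.2 hx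

section NoMonge

lemma dBB' {i j : Bool} (h : i ≠ j) : Disjoint (d.B i) (d.B j) := by
  cases i <;> cases j <;> first | exact absurd rfl h | exact d.dBB | exact d.dBB.symm

lemma dCC' {i j : Bool} (h : i ≠ j) : Disjoint (d.C i) (d.C j) := by
  cases i <;> cases j <;> first | exact absurd rfl h | exact d.dCC | exact d.dCC.symm

/-- Points of `A` whose partner under `T₂` lies on sheet `j`. -/
def Sj (T₂ : X → X) (j : Bool) : Set X := {x | x ∈ d.A ∧ T₂ x ∈ d.B j ∪ d.C j}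

/-- The image of `Sj` under `Y j`. -/
def IY (T₂ : X → X) (j : Bool) : Set X := {y | y ∈ d.B j ∧ d.XY j y ∈ d.Sj T₂ j}

/-- The image of `Sj` under `Z j`. -/
def IZ (T₂ : X → X) (j : Bool) : Set X := {z | z ∈ d.C j ∧ d.XZ j z ∈ d.Sj T₂ j}

variable {T₂ T₃ : X → X}

lemma meas_Sj (hT₂ : Measurable T₂) (j : Bool) : MeasurableSet (d.Sj T₂ j) :=
  d.hA.inter (hT₂ ((d.hB j).union (d.hC j)))

lemma meas_IY (hT₂ : Measurable T₂) (j : Bool) : MeasurableSet (d.IY T₂ j) :=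
  (d.hB j).inter (d.hXY j (d.meas_Sj hT₂ j))

lemma meas_IZ (hT₂ : Measurable T₂) (j : Bool) : MeasurableSet (d.IZ T₂ j) :=
  (d.hC j).inter (d.hXZ j (d.meas_Sj hT₂ j))

lemma Y_mem_IY {j : Bool} {t : X} (ht : t ∈ d.A) : d.Y j t ∈ d.IY T₂ j ↔ t ∈ d.Sj T₂ j := by
  simp only [IY, mem_ofPred_eq, d.Y_mem j t ht, true_and, d.XY_Y j t ht]

lemma Z_mem_IZ {j : Bool} {t : X} (ht : t ∈ d.A) : d.Z j t ∈ d.IZ T₂ j ↔ t ∈ d.Sj T₂ j := by
  simp only [IZ, mem_ofPred_eq, d.Z_mem j t ht, true_and, d.XZ_Z j t ht]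

lemma A_not_IY {j : Bool} {t : X} (ht : t ∈ d.A) : t ∉ d.IY T₂ j := fun h =>
  Set.disjoint_left.mp (d.dAB j) ht h.1

lemma A_not_IZ {j : Bool} {t : X} (ht : t ∈ d.A) : t ∉ d.IZ T₂ j := fun h =>
  Set.disjoint_left.mp (d.dAC j) ht h.1

lemma Z_not_IY {i j : Bool} {t : X} (ht : t ∈ d.A) : d.Z i t ∉ d.IY T₂ j := fun h =>
  Set.disjoint_left.mp (d.dBC j i) h.1 (d.Z_mem i t ht)

lemma Y_not_IZ {i j : Bool} {t : X} (ht : t ∈ d.A) : d.Y i t ∉ d.IZ T₂ j := fun h =>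
  Set.disjoint_left.mp (d.dBC i j) (d.Y_mem i t ht) h.1

lemma Y_not_IY {i j : Bool} (hij : i ≠ j) {t : X} (ht : t ∈ d.A) : d.Y i t ∉ d.IY T₂ j := fun h =>
  Set.disjoint_left.mp (d.dBB' hij) (d.Y_mem i t ht) h.1

lemma Z_not_IZ {i j : Bool} (hij : i ≠ j) {t : X} (ht : t ∈ d.A) : d.Z i t ∉ d.IZ T₂ j := fun h =>
  Set.disjoint_left.mp (d.dCC' hij) (d.Z_mem i t ht) h.1

lemma Y_not_A (i : Bool) {t : X} (ht : t ∈ d.A) : d.Y i t ∉ d.A := fun h =>
  Set.disjoint_left.mp (d.dAB i) h (d.Y_mem i t ht)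

lemma Z_not_A (i : Bool) {t : X} (ht : t ∈ d.A) : d.Z i t ∉ d.A := fun h =>
  Set.disjoint_left.mp (d.dAC i) h (d.Z_mem i t ht)

lemma Y_not_Sj {i j : Bool} {t : X} (ht : t ∈ d.A) : d.Y i t ∉ d.Sj T₂ j := fun h =>
  d.Y_not_A i ht h.1

lemma Z_not_Sj {i j : Bool} {t : X} (ht : t ∈ d.A) : d.Z i t ∉ d.Sj T₂ j := fun h =>
  d.Z_not_A i ht h.1

lemma Sj_sub_A {j : Bool} : d.Sj T₂ j ⊆ d.A := fun _ h => h.1

lemma μ_Sj (j : Bool) (hT₂ : Measurable T₂) :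
    d.μ (d.Sj T₂ j) = 6⁻¹ * (d.m₀ (d.Sj T₂ j) + d.m₀ (d.Sj T₂ j)) := by
  rw [μ_apply d (d.meas_Sj hT₂ j)]
  have hY : ∀ i, d.m₀ (d.Y i ⁻¹' d.Sj T₂ j) = 0 := fun i =>
    measure_mono_null (fun t ht htA => d.Y_not_Sj htA ht) d.hm₀A
  have hZ : ∀ i, d.m₀ (d.Z i ⁻¹' d.Sj T₂ j) = 0 := fun i =>
    measure_mono_null (fun t ht htA => d.Z_not_Sj htA ht) d.hm₀A
  rw [hY, hY, hZ, hZ]
  simp

lemma μ_IY (j : Bool) (hT₂ : Measurable T₂) :
    d.μ (d.IY T₂ j) = 6⁻¹ * d.m₀ (d.Sj T₂ j) := by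
  rw [μ_apply d (d.meas_IY hT₂ j)]
  have h0 : d.m₀ (d.IY T₂ j) = 0 :=
    measure_mono_null (fun t ht htA => d.A_not_IY htA ht) d.hm₀A
  have hsame : d.m₀ (d.Y j ⁻¹' d.IY T₂ j) = d.m₀ (d.Sj T₂ j) := by
    refine measure_congr ?_
    rw [Filter.eventuallyEq_set]
    filter_upwards [d.ae_mem_A] with t ht
    exact d.Y_mem_IY ht
  have hother : ∀ {i}, i ≠ j → d.m₀ (d.Y i ⁻¹' d.IY T₂ j) = 0 := fun hij =>
    measure_mono_null (fun t ht htA => d.Y_not_IY hij htA ht) d.hm₀A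
  have hZ : ∀ i, d.m₀ (d.Z i ⁻¹' d.IY T₂ j) = 0 := fun i =>
    measure_mono_null (fun t ht htA => d.Z_not_IY htA ht) d.hm₀A
  cases j
  · rw [h0, hZ, hZ, hother (i := true) (by simp), hsame]; simp
  · rw [h0, hZ, hZ, hother (i := false) (by simp), hsame]; simp

lemma μ_IZ (j : Bool) (hT₂ : Measurable T₂) :
    d.μ (d.IZ T₂ j) = 6⁻¹ * d.m₀ (d.Sj T₂ j) := by
  rw [μ_apply d (d.meas_IZ hT₂ j)]
  have h0 : d.m₀ (d.IZ T₂ j) = 0 :=
    measure_mono_null (fun t ht htA => d.A_not_IZ htA ht) d.hm₀A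
  have hsame : d.m₀ (d.Z j ⁻¹' d.IZ T₂ j) = d.m₀ (d.Sj T₂ j) := by
    refine measure_congr ?_
    rw [Filter.eventuallyEq_set]
    filter_upwards [d.ae_mem_A] with t ht
    exact d.Z_mem_IZ ht
  have hother : ∀ {i}, i ≠ j → d.m₀ (d.Z i ⁻¹' d.IZ T₂ j) = 0 := fun hij =>
    measure_mono_null (fun t ht htA => d.Z_not_IZ hij htA ht) d.hm₀A
  have hY : ∀ i, d.m₀ (d.Y i ⁻¹' d.IZ T₂ j) = 0 := fun i =>
    measure_mono_null (fun t ht htA => d.Y_not_IZ htA ht) d.hm₀A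
  cases j
  · rw [h0, hY, hY, hother (i := true) (by simp), hsame]; simp
  · rw [h0, hY, hY, hother (i := false) (by simp), hsame]; simp

open Classical in
/-- The pointwise counting identity. -/
lemma count_identity (j : Bool) {x : X}
    (hc : ∃ i, ∃ t ∈ d.A, IsOrderingOf x (T₂ x) (T₃ x) t (d.Y i t) (d.Z i t)) :
    (d.Sj T₂ j).indicator (1 : X → ℝ≥0∞) x + (d.IZ T₂ j).indicator (1 : X → ℝ≥0∞) x =
      (d.IY T₂ j).indicator (1 : X → ℝ≥0∞) (T₂ x) +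
        (d.IY T₂ j).indicator (1 : X → ℝ≥0∞) (T₃ x) := by
  obtain ⟨i, t, ht, hord⟩ := hc
  have tA : t ∉ d.IY T₂ j := d.A_not_IY ht
  have tZ : t ∉ d.IZ T₂ j := d.A_not_IZ ht
  have YS : d.Y i t ∉ d.Sj T₂ j := d.Y_not_Sj ht
  have ZS : d.Z i t ∉ d.Sj T₂ j := d.Z_not_Sj ht
  have ZY : d.Z i t ∉ d.IY T₂ j := d.Z_not_IY ht
  have YZ : d.Y i t ∉ d.IZ T₂ j := d.Y_not_IZ ht
  by_cases hij : i = j
  · subst hij
    have h1 : d.Y i t ∈ d.IY T₂ i ↔ t ∈ d.Sj T₂ i := d.Y_mem_IY ht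
    have h2 : d.Z i t ∈ d.IZ T₂ i ↔ t ∈ d.Sj T₂ i := d.Z_mem_IZ ht
    rcases hord with ⟨h, h', h''⟩ | ⟨h, h', h''⟩ | ⟨h, h', h''⟩ | ⟨h, h', h''⟩ | ⟨h, h', h''⟩ |
      ⟨h, h', h''⟩
    · have hS : x ∈ d.Sj T₂ i := by
        rw [h]; refine ⟨ht, ?_⟩
        rw [← h, h']; exact Or.inl (d.Y_mem i t ht)
      have hS' : t ∈ d.Sj T₂ i := h ▸ hS
      rw [h', h'', h]
      simp [*]
    · have hS : x ∈ d.Sj T₂ i := by
        rw [h]; refine ⟨ht, ?_⟩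
        rw [← h, h']; exact Or.inr (d.Z_mem i t ht)
      have hS' : t ∈ d.Sj T₂ i := h ▸ hS
      rw [h', h'', h]
      simp [*]
    · rw [h', h'', h]
      simp [*]
    · rw [h', h'', h]
      simp [*]
    · rw [h', h'', h]
      by_cases hS : t ∈ d.Sj T₂ i <;> simp [*]
    · rw [h', h'', h]
      by_cases hS : t ∈ d.Sj T₂ i <;> simp [*]
  · have YY : d.Y i t ∉ d.IY T₂ j := d.Y_not_IY hij ht
    have ZZ : d.Z i t ∉ d.IZ T₂ j := d.Z_not_IZ hij ht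
    have tS : T₂ x ∈ d.B i ∪ d.C i → x ∉ d.Sj T₂ j := by
      intro h1 h2
      rcases h1 with h1 | h1 <;> rcases h2.2 with h3 | h3
      · exact Set.disjoint_left.mp (d.dBB' hij) h1 h3
      · exact Set.disjoint_left.mp (d.dBC i j) h1 h3
      · exact Set.disjoint_left.mp (d.dBC j i) h3 h1
      · exact Set.disjoint_left.mp (d.dCC' hij) h1 h3
    rcases hord with ⟨h, h', h''⟩ | ⟨h, h', h''⟩ | ⟨h, h', h''⟩ | ⟨h, h', h''⟩ | ⟨h, h', h''⟩ |
      ⟨h, h', h''⟩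
    · have hS : x ∉ d.Sj T₂ j := tS (h' ▸ Or.inl (d.Y_mem i t ht))
      have hS' : t ∉ d.Sj T₂ j := h ▸ hS
      rw [h', h'', h]
      simp [*]
    · have hS : x ∉ d.Sj T₂ j := tS (h' ▸ Or.inr (d.Z_mem i t ht))
      have hS' : t ∉ d.Sj T₂ j := h ▸ hS
      rw [h', h'', h]
      simp [*]
    · rw [h', h'', h]
      simp [*]
    · rw [h', h'', h]
      simp [*]
    · rw [h', h'', h]
      simp [*]
    · rw [h', h'', h]
      simp [*]

/-- Under the contact condition, each `Sj` is `m₀`-null. -/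
lemma m₀_Sj_eq_zero (hT₂ : Measurable T₂) (hT₃ : Measurable T₃)
    (h2 : d.μ.map T₂ = d.μ) (h3 : d.μ.map T₃ = d.μ)
    (hcontact : ∀ᵐ x ∂d.μ, ∃ j, ∃ t ∈ d.A, IsOrderingOf x (T₂ x) (T₃ x) t (d.Y j t) (d.Z j t))
    (j : Bool) : d.m₀ (d.Sj T₂ j) = 0 := by
  have hSm := d.meas_Sj hT₂ j
  have hYm := d.meas_IY hT₂ j
  have hZm := d.meas_IZ hT₂ j
  have hint : ∫⁻ x, ((d.Sj T₂ j).indicator (1 : X → ℝ≥0∞) x +
      (d.IZ T₂ j).indicator (1 : X → ℝ≥0∞) x) ∂d.μ =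
      ∫⁻ x, ((d.IY T₂ j).indicator (1 : X → ℝ≥0∞) (T₂ x) +
        (d.IY T₂ j).indicator (1 : X → ℝ≥0∞) (T₃ x)) ∂d.μ := by
    refine lintegral_congr_ae ?_
    filter_upwards [hcontact] with x hx
    exact d.count_identity j hx
  have hind : Measurable ((d.IY T₂ j).indicator (1 : X → ℝ≥0∞)) :=
    measurable_one.indicator hYm
  have hind' : Measurable ((d.Sj T₂ j).indicator (1 : X → ℝ≥0∞)) :=
    measurable_one.indicator hSm
  have e1 : ∀ {T : X → X}, Measurable T → d.μ.map T = d.μ →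
      ∫⁻ x, (d.IY T₂ j).indicator (1 : X → ℝ≥0∞) (T x) ∂d.μ = d.μ (d.IY T₂ j) := by
    intro T hT hmap
    rw [← lintegral_map hind hT, hmap, lintegral_indicator_one hYm]
  have hind2 : Measurable fun x => (d.IY T₂ j).indicator (1 : X → ℝ≥0∞) (T₂ x) := hind.comp hT₂
  rw [lintegral_add_left hind', lintegral_add_left hind2, lintegral_indicator_one hSm,
    lintegral_indicator_one hZm, e1 hT₂ h2, e1 hT₃ h3, d.μ_Sj j hT₂, d.μ_IZ j hT₂,
    d.μ_IY j hT₂] at hint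
  set a := d.m₀ (d.Sj T₂ j)
  have ha : a ≠ ⊤ := measure_ne_top _ _
  set b := (6⁻¹ : ℝ≥0∞) * a with hb
  have hb' : b ≠ ⊤ := ENNReal.mul_ne_top (by simp) ha
  have e2 : (6⁻¹ : ℝ≥0∞) * (a + a) = b + b := by rw [mul_add]
  rw [e2] at hint
  have e3 : b + (b + b) = 0 + (b + b) := by
    rw [zero_add, ← add_assoc]; exact hint
  have e4 : b = 0 := (ENNReal.add_left_inj (ENNReal.add_ne_top.2 ⟨hb', hb'⟩)).1 e3
  rw [hb] at e4
  have : (6⁻¹ : ℝ≥0∞) ≠ 0 := by simp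
  exact (mul_eq_zero.1 e4).resolve_left this

/-- `m₀` is absolutely continuous with respect to `μ` -/
lemma m₀_ac {s : Set X} (h : d.μ s = 0) : d.m₀ s = 0 := by
  have h1 : d.M s = 0 := by
    have := h
    simp only [μ, Measure.smul_apply, smul_eq_mul, mul_eq_zero] at this
    exact this.resolve_left (by simp)
  simp only [M, Measure.add_apply, add_eq_zero] at h1
  exact h1.1.1.1.1.1

/-- No Monge plan is optimal. -/
theorem no_monge (hT₂ : Measurable T₂) (hT₃ : Measurable T₃)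
    (h2 : d.μ.map T₂ = d.μ) (h3 : d.μ.map T₃ = d.μ) :
    ∫⁻ p, d.c p ∂d.π₀ < ∫⁻ x, d.c (x, T₂ x, T₃ x) ∂d.μ := by
  by_contra hcon
  push Not at hcon
  have hcontact := d.monge_ae_contact hT₂ hT₃ h2 h3 hcon
  have h0 := d.m₀_Sj_eq_zero hT₂ hT₃ h2 h3 hcontact
  -- almost every point of `A` lies in one of the `Sj`
  have hbad : d.m₀ {x | ¬ ∃ j, ∃ t ∈ d.A, IsOrderingOf x (T₂ x) (T₃ x) t (d.Y j t) (d.Z j t)} = 0 :=
    d.m₀_ac (by rw [← ae_iff]; exact hcontact)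
  have hcover : (univ : Set X) ⊆ d.Aᶜ ∪
      {x | ¬ ∃ j, ∃ t ∈ d.A, IsOrderingOf x (T₂ x) (T₃ x) t (d.Y j t) (d.Z j t)} ∪
      (d.Sj T₂ true ∪ d.Sj T₂ false) := by
    intro x _
    by_cases hxA : x ∈ d.A
    · by_cases hx : ∃ j, ∃ t ∈ d.A, IsOrderingOf x (T₂ x) (T₃ x) t (d.Y j t) (d.Z j t)
      · obtain ⟨j, t, ht, hord⟩ := hx
        have hmem : x ∈ d.Sj T₂ j := by
          refine ⟨hxA, ?_⟩
          rcases hord with ⟨h, h', h''⟩ | ⟨h, h', h''⟩ | ⟨h, h', h''⟩ | ⟨h, h', h''⟩ | ⟨h, h', h''⟩ |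
            ⟨h, h', h''⟩
          · exact h' ▸ Or.inl (d.Y_mem j t ht)
          · exact h' ▸ Or.inr (d.Z_mem j t ht)
          · exact absurd (h ▸ hxA) (d.Y_not_A j ht)
          · exact absurd (h ▸ hxA) (d.Y_not_A j ht)
          · exact absurd (h ▸ hxA) (d.Z_not_A j ht)
          · exact absurd (h ▸ hxA) (d.Z_not_A j ht)
        cases j
        · exact Or.inr (Or.inr hmem)
        · exact Or.inr (Or.inl hmem)
      · exact Or.inl (Or.inr hx)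
    · exact Or.inl (Or.inl hxA)
  have hone := measure_mono (μ := d.m₀) hcover
  rw [measure_univ] at hone
  have hzero : d.m₀ (d.Aᶜ ∪
      {x | ¬ ∃ j, ∃ t ∈ d.A, IsOrderingOf x (T₂ x) (T₃ x) t (d.Y j t) (d.Z j t)} ∪
      (d.Sj T₂ true ∪ d.Sj T₂ false)) = 0 :=
    measure_union_null (measure_union_null d.hm₀A hbad) (measure_union_null (h0 _) (h0 _))
  rw [hzero] at hone
  simp at hone

end NoMonge

end TwoSheet

end Crest.Agent.S0175Lib
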