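import Mathlib
import Crest.Agent.S0175Lib.Potential
import Crest.Agent.S0175Lib.TwoSheet

/-!
# Classification of the contact set
-/

set_option autoImplicit false
set_option linter.unusedSectionVars false

namespace Crest.Agent.S0175Lib

open MeasureTheory Set Filter Topology Metric
open scoped ENNReal ContDiff RealInnerProductSpace
open Crest.AnalysisR.OT

variable {E : Type*} [NormedAddCommGroup E] [InnerProductSpace ℝ E]

lemma IsOrderingOf.swap12 {X : Type*} {x y z t a b : X} (h : IsOrderingOf x y z t a b) :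
    IsOrderingOf y x z t a b := by
  unfold IsOrderingOf at *
  tauto

lemma IsOrderingOf.swap23 {X : Type*} {x y z t a b : X} (h : IsOrderingOf x y z t a b) :
    IsOrderingOf x z y t a b := by
  unfold IsOrderingOf at *
  tauto

lemma realCost_swap12 (s : ℝ) (x y z : E) : realCost s x y z = realCost s y x z := by
  simp only [realCost]
  rw [norm_sub_rev x y]
  ring

lemma realCost_swap23 (s : ℝ) (x y z : E) : realCost s x y z = realCost s x z y := by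
  simp only [realCost]
  rw [norm_sub_rev y z]
  ring

namespace Setup

variable (D : Setup E)

/-- `Y` extended to the whole space -/
noncomputable def Ybar : E → E := cut D.sh.Ux D.sh.Y D.e₁
/-- `Z` extended to the whole space -/
noncomputable def Zbar : E → E := cut D.sh.Ux D.sh.Z (-D.e₁)
/-- `XY` extended to the whole space -/
noncomputable def XYbar : E → E := cut D.sh.Uy D.sh.XY 0
/-- `XZ` extended to the whole space -/
noncomputable def XZbar : E → E := cut D.sh.Uz D.sh.XZ 0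

/-- Sheet maps -/
noncomputable def Yj (j : Bool) (t : E) : E := D.Rj j (D.Ybar (D.Rj j t))
/-- Sheet maps -/
noncomputable def Zj (j : Bool) (t : E) : E := D.Rj j (D.Zbar (D.Rj j t))
/-- Inverse sheet maps -/
noncomputable def XYj (j : Bool) (y : E) : E := D.Rj j (D.XYbar (D.Rj j y))
/-- Inverse sheet maps -/
noncomputable def XZj (j : Bool) (z : E) : E := D.Rj j (D.XZbar (D.Rj j z))

lemma Ybar_A {t : E} (ht : t ∈ D.A) : D.Ybar t = D.sh.Y t := cut_of_mem (D.A_sub_Ux ht)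
lemma Zbar_A {t : E} (ht : t ∈ D.A) : D.Zbar t = D.sh.Z t := cut_of_mem (D.A_sub_Ux ht)
lemma XYbar_Y {t : E} (ht : t ∈ D.A) : D.XYbar (D.sh.Y t) = t := by
  rw [XYbar, cut_of_mem (D.sh.Y_maps t (D.A_sub_Ux ht)), D.sh.XY_Y t (D.A_sub_Ux ht)]
lemma XZbar_Z {t : E} (ht : t ∈ D.A) : D.XZbar (D.sh.Z t) = t := by
  rw [XZbar, cut_of_mem (D.sh.Z_maps t (D.A_sub_Ux ht)), D.sh.XZ_Z t (D.A_sub_Ux ht)]

lemma Yj_eq (j : Bool) {t : E} (ht : t ∈ D.A) : D.Yj j t = D.Rj j (D.sh.Y (D.Rj j t)) := by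
  rw [Yj, D.Ybar_A (D.Rj_mem_A j ht)]

lemma Zj_eq (j : Bool) {t : E} (ht : t ∈ D.A) : D.Zj j t = D.Rj j (D.sh.Z (D.Rj j t)) := by
  rw [Zj, D.Zbar_A (D.Rj_mem_A j ht)]

lemma Yj_mem (j : Bool) {t : E} (ht : t ∈ D.A) : D.Yj j t ∈ D.Bj j := by
  rw [Yj_eq D j ht, Bj, mem_preimage, Rj_Rj]
  exact ⟨_, D.Rj_mem_A j ht, rfl⟩

lemma Zj_mem (j : Bool) {t : E} (ht : t ∈ D.A) : D.Zj j t ∈ D.Cj j := by
  rw [Zj_eq D j ht, Cj, mem_preimage, Rj_Rj]
  exact ⟨_, D.Rj_mem_A j ht, rfl⟩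

lemma XYj_Yj (j : Bool) {t : E} (ht : t ∈ D.A) : D.XYj j (D.Yj j t) = t := by
  rw [XYj, Yj_eq D j ht, Rj_Rj, D.XYbar_Y (D.Rj_mem_A j ht), Rj_Rj]

lemma XZj_Zj (j : Bool) {t : E} (ht : t ∈ D.A) : D.XZj j (D.Zj j t) = t := by
  rw [XZj, Zj_eq D j ht, Rj_Rj, D.XZbar_Z (D.Rj_mem_A j ht), Rj_Rj]

/-- `W` with globally measurable ingredients. -/
noncomputable def Wbar (t : E) : ℝ :=
  Psi D.s (κ₀ D.s) D.e₁ (gE D.s D.e₁) t (D.Ybar t) (D.Zbar t) - a₀ D.s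

lemma Wbar_A {t : E} (ht : t ∈ D.A) : D.Wbar t = D.W t := by
  rw [Wbar, W, D.Ybar_A ht, D.Zbar_A ht]

/-- The potential on `C`. -/
noncomputable def uC (z : E) : ℝ := D.Wbar (D.XZbar z)

lemma uC_Z {t : E} (ht : t ∈ D.A) : D.uC (D.sh.Z t) = D.W t := by
  rw [uC, D.XZbar_Z ht, D.Wbar_A ht]

open Classical in
/-- The potential. -/
noncomputable def u (x : E) : ℝ :=
  if x ∈ D.A then D.uA x
  else if x ∈ D.Bj true then D.uB (D.Rj true x)
  else if x ∈ D.Cj true then D.uC (D.Rj true x)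
  else if x ∈ D.Bj false then D.uB (D.Rj false x)
  else if x ∈ D.Cj false then D.uC (D.Rj false x)
  else 0

lemma u_A {x : E} (hx : x ∈ D.A) : D.u x = D.uA x := by
  simp [u, hx]

lemma u_B {j : Bool} {x : E} (hx : x ∈ D.Bj j) : D.u x = D.uB (D.Rj j x) := by
  have h1 : x ∉ D.A := fun h => Set.disjoint_left.mp (D.dAB j) h hx
  cases j
  · have h2 : x ∉ D.Bj true := fun h => Set.disjoint_left.mp D.dBB h hx
    have h3 : x ∉ D.Cj true := fun h => Set.disjoint_left.mp (D.dBC false true) hx h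
    simp [u, h1, h2, h3, hx]
  · simp [u, h1, hx]

lemma u_C {j : Bool} {x : E} (hx : x ∈ D.Cj j) : D.u x = D.uC (D.Rj j x) := by
  have h1 : x ∉ D.A := fun h => Set.disjoint_left.mp (D.dAC j) h hx
  cases j
  · have h2 : x ∉ D.Bj true := fun h => Set.disjoint_left.mp (D.dBC true false) h hx
    have h3 : x ∉ D.Cj true := fun h => Set.disjoint_left.mp D.dCC h hx
    have h4 : x ∉ D.Bj false := fun h => Set.disjoint_left.mp (D.dBC false false) h hx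
    simp [u, h1, h2, h3, h4, hx]
  · have h2 : x ∉ D.Bj true := fun h => Set.disjoint_left.mp (D.dBC true true) h hx
    simp [u, h1, h2, hx]

lemma uA_le (x : E) : D.uA x ≤ a₀ D.s := by
  have := κ₀_pos D.hs
  simp only [uA]
  have h : 0 ≤ (κ₀ D.s / 2) * ‖x‖ ^ 2 := by positivity
  linarith

lemma uA_Rj (j : Bool) (x : E) : D.uA (D.Rj j x) = D.uA x := by
  simp only [uA, Rj_norm]

lemma uA_ge {x : E} (hx : x ∈ D.A) : a₀ D.s - 1 ≤ D.uA x := by
  have h1 := D.norm_A hx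
  have h2 := D.good.hκr
  have hk := κ₀_pos D.hs
  have h3 : ‖x‖ ^ 2 ≤ D.r ^ 2 := by
    have := norm_nonneg x
    gcongr
  have h4 : κ₀ D.s * ‖x‖ ^ 2 ≤ κ₀ D.s * D.r ^ 2 := mul_le_mul_of_nonneg_left h3 hk.le
  simp only [uA]
  linarith

lemma uB_abs {y : E} (hy : ‖y - D.e₁‖ ≤ D.r) : |D.uB y| ≤ D.δ := by
  have h1 := D.good.hG
  have hk := κ₀_pos D.hs
  have hnorm : |⟪gE D.s D.e₁, y - D.e₁⟫| ≤ ‖gE D.s D.e₁‖ * ‖y - D.e₁‖ := abs_real_inner_le_norm _ _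
  have h2 : ‖gE D.s D.e₁‖ * ‖y - D.e₁‖ ≤ ‖gE D.s D.e₁‖ * D.r :=
    mul_le_mul_of_nonneg_left hy (norm_nonneg _)
  have h3 : ‖y - D.e₁‖ ^ 2 ≤ D.r ^ 2 := by
    have := norm_nonneg (y - D.e₁)
    gcongr
  have h4 : (κ₀ D.s / 2) * ‖y - D.e₁‖ ^ 2 ≤ κ₀ D.s * D.r ^ 2 / 2 := by
    have := mul_le_mul_of_nonneg_left h3 (show 0 ≤ κ₀ D.s / 2 by positivity)
    linarith
  have h5 : 0 ≤ (κ₀ D.s / 2) * ‖y - D.e₁‖ ^ 2 := by positivity
  simp only [uB]
  rw [abs_le] at hnorm ⊢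
  constructor <;> linarith [hnorm.1, hnorm.2]

lemma u_B_abs {j : Bool} {y : E} (hy : y ∈ D.Bj j) : |D.u y| ≤ D.δ := by
  rw [D.u_B hy]
  refine D.uB_abs ?_
  have := D.mem_B_loc hy
  rw [Pj, ← D.Rj_dist j y, Rj_Rj] at this
  exact this

lemma u_C_abs {j : Bool} {z : E} (hz : z ∈ D.Cj j) : |D.u z| ≤ D.δ := by
  rw [D.u_C hz]
  obtain ⟨t, ht, hzt⟩ := hz
  rw [← hzt, D.uC_Z ht]
  exact D.hW t ht

/-- The "goodness" of a triple of distinct points -/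
def Good (x y z : E) : Prop :=
  D.u x + D.u y + D.u z ≤ realCost D.s x y z ∧
    (D.u x + D.u y + D.u z = realCost D.s x y z →
      ∃ j, ∃ t ∈ D.A, IsOrderingOf x y z t (D.Yj j t) (D.Zj j t))

lemma Good.swap12 {D : Setup E} {x y z : E} (h : D.Good x y z) : D.Good y x z := by
  refine ⟨?_, fun he => ?_⟩
  · have := h.1
    rw [realCost_swap12] at this
    linarith
  · obtain ⟨j, t, ht, hord⟩ := h.2 (by rw [realCost_swap12]; linarith)
    exact ⟨j, t, ht, hord.swap12⟩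

lemma Good.swap23 {D : Setup E} {x y z : E} (h : D.Good x y z) : D.Good x z y := by
  refine ⟨?_, fun he => ?_⟩
  · have := h.1
    rw [realCost_swap23] at this
    linarith
  · obtain ⟨j, t, ht, hord⟩ := h.2 (by rw [realCost_swap23]; linarith)
    exact ⟨j, t, ht, hord.swap23⟩

lemma good_of_lt {x y z : E} (h : D.u x + D.u y + D.u z < realCost D.s x y z) : D.Good x y z :=
  ⟨h.le, fun he => absurd he h.ne⟩

lemma rpow_pos' (v : E) : 0 ≤ ‖v‖ ^ (-D.s) := by positivity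

lemma rpow_ge_of_le {v : E} (hv : v ≠ 0) {T : ℝ} (h : ‖v‖ ≤ T) : T ^ (-D.s) ≤ ‖v‖ ^ (-D.s) :=
  Real.rpow_le_rpow_of_nonpos (norm_pos_iff.2 hv) h (by linarith [D.hs])

/-- points outside `A` -/
def NonA (x : E) : Prop := ∃ j, x ∈ D.Bj j ∨ x ∈ D.Cj j

lemma NonA.abs {D : Setup E} {x : E} (hx : D.NonA x) : |D.u x| ≤ D.δ := by
  obtain ⟨j, h | h⟩ := hx
  · exact D.u_B_abs h
  · exact D.u_C_abs h

lemma NonA.norm_le {D : Setup E} {x : E} (hx : D.NonA x) : ‖x‖ ≤ 1 + D.r := by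
  obtain ⟨j, h | h⟩ := hx
  · have := D.mem_B_loc h
    have h2 : ‖x‖ ≤ ‖x - D.Pj j‖ + ‖D.Pj j‖ := by
      simpa using norm_add_le (x - D.Pj j) (D.Pj j)
    rw [D.Pj_norm] at h2
    linarith
  · have := D.mem_C_loc h
    have h2 : ‖x‖ ≤ ‖x - (-D.Pj j)‖ + ‖-D.Pj j‖ := by
      simpa using norm_add_le (x - (-D.Pj j)) (-D.Pj j)
    rw [norm_neg, D.Pj_norm] at h2
    linarith

/-- No point in `A`: strict inequality -/
lemma case_noA {x y z : E} (hx : D.NonA x) (hy : D.NonA y) (hz : D.NonA z) (hxy : x ≠ y)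
    (hxz : x ≠ z) (hyz : y ≠ z) : D.Good x y z := by
  refine D.good_of_lt ?_
  have hr := D.r_le
  have hb : ∀ {p q : E}, D.NonA p → D.NonA q → p ≠ q → (3 : ℝ) ^ (-D.s) ≤ ‖p - q‖ ^ (-D.s) := by
    intro p q hp hq hpq
    refine D.rpow_ge_of_le (sub_ne_zero.2 hpq) ?_
    have := norm_sub_le p q
    have := hp.norm_le
    have := hq.norm_le
    linarith
  have h1 := hb hx hy hxy
  have h2 := hb hx hz hxz
  have h3 := hb hy hz hyz
  have h4 := (abs_le.1 hx.abs).2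
  have h5 := (abs_le.1 hy.abs).2
  have h6 := (abs_le.1 hz.abs).2
  have h7 := D.good.hδ3
  simp only [realCost]
  linarith

/-- Bound of the potential on all regions -/
lemma u_le {x : E} (hx : x ∈ D.A ∨ D.NonA x) : D.u x ≤ a₀ D.s := by
  rcases hx with hx | hx
  · rw [D.u_A hx]; exact D.uA_le x
  · have h1 := (abs_le.1 hx.abs).2
    have h2 := D.good.hδ1
    have h3 := a₀_ge (s := D.s)
    linarith

/-- Two points very close: strict inequality. -/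
lemma case_close {x y z : E} (hx : x ∈ D.A ∨ D.NonA x) (hy : y ∈ D.A ∨ D.NonA y)
    (hz : z ∈ D.A ∨ D.NonA z) (hxy : x ≠ y) (hclose : ‖x - y‖ ≤ 2 * D.r) : D.Good x y z := by
  refine D.good_of_lt ?_
  have h1 := D.rpow_ge_of_le (sub_ne_zero.2 hxy) hclose
  have h2 := D.good.hbig
  have h3 := D.u_le hx
  have h4 := D.u_le hy
  have h5 := D.u_le hz
  have h6 := D.rpow_pos' (x - z)
  have h7 := D.rpow_pos' (y - z)
  simp only [realCost]
  linarith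

/-- Cross terms: strict inequality. -/
lemma case_cross {x y z P Q : E} (hx : x ∈ D.A) (hP : ‖P‖ = 1) (hQ : ‖Q‖ = 1) (hPQ : ⟪P, Q⟫ = 0)
    (hyP : ‖y - P‖ ≤ D.r) (hzQ : ‖z - Q‖ ≤ D.r) (huy : |D.u y| ≤ D.δ) (huz : |D.u z| ≤ D.δ)
    (hxy : x ≠ y) (hxz : x ≠ z) (hyz : y ≠ z) : D.Good x y z := by
  refine D.good_of_lt ?_
  have h0 := D.norm_A hx
  have hb : ∀ {q R : E}, ‖R‖ = 1 → ‖q - R‖ ≤ D.r → x ≠ q →
      (1 + 2 * D.r) ^ (-D.s) ≤ ‖x - q‖ ^ (-D.s) := by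
    intro q R hR hqR hxq
    refine D.rpow_ge_of_le (sub_ne_zero.2 hxq) ?_
    have e : x - q = x + -(q - R) + -R := by abel
    have := norm_add₃_le (a := x) (b := -(q - R)) (c := -R)
    rw [← e, norm_neg, norm_neg, hR] at this
    linarith
  have h1 := hb hP hyP hxy
  have h2 := hb hQ hzQ hxz
  have h3 : (Real.sqrt 2 + 2 * D.r) ^ (-D.s) ≤ ‖y - z‖ ^ (-D.s) := by
    refine D.rpow_ge_of_le (sub_ne_zero.2 hyz) ?_
    have e : y - z = (y - P) + (P - Q) + -(z - Q) := by abel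
    have := norm_add₃_le (a := y - P) (b := P - Q) (c := -(z - Q))
    rw [← e, norm_neg, one_le_norm_of_orth hP hQ hPQ] at this
    linarith
  have h4 := (abs_le.1 huy).2
  have h5 := (abs_le.1 huz).2
  have h6 := D.good.hcross
  have h7 : D.u x ≤ a₀ D.s := D.u_le (Or.inl hx)
  simp only [realCost]
  linarith

lemma realCost_Rj (j : Bool) (x y z : E) :
    realCost D.s (D.Rj j x) (D.Rj j y) (D.Rj j z) = realCost D.s x y z := by
  simp only [realCost, Rj_dist]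

lemma Rj_inj (j : Bool) {x y : E} (h : D.Rj j x = D.Rj j y) : x = y := by
  have := congrArg (D.Rj j) h
  simpa using this

/-- The contact case. -/
lemma case_contact {j : Bool} {x y z : E} (hx : x ∈ D.A) (hy : y ∈ D.Bj j) (hz : z ∈ D.Cj j)
    (hxy : x ≠ y) (hxz : x ≠ z) (hyz : y ≠ z) : D.Good x y z := by
  have hux := D.u_A hx
  have huy := D.u_B hy
  have huz := D.u_C hz
  obtain ⟨t₀, ht₀, hzt⟩ := id hz
  rw [← hzt, D.uC_Z ht₀] at huz
  have hne1 : D.Rj j x ≠ D.Rj j y := fun h => hxy (D.Rj_inj j h)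
  have hne2 : D.Rj j x ≠ D.sh.Z t₀ := by
    rw [hzt]; exact fun h => hxz (D.Rj_inj j h)
  have hne3 : D.Rj j y ≠ D.sh.Z t₀ := by
    rw [hzt]; exact fun h => hyz (D.Rj_inj j h)
  have key := D.contact_real ht₀ hne1 hne2 hne3
  rw [hzt, D.realCost_Rj, D.uA_Rj] at key
  have hL := L₀_pos D.hs
  have hsq : 0 ≤ (L₀ D.s / 2) * (‖D.Rj j x - t₀‖ ^ 2 + ‖D.Rj j y - D.sh.Y t₀‖ ^ 2) := by positivity
  refine ⟨by rw [hux, huy, huz]; linarith, fun he => ?_⟩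
  rw [hux, huy, huz] at he
  have h0 : (L₀ D.s / 2) * (‖D.Rj j x - t₀‖ ^ 2 + ‖D.Rj j y - D.sh.Y t₀‖ ^ 2) ≤ 0 := by linarith
  have h1 : ‖D.Rj j x - t₀‖ ^ 2 + ‖D.Rj j y - D.sh.Y t₀‖ ^ 2 ≤ 0 := by
    by_contra hcon
    push Not at hcon
    have := mul_pos (half_pos hL) hcon
    linarith
  have n1 : 0 ≤ ‖D.Rj j x - t₀‖ ^ 2 := by positivity
  have n2 : 0 ≤ ‖D.Rj j y - D.sh.Y t₀‖ ^ 2 := by positivity
  have h2 : ‖D.Rj j x - t₀‖ ^ 2 = 0 := by linarith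
  have h3 : ‖D.Rj j y - D.sh.Y t₀‖ ^ 2 = 0 := by linarith
  have h4 : D.Rj j x = t₀ := by simpa [sub_eq_zero] using h2
  have h5 : D.Rj j y = D.sh.Y t₀ := by simpa [sub_eq_zero] using h3
  refine ⟨j, D.Rj j t₀, D.Rj_mem_A j ht₀, Or.inl ⟨?_, ?_, ?_⟩⟩
  · rw [← h4, Rj_Rj]
  · rw [D.Yj_eq j (D.Rj_mem_A j ht₀), Rj_Rj, ← h5, Rj_Rj]
  · rw [D.Zj_eq j (D.Rj_mem_A j ht₀), Rj_Rj, hzt, Rj_Rj]

end Setup

end Crest.Agent.S0175Lib
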