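import Mathlib
import Crest.Agent.S0175Lib.Contact

/-!
# Classification of triples
-/

set_option autoImplicit false
set_option linter.unusedSectionVars false

namespace Crest.Agent.S0175Lib

open MeasureTheory Set Filter Topology Metric
open scoped ENNReal ContDiff RealInnerProductSpace
open Crest.AnalysisR.OT

variable {E : Type*} [NormedAddCommGroup E] [InnerProductSpace ℝ E]

namespace Setup

variable (D : Setup E)

/-- The domain. -/
def Dom : Set E := D.A ∪ (D.Bj true ∪ D.Cj true) ∪ (D.Bj false ∪ D.Cj false)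

lemma mem_Dom_iff {x : E} : x ∈ D.Dom ↔ x ∈ D.A ∨ D.NonA x := by
  constructor
  · rintro ((h | h | h) | h | h)
    · exact Or.inl h
    · exact Or.inr ⟨true, Or.inl h⟩
    · exact Or.inr ⟨true, Or.inr h⟩
    · exact Or.inr ⟨false, Or.inl h⟩
    · exact Or.inr ⟨false, Or.inr h⟩
  · rintro (h | ⟨j, h | h⟩)
    · exact Or.inl (Or.inl h)
    · cases j
      · exact Or.inr (Or.inl h)
      · exact Or.inl (Or.inr (Or.inl h))
    · cases j
      · exact Or.inr (Or.inr h)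
      · exact Or.inl (Or.inr (Or.inr h))

lemma two_close {x y P : E} {r : ℝ} (hx : ‖x - P‖ ≤ r) (hy : ‖y - P‖ ≤ r) : ‖x - y‖ ≤ 2 * r := by
  have e : x - y = (x - P) - (y - P) := by abel
  rw [e]
  have := norm_sub_le (x - P) (y - P)
  linarith

/-- From the first two points to the last two. -/
lemma Good.rotate {D : Setup E} {x y z : E} (h : D.Good y z x) : D.Good x y z :=
  h.swap12.swap23.swap12.swap23

lemma one_in_A {x y z : E} (hx : x ∈ D.A) (hy : D.NonA y) (hz : D.NonA z) (hxy : x ≠ y)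
    (hxz : x ≠ z) (hyz : y ≠ z) : D.Good x y z := by
  have hP : ∀ j, ‖D.Pj j‖ = 1 := D.Pj_norm
  have hP' : ∀ j, ‖-D.Pj j‖ = 1 := fun j => by rw [norm_neg, Pj_norm]
  have hclose : ∀ {P : E}, ‖y - P‖ ≤ D.r → ‖z - P‖ ≤ D.r → D.Good x y z := fun h1 h2 =>
    Good.rotate (D.case_close (Or.inr hy) (Or.inr hz) (Or.inl hx) hyz (two_close h1 h2))
  have huy := hy.abs
  have huz := hz.abs
  obtain ⟨j, hy' | hy'⟩ := hy <;> obtain ⟨j', hz' | hz'⟩ := hz
  · by_cases hjj : j = j'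
    · subst hjj
      exact hclose (D.mem_B_loc hy') (D.mem_B_loc hz')
    · exact D.case_cross hx (hP j) (hP j') (D.inner_Pj hjj) (D.mem_B_loc hy') (D.mem_B_loc hz')
        huy huz hxy hxz hyz
  · by_cases hjj : j = j'
    · subst hjj
      exact D.case_contact hx hy' hz' hxy hxz hyz
    · exact D.case_cross hx (hP j) (hP' j') (by rw [inner_neg_right, D.inner_Pj hjj, neg_zero])
        (D.mem_B_loc hy') (D.mem_C_loc hz') huy huz hxy hxz hyz
  · by_cases hjj : j = j'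
    · subst hjj
      exact (D.case_contact hx hz' hy' hxz hxy hyz.symm).swap23
    · exact D.case_cross hx (hP' j) (hP j') (by rw [inner_neg_left, D.inner_Pj hjj, neg_zero])
        (D.mem_C_loc hy') (D.mem_B_loc hz') huy huz hxy hxz hyz
  · by_cases hjj : j = j'
    · subst hjj
      exact hclose (D.mem_C_loc hy') (D.mem_C_loc hz')
    · exact D.case_cross hx (hP' j) (hP' j')
        (by rw [inner_neg_left, inner_neg_right, D.inner_Pj hjj, neg_zero, neg_zero])
        (D.mem_C_loc hy') (D.mem_C_loc hz') huy huz hxy hxz hyz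

lemma A_close {x y : E} (hx : x ∈ D.A) (hy : y ∈ D.A) : ‖x - y‖ ≤ 2 * D.r :=
  two_close (P := 0) (by simpa using D.norm_A hx) (by simpa using D.norm_A hy)

/-- The classification of triples of distinct points in the domain. -/
theorem good_all {x y z : E} (hx : x ∈ D.Dom) (hy : y ∈ D.Dom) (hz : z ∈ D.Dom) (hxy : x ≠ y)
    (hxz : x ≠ z) (hyz : y ≠ z) : D.Good x y z := by
  rw [mem_Dom_iff] at hx hy hz
  rcases hx with hx' | hx' <;> rcases hy with hy' | hy' <;> rcases hz with hz' | hz'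
  · exact D.case_close (Or.inl hx') (Or.inl hy') (Or.inl hz') hxy (D.A_close hx' hy')
  · exact D.case_close (Or.inl hx') (Or.inl hy') (Or.inr hz') hxy (D.A_close hx' hy')
  · exact (D.case_close (Or.inl hx') (Or.inl hz') (Or.inr hy') hxz (D.A_close hx' hz')).swap23
  · exact D.one_in_A hx' hy' hz' hxy hxz hyz
  · exact Good.rotate (D.case_close (Or.inl hy') (Or.inl hz') (Or.inr hx') hyz (D.A_close hy' hz'))
  · exact (D.one_in_A hy' hx' hz' hxy.symm hyz hxz).swap12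
  · exact (D.one_in_A hz' hx' hy' hxz.symm hyz.symm hxy).swap12.swap23
  · exact D.case_noA hx' hy' hz' hxy hxz hyz

/-- Lipschitz bound of the Riesz kernel away from zero. -/
lemma rpow_lip {v w : E} (hv : 1 / 2 ≤ ‖v‖) (hw : 1 / 2 ≤ ‖w‖) (hvw : ‖v - w‖ ≤ 1) :
    ‖w‖ ^ (-D.s) ≤ ‖v‖ ^ (-D.s) + L₀ D.s * ‖v - w‖ := by
  have hs := D.hs
  have hw0 : 0 < ‖w‖ := by linarith
  have hv0 : 0 < ‖v‖ := by linarith
  have key := norm_rpow_tangent hs (norm_pos_iff.1 hw0) (norm_pos_iff.1 hv0)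
  have hgrad : ‖gradH D.s w‖ ≤ D.s * 2 ^ (D.s + 1) := by
    rw [gradH, norm_smul, Real.norm_eq_abs, abs_of_nonpos (by
      have : 0 ≤ ‖w‖ ^ (-D.s - 2) := by positivity
      nlinarith)]
    rw [show -(-D.s * ‖w‖ ^ (-D.s - 2)) * ‖w‖ = D.s * (‖w‖ ^ (-D.s - 2) * ‖w‖) by ring]
    refine mul_le_mul_of_nonneg_left ?_ hs.le
    have : ‖w‖ ^ (-D.s - 2) * ‖w‖ = ‖w‖ ^ (-(D.s + 1)) := by
      rw [← Real.rpow_add_one hw0.ne']
      congr 1
      ring
    rw [this]
    exact rpow_le_of_half_le hw (by linarith)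
  have hin : ⟪gradH D.s w, v - w⟫ ≥ -(D.s * 2 ^ (D.s + 1) * ‖v - w‖) := by
    have h1 := abs_real_inner_le_norm (gradH D.s w) (v - w)
    have h2 : ‖gradH D.s w‖ * ‖v - w‖ ≤ D.s * 2 ^ (D.s + 1) * ‖v - w‖ :=
      mul_le_mul_of_nonneg_right hgrad (norm_nonneg _)
    have := (abs_le.1 (h1.trans h2)).1
    linarith
  have hq : (D.s / 2) * ‖w‖ ^ (-D.s - 2) * ‖v - w‖ ^ 2 ≤ D.s * 2 ^ (D.s + 1) * ‖v - w‖ := by
    have h1 : ‖w‖ ^ (-D.s - 2) ≤ 2 ^ (D.s + 2) := by
      have h := rpow_le_of_half_le hw (p := D.s + 2) (by linarith)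
      rwa [show -(D.s + 2) = -D.s - 2 by ring] at h
    have h2 : (2 : ℝ) ^ (D.s + 2) = 2 * 2 ^ (D.s + 1) := by
      rw [show D.s + 2 = (D.s + 1) + 1 by ring, Real.rpow_add_one (by norm_num)]
      ring
    have h3 : ‖v - w‖ ^ 2 ≤ ‖v - w‖ := by
      have := norm_nonneg (v - w)
      nlinarith
    have hpos : (0 : ℝ) < 2 ^ (D.s + 1) := by positivity
    have h4 : (D.s / 2) * ‖w‖ ^ (-D.s - 2) ≤ D.s * 2 ^ (D.s + 1) := by
      have := mul_le_mul_of_nonneg_left h1 (show 0 ≤ D.s / 2 by positivity)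
      rw [h2] at this
      calc _ ≤ _ := this
        _ = _ := by ring
    calc (D.s / 2) * ‖w‖ ^ (-D.s - 2) * ‖v - w‖ ^ 2
        ≤ D.s * 2 ^ (D.s + 1) * ‖v - w‖ ^ 2 :=
          mul_le_mul_of_nonneg_right h4 (by positivity)
      _ ≤ D.s * 2 ^ (D.s + 1) * ‖v - w‖ :=
          mul_le_mul_of_nonneg_left h3 (by positivity)
  have hL : L₀ D.s = 2 * (D.s * 2 ^ (D.s + 1)) := by
    rw [L₀, show D.s + 2 = (D.s + 1) + 1 by ring, Real.rpow_add_one (by norm_num)]
    ring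
  rw [hL]
  linarith

end Setup

end Crest.Agent.S0175Lib
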