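import Mathlib
import Crest.Agent.S0175Lib.Classify

/-!
# From the setup to the abstract two-sheet data
-/

set_option autoImplicit false
set_option linter.unusedSectionVars false

namespace Crest.Agent.S0175Lib

open MeasureTheory Set Filter Topology Metric
open scoped ENNReal ContDiff RealInnerProductSpace
open Crest.AnalysisR.OT

variable {E : Type*} [NormedAddCommGroup E] [InnerProductSpace ℝ E]

lemma tripleCost_top_of_not_distinct {s : ℝ} (hs : 0 < s) {x y z : E}
    (h : ¬ (x ≠ y ∧ x ≠ z ∧ y ≠ z)) : tripleCost s (x, y, z) = ⊤ := by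
  simp only [ne_eq, not_and_or, not_not] at h
  simp only [tripleCost]
  rcases h with rfl | rfl | rfl
  · simp [pairCost_self hs]
  · simp [pairCost_self hs]
  · simp [pairCost_self hs]

lemma exists_small {η : ℝ≥0∞} (hη : 0 < η) {C : ℝ} (hC : 0 < C) :
    ∃ δ : ℝ, 0 < δ ∧ δ ≤ 1 ∧ ENNReal.ofReal (C * δ) ≤ η := by
  set η' : ℝ≥0∞ := min η 1 with hη'
  have h1 : η' ≠ ⊤ := ne_top_of_le_ne_top ENNReal.one_ne_top (min_le_right _ _)
  have h0 : 0 < η' := lt_min hη one_pos
  have h2 : 0 < η'.toReal := ENNReal.toReal_pos h0.ne' h1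
  refine ⟨min 1 (η'.toReal / C), lt_min one_pos (by positivity), min_le_left _ _, ?_⟩
  calc ENNReal.ofReal (C * min 1 (η'.toReal / C))
      ≤ ENNReal.ofReal (C * (η'.toReal / C)) := by
        refine ENNReal.ofReal_le_ofReal ?_
        exact mul_le_mul_of_nonneg_left (min_le_right _ _) hC.le
    _ = η' := by
        rw [mul_div_cancel₀ _ hC.ne', ENNReal.ofReal_toReal h1]
    _ ≤ η := min_le_left _ _

namespace Setup

variable (D : Setup E)

lemma u_ge {x : E} (hx : x ∈ D.Dom) : -1 ≤ D.u x := by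
  rcases D.mem_Dom_iff.1 hx with h | h
  · rw [D.u_A h]
    have := D.uA_ge h
    have := a₀_ge (s := D.s)
    linarith
  · have h1 := (abs_le.1 h.abs).1
    have h2 := D.good.hδ1
    linarith

lemma u_le' {x : E} (hx : x ∈ D.Dom) : D.u x ≤ a₀ D.s := D.u_le (D.mem_Dom_iff.1 hx)

/-- The nonnegative potential. -/
noncomputable def v (x : E) : ℝ≥0∞ := ENNReal.ofReal (D.u x + 1)

lemma sum_v {x y z : E} (hx : x ∈ D.Dom) (hy : y ∈ D.Dom) (hz : z ∈ D.Dom) :
    D.v x + D.v y + D.v z = ENNReal.ofReal (D.u x + D.u y + D.u z + 3) := by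
  have h1 := D.u_ge hx
  have h2 := D.u_ge hy
  have h3 := D.u_ge hz
  simp only [v]
  rw [← ENNReal.ofReal_add (by linarith) (by linarith),
    ← ENNReal.ofReal_add (by linarith) (by linarith)]
  congr 1
  ring

lemma realCost_nonneg (x y z : E) : 0 ≤ realCost D.s x y z := by
  simp only [realCost]
  positivity

lemma v_le {x y z : E} (hx : x ∈ D.Dom) (hy : y ∈ D.Dom) (hz : z ∈ D.Dom) :
    D.v x + D.v y + D.v z ≤ tripleCost D.s (x, y, z) + ENNReal.ofReal 3 := by
  by_cases h : x ≠ y ∧ x ≠ z ∧ y ≠ z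
  · obtain ⟨h1, h2, h3⟩ := h
    rw [tripleCost_eq_ofReal h1 h2 h3, ← ENNReal.ofReal_add (D.realCost_nonneg x y z) (by norm_num),
      D.sum_v hx hy hz]
    refine ENNReal.ofReal_le_ofReal ?_
    have := (D.good_all hx hy hz h1 h2 h3).1
    linarith
  · rw [tripleCost_top_of_not_distinct D.hs h]
    simp

lemma contact {x y z : E} (hx : x ∈ D.Dom) (hy : y ∈ D.Dom) (hz : z ∈ D.Dom)
    (he : D.v x + D.v y + D.v z = tripleCost D.s (x, y, z) + ENNReal.ofReal 3) :
    ∃ j, ∃ t ∈ D.A, IsOrderingOf x y z t (D.Yj j t) (D.Zj j t) := by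
  by_cases h : x ≠ y ∧ x ≠ z ∧ y ≠ z
  · obtain ⟨h1, h2, h3⟩ := h
    rw [tripleCost_eq_ofReal h1 h2 h3, ← ENNReal.ofReal_add (D.realCost_nonneg x y z) (by norm_num),
      D.sum_v hx hy hz] at he
    have hu1 := D.u_ge hx
    have hu2 := D.u_ge hy
    have hu3 := D.u_ge hz
    rw [ENNReal.ofReal_eq_ofReal_iff (by linarith)
      (add_nonneg (D.realCost_nonneg x y z) (by norm_num))] at he
    exact (D.good_all hx hy hz h1 h2 h3).2 (by linarith)
  · rw [tripleCost_top_of_not_distinct D.hs h, D.sum_v hx hy hz] at he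
    simp at he

lemma A_sub_Dom : D.A ⊆ D.Dom := fun _ h => Or.inl (Or.inl h)
lemma B_sub_Dom (j : Bool) : D.Bj j ⊆ D.Dom := fun _ h => by
  cases j
  · exact Or.inr (Or.inl h)
  · exact Or.inl (Or.inr (Or.inl h))
lemma C_sub_Dom (j : Bool) : D.Cj j ⊆ D.Dom := fun _ h => by
  cases j
  · exact Or.inr (Or.inr h)
  · exact Or.inl (Or.inr (Or.inr h))

lemma distinct_sheet (j : Bool) {t : E} (ht : t ∈ D.A) :
    t ≠ D.Yj j t ∧ t ≠ D.Zj j t ∧ D.Yj j t ≠ D.Zj j t := by
  refine ⟨?_, ?_, ?_⟩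
  · exact fun h => Set.disjoint_left.mp (D.dAB j) ht (h ▸ D.Yj_mem j ht)
  · exact fun h => Set.disjoint_left.mp (D.dAC j) ht (h ▸ D.Zj_mem j ht)
  · exact fun h => Set.disjoint_left.mp (D.dBC j j) (D.Yj_mem j ht) (h ▸ D.Zj_mem j ht)

lemma v_eq (j : Bool) {t : E} (ht : t ∈ D.A) :
    D.v t + D.v (D.Yj j t) + D.v (D.Zj j t) = tripleCost D.s (t, D.Yj j t, D.Zj j t) +
      ENNReal.ofReal 3 := by
  obtain ⟨h1, h2, h3⟩ := D.distinct_sheet j ht
  rw [tripleCost_eq_ofReal h1 h2 h3, ← ENNReal.ofReal_add (D.realCost_nonneg _ _ _) (by norm_num),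
    D.sum_v (D.A_sub_Dom ht) (D.B_sub_Dom j (D.Yj_mem j ht)) (D.C_sub_Dom j (D.Zj_mem j ht))]
  congr 1
  have ht' := D.Rj_mem_A j ht
  have hu1 : D.u t = D.uA (D.Rj j t) := by rw [D.u_A ht, uA_Rj]
  have hu2 : D.u (D.Yj j t) = D.uB (D.sh.Y (D.Rj j t)) := by
    rw [D.u_B (D.Yj_mem j ht), D.Yj_eq j ht, Rj_Rj]
  have hu3 : D.u (D.Zj j t) = D.W (D.Rj j t) := by
    rw [D.u_C (D.Zj_mem j ht), D.Zj_eq j ht, Rj_Rj, D.uC_Z ht']
  have hc : realCost D.s t (D.Yj j t) (D.Zj j t) =
      realCost D.s (D.Rj j t) (D.sh.Y (D.Rj j t)) (D.sh.Z (D.Rj j t)) := by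
    rw [D.Yj_eq j ht, D.Zj_eq j ht]
    have := D.realCost_Rj j t (D.Rj j (D.sh.Y (D.Rj j t))) (D.Rj j (D.sh.Z (D.Rj j t)))
    rw [Rj_Rj, Rj_Rj] at this
    exact this.symm.symm ▸ this.symm ▸ rfl
  rw [hu1, hu2, hu3, hc, D.W_eq]
  ring

lemma approx_real (j : Bool) {t a : E} (ht : t ∈ D.A) (ha : a ∈ D.A) (hat : ‖a - t‖ ≤ 1) :
    realCost D.s a (D.Yj j t) (D.Zj j t) ≤ realCost D.s t (D.Yj j t) (D.Zj j t) +
      2 * L₀ D.s * ‖a - t‖ := by
  have hr := D.r_le
  have hy := D.mem_B_loc (D.Yj_mem j ht)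
  have hz := D.mem_C_loc (D.Zj_mem j ht)
  have hPn := D.Pj_norm j
  have hlow : ∀ {b q : E} {P : E}, b ∈ D.A → ‖P‖ = 1 → ‖q - P‖ ≤ D.r → 1 / 2 ≤ ‖b - q‖ := by
    intro b q P hb hP hq
    have h1 := D.norm_A hb
    have e : P = b + -(b - q) + -(q - P) := by abel
    have := norm_add₃_le (a := b) (b := -(b - q)) (c := -(q - P))
    rw [← e, norm_neg, norm_neg, hP] at this
    linarith
  have hlip : ∀ {q : E} {P : E}, ‖P‖ = 1 → ‖q - P‖ ≤ D.r →
      ‖a - q‖ ^ (-D.s) ≤ ‖t - q‖ ^ (-D.s) + L₀ D.s * ‖a - t‖ := by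
    intro q P hP hq
    have := D.rpow_lip (v := t - q) (w := a - q) (hlow ht hP hq) (hlow ha hP hq) (by
      rw [show t - q - (a - q) = t - a by abel, norm_sub_rev]; exact hat)
    rwa [show t - q - (a - q) = t - a by abel, norm_sub_rev t a] at this
  have h1 := hlip hPn hy
  have h2 := hlip (P := -D.Pj j) (by rw [norm_neg, hPn]) hz
  simp only [realCost]
  linarith

lemma approx (η : ℝ≥0∞) (hη : 0 < η) : ∃ δ : ℝ, 0 < δ ∧ ∀ j, ∀ t ∈ D.A, ∀ a ∈ D.A, dist a t ≤ δ →
    tripleCost D.s (a, D.Yj j t, D.Zj j t) ≤ tripleCost D.s (t, D.Yj j t, D.Zj j t) + η := by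
  have hL := L₀_pos D.hs
  obtain ⟨δ, h0, h1, h2⟩ := exists_small hη (show 0 < 2 * L₀ D.s by positivity)
  refine ⟨δ, h0, fun j t ht a ha hat => ?_⟩
  rw [dist_eq_norm] at hat
  by_cases h : a ≠ D.Yj j t ∧ a ≠ D.Zj j t ∧ D.Yj j t ≠ D.Zj j t
  · obtain ⟨n1, n2, n3⟩ := h
    obtain ⟨m1, m2, m3⟩ := D.distinct_sheet j ht
    rw [tripleCost_eq_ofReal n1 n2 n3, tripleCost_eq_ofReal m1 m2 m3]
    have hk := D.approx_real j ht ha (hat.trans h1)
    have hk2 : 2 * L₀ D.s * ‖a - t‖ ≤ 2 * L₀ D.s * δ :=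
      mul_le_mul_of_nonneg_left hat (by positivity)
    calc ENNReal.ofReal (realCost D.s a (D.Yj j t) (D.Zj j t))
        ≤ ENNReal.ofReal (realCost D.s t (D.Yj j t) (D.Zj j t) + 2 * L₀ D.s * δ) :=
          ENNReal.ofReal_le_ofReal (by linarith)
      _ ≤ _ := ENNReal.ofReal_add_le
      _ ≤ _ := by gcongr
  · exfalso
    simp only [ne_eq, not_and_or, not_not] at h
    obtain ⟨m1, m2, m3⟩ := D.distinct_sheet j ht
    rcases h with h | h | h
    · exact Set.disjoint_left.mp (D.dAB j) ha (h ▸ D.Yj_mem j ht)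
    · exact Set.disjoint_left.mp (D.dAC j) ha (h ▸ D.Zj_mem j ht)
    · exact m3 h

section meas

variable [MeasurableSpace E] [BorelSpace E] [FiniteDimensional ℝ E]

lemma measurable_Rj (j : Bool) : Measurable (D.Rj j) := (D.Rj_continuous j).measurable

lemma measurable_Ybar : Measurable D.Ybar :=
  cut_measurable _ D.sh.hUx D.sh.Y_smooth.continuousOn
lemma measurable_Zbar : Measurable D.Zbar :=
  cut_measurable _ D.sh.hUx D.sh.Z_smooth.continuousOn
lemma measurable_XYbar : Measurable D.XYbar :=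
  cut_measurable _ D.sh.hUy D.sh.XY_smooth.continuousOn
lemma measurable_XZbar : Measurable D.XZbar :=
  cut_measurable _ D.sh.hUz D.sh.XZ_smooth.continuousOn

lemma measurable_Yj (j : Bool) : Measurable (D.Yj j) :=
  (D.measurable_Rj j).comp (D.measurable_Ybar.comp (D.measurable_Rj j))
lemma measurable_Zj (j : Bool) : Measurable (D.Zj j) :=
  (D.measurable_Rj j).comp (D.measurable_Zbar.comp (D.measurable_Rj j))
lemma measurable_XYj (j : Bool) : Measurable (D.XYj j) :=
  (D.measurable_Rj j).comp (D.measurable_XYbar.comp (D.measurable_Rj j))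
lemma measurable_XZj (j : Bool) : Measurable (D.XZj j) :=
  (D.measurable_Rj j).comp (D.measurable_XZbar.comp (D.measurable_Rj j))

lemma isCompact_A : IsCompact D.A := isCompact_closedBall 0 D.a

lemma isClosed_B₀ : IsClosed D.B₀ :=
  (D.isCompact_A.image_of_continuousOn
    (D.sh.Y_smooth.continuousOn.mono D.A_sub_Ux)).isClosed

lemma isClosed_C₀ : IsClosed D.C₀ :=
  (D.isCompact_A.image_of_continuousOn
    (D.sh.Z_smooth.continuousOn.mono D.A_sub_Ux)).isClosed

lemma measurableSet_Bj (j : Bool) : MeasurableSet (D.Bj j) :=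
  (D.isClosed_B₀.preimage (D.Rj_continuous j)).measurableSet

lemma measurableSet_Cj (j : Bool) : MeasurableSet (D.Cj j) :=
  (D.isClosed_C₀.preimage (D.Rj_continuous j)).measurableSet

lemma measurable_Wbar : Measurable D.Wbar := by
  have hn : ∀ {a b : E → E}, Measurable a → Measurable b →
      Measurable fun t => ‖a t - b t‖ ^ (-D.s) := fun ha hb => ((ha.sub hb).norm).pow_const _
  have hY := D.measurable_Ybar
  have hZ := D.measurable_Zbar
  unfold Wbar Psi realCost
  refine Measurable.sub ?_ measurable_const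
  refine Measurable.sub ?_ ?_
  · refine Measurable.add (Measurable.add (((hn measurable_id hY).add (hn measurable_id hZ)).add
      (hn hY hZ)) ?_) ?_
    · exact measurable_const.mul (measurable_norm.pow_const _)
    · exact measurable_const.mul (((hY.sub measurable_const).norm).pow_const _)
  · exact (continuous_const.inner continuous_id).measurable.comp (hY.sub measurable_const)

lemma measurable_uC : Measurable D.uC := D.measurable_Wbar.comp D.measurable_XZbar

lemma continuous_uA : Continuous D.uA := by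
  unfold uA
  fun_prop

lemma continuous_uB : Continuous D.uB := by
  unfold uB
  fun_prop

lemma measurable_u : Measurable D.u := by
  classical
  unfold u
  have hA : MeasurableSet D.A := isClosed_closedBall.measurableSet
  refine Measurable.ite hA D.continuous_uA.measurable ?_
  refine Measurable.ite (D.measurableSet_Bj true)
    (D.continuous_uB.measurable.comp (D.measurable_Rj true)) ?_
  refine Measurable.ite (D.measurableSet_Cj true)
    (D.measurable_uC.comp (D.measurable_Rj true)) ?_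
  refine Measurable.ite (D.measurableSet_Bj false)
    (D.continuous_uB.measurable.comp (D.measurable_Rj false)) ?_
  refine Measurable.ite (D.measurableSet_Cj false)
    (D.measurable_uC.comp (D.measurable_Rj false)) measurable_const

lemma measurable_v : Measurable D.v :=
  ENNReal.measurable_ofReal.comp (D.measurable_u.add measurable_const)

/-- The abstract two-sheet data. -/
noncomputable def toTwoSheet (m₀ : Measure E) (hp : IsProbabilityMeasure m₀)
    (hat : NullSingletonClass m₀) (hA : m₀ D.Aᶜ = 0) : TwoSheet E where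
  c := tripleCost D.s
  hc := measurable_tripleCost D.s
  c_swap12 := tripleCost_swap12 D.s
  c_swap23 := tripleCost_swap23 D.s
  m₀ := m₀
  prob := hp
  atomless := hat
  A := D.A
  hA := isClosed_closedBall.measurableSet
  hm₀A := hA
  Y := D.Yj
  Z := D.Zj
  XY := D.XYj
  XZ := D.XZj
  hY := D.measurable_Yj
  hZ := D.measurable_Zj
  hXY := D.measurable_XYj
  hXZ := D.measurable_XZj
  B := D.Bj
  C := D.Cj
  hB := D.measurableSet_Bj
  hC := D.measurableSet_Cj
  dAB := D.dAB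
  dAC := D.dAC
  dBC := D.dBC
  dBB := D.dBB
  dCC := D.dCC
  Y_mem := fun j t ht => D.Yj_mem j ht
  Z_mem := fun j t ht => D.Zj_mem j ht
  XY_Y := fun j t ht => D.XYj_Yj j ht
  XZ_Z := fun j t ht => D.XZj_Zj j ht
  v := D.v
  hv := D.measurable_v
  K := ENNReal.ofReal 3
  hK := ENNReal.ofReal_ne_top
  Vmax := ENNReal.ofReal (a₀ D.s + 1)
  hVmax := ENNReal.ofReal_ne_top
  v_bdd := fun x hx => ENNReal.ofReal_le_ofReal (by linarith [D.u_le' hx])
  v_le := fun x hx y hy z hz => D.v_le hx hy hz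
  v_eq := fun j t ht => D.v_eq j ht
  contact := fun x hx y hy z hz he => D.contact hx hy hz he
  approx := fun η hη => D.approx η hη

end meas

end Setup

end Crest.Agent.S0175Lib
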