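import Mathlib

/-!
# Pushing densities with smooth square roots through diffeomorphisms
-/

set_option autoImplicit false
set_option linter.unusedSectionVars false

namespace Crest.Agent.S0175Lib

open MeasureTheory Set Filter Topology
open scoped ENNReal ContDiff

variable {E : Type*} [NormedAddCommGroup E] [NormedSpace ℝ E] [FiniteDimensional ℝ E]

/-- The determinant of continuous endomorphisms of a finite dimensional space is smooth. -/
lemma contDiff_clm_det : ContDiff ℝ ∞ (fun A : E →L[ℝ] E => A.det) := by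
  set b := Module.finBasis ℝ E with hb
  have hentry : ∀ i j, ContDiff ℝ ∞ (fun A : E →L[ℝ] E => b.repr (A (b j)) i) := by
    intro i j
    let ℓ : E →L[ℝ] ℝ := LinearMap.toContinuousLinearMap (b.coord i)
    have : (fun A : E →L[ℝ] E => b.repr (A (b j)) i) =
        fun A => ℓ.comp (ContinuousLinearMap.apply ℝ E (b j)) A := by
      funext A
      rfl
    rw [this]
    exact ContinuousLinearMap.contDiff _
  have hdet : (fun A : E →L[ℝ] E => A.det) = fun A => ∑ σ : Equiv.Perm (Fin (Module.finrank ℝ E)),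
      (Equiv.Perm.sign σ : ℤ) • ∏ i, b.repr (A (b i)) (σ i) := by
    funext A
    rw [ContinuousLinearMap.det, ← LinearMap.det_toMatrix b, Matrix.det_apply]
    refine Finset.sum_congr rfl fun σ _ => ?_
    rw [Units.smul_def]
    simp only [LinearMap.toMatrix_apply]
    rfl
  rw [hdet]
  refine ContDiff.sum fun σ _ => ContDiff.const_smul _ ?_
  exact contDiff_prod fun i _ => hentry _ _

variable [MeasurableSpace E] [BorelSpace E] {μ : Measure E} [μ.IsAddHaarMeasure]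

section

variable {U V : Set E} {φ ψ : E → E}

lemma det_mul_det_eq_one (hU : IsOpen U) (hφ : ContDiffOn ℝ ∞ φ U) (hV : IsOpen V)
    (hψ : ContDiffOn ℝ ∞ ψ V) (h1 : ∀ x ∈ U, φ x ∈ V) (h3 : ∀ x ∈ U, ψ (φ x) = x) {x : E}
    (hx : x ∈ U) : (fderiv ℝ ψ (φ x)).det * (fderiv ℝ φ x).det = 1 := by
  have hdφ : HasFDerivAt φ (fderiv ℝ φ x) x :=
    ((hφ.contDiffAt (hU.mem_nhds hx)).differentiableAt (by norm_cast)).hasFDerivAt
  have hdψ : HasFDerivAt ψ (fderiv ℝ ψ (φ x)) (φ x) :=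
    ((hψ.contDiffAt (hV.mem_nhds (h1 x hx))).differentiableAt (by norm_cast)).hasFDerivAt
  have hcomp : HasFDerivAt (ψ ∘ φ) ((fderiv ℝ ψ (φ x)).comp (fderiv ℝ φ x)) x := hdψ.comp x hdφ
  have hid : HasFDerivAt (ψ ∘ φ) (ContinuousLinearMap.id ℝ E) x := by
    refine (hasFDerivAt_id x).congr_of_eventuallyEq ?_
    filter_upwards [hU.mem_nhds hx] with y hy using h3 y hy
  have heq := hcomp.unique hid
  rw [ContinuousLinearMap.det, ContinuousLinearMap.det]
  rw [← LinearMap.det_comp]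
  have h5 : ((fderiv ℝ ψ (φ x)).comp (fderiv ℝ φ x) : E →L[ℝ] E).toLinearMap =
      (fderiv ℝ ψ (φ x)).toLinearMap ∘ₗ (fderiv ℝ φ x).toLinearMap := rfl
  rw [← h5, heq]
  simp

open Classical in
/-- The pushed square-root density. -/
noncomputable def pushRoot (V : Set E) (ψ : E → E) (σ : E → ℝ) (y : E) : ℝ :=
  if y ∈ V then σ (ψ y) * Real.sqrt |(fderiv ℝ ψ y).det| else 0

lemma pushRoot_nonneg {σ : E → ℝ} (hσ : ∀ x, 0 ≤ σ x) (y : E) : 0 ≤ pushRoot V ψ σ y := by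
  unfold pushRoot
  split_ifs
  · exact mul_nonneg (hσ _) (Real.sqrt_nonneg _)
  · exact le_rfl

theorem push_density (hU : IsOpen U) (hV : IsOpen V) (hφ : ContDiffOn ℝ ∞ φ U)
    (hψ : ContDiffOn ℝ ∞ ψ V) (h1 : ∀ x ∈ U, φ x ∈ V) (h2 : ∀ y ∈ V, ψ y ∈ U)
    (h3 : ∀ x ∈ U, ψ (φ x) = x) (h4 : ∀ y ∈ V, φ (ψ y) = y) {σ : E → ℝ} (hσ : ContDiff ℝ ∞ σ)
    (hσc : HasCompactSupport σ) (hσU : tsupport σ ⊆ U) :
    ContDiff ℝ ∞ (pushRoot V ψ σ) ∧ HasCompactSupport (pushRoot V ψ σ) ∧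
      tsupport (pushRoot V ψ σ) ⊆ φ '' tsupport σ ∧
      ∀ f : E → ℝ≥0∞, ∫⁻ y, f y * ENNReal.ofReal (pushRoot V ψ σ y ^ 2) ∂μ =
        ∫⁻ x, f (φ x) * ENNReal.ofReal (σ x ^ 2) ∂μ := by
  set τ := pushRoot V ψ σ with hτ
  set K := φ '' tsupport σ with hK
  have hKc : IsCompact K := hσc.isCompact.image_of_continuousOn (hφ.continuousOn.mono hσU)
  have hKV : K ⊆ V := by
    rintro _ ⟨x, hx, rfl⟩
    exact h1 x (hσU hx)
  have hτ0 : ∀ y, y ∉ K → τ y = 0 := by
    intro y hy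
    simp only [hτ, pushRoot]
    split_ifs with hyV
    · have : ψ y ∉ tsupport σ := fun h => hy ⟨ψ y, h, h4 y hyV⟩
      rw [image_eq_zero_of_notMem_tsupport this, zero_mul]
    · rfl
  have hdetne : ∀ y ∈ V, (fderiv ℝ ψ y).det ≠ 0 := by
    intro y hy
    have h5 := det_mul_det_eq_one hU hφ hV hψ h1 h3 (h2 y hy)
    rw [h4 y hy] at h5
    intro h6
    rw [h6, zero_mul] at h5
    exact zero_ne_one h5
  have hJ : ContDiffOn ℝ ∞ (fun y => Real.sqrt |(fderiv ℝ ψ y).det|) V := by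
    have hd : ContDiffOn ℝ ∞ (fderiv ℝ ψ) V := hψ.fderiv_of_isOpen hV (by simp)
    have hd2 : ContDiffOn ℝ ∞ (fun y => (fderiv ℝ ψ y).det) V :=
      contDiff_clm_det.comp_contDiffOn hd
    intro y hy
    have hat : ContDiffAt ℝ ∞ (fun y => (fderiv ℝ ψ y).det) y := hd2.contDiffAt (hV.mem_nhds hy)
    have habs := hat.abs (hdetne y hy)
    exact (habs.sqrt (by
      have := abs_pos.2 (hdetne y hy)
      exact this.ne')).contDiffWithinAt
  have hτV : ContDiffOn ℝ ∞ (fun y => σ (ψ y) * Real.sqrt |(fderiv ℝ ψ y).det|) V :=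
    (hσ.comp_contDiffOn hψ).mul hJ
  have hsmooth : ContDiff ℝ ∞ τ := by
    rw [contDiff_iff_contDiffAt]
    intro y
    by_cases hyK : y ∈ K
    · have hyV := hKV hyK
      refine (hτV.contDiffAt (hV.mem_nhds hyV)).congr_of_eventuallyEq ?_
      filter_upwards [hV.mem_nhds hyV] with w hw
      simp [hτ, pushRoot, hw]
    · have hev : τ =ᶠ[𝓝 y] fun _ => 0 := by
        filter_upwards [hKc.isClosed.isOpen_compl.mem_nhds hyK] with w hw using hτ0 w hw
      exact contDiffAt_const.congr_of_eventuallyEq hev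
  have hsupp : tsupport τ ⊆ K := by
    refine closure_minimal (fun y hy => ?_) hKc.isClosed
    by_contra hcon
    exact hy (hτ0 y hcon)
  refine ⟨hsmooth, hKc.of_isClosed_subset (isClosed_tsupport _) hsupp, hsupp, fun f => ?_⟩
  -- change of variables
  have hVeq : φ '' U = V := by
    ext y
    constructor
    · rintro ⟨x, hx, rfl⟩; exact h1 x hx
    · intro hy; exact ⟨ψ y, h2 y hy, h4 y hy⟩
  have hinj : InjOn φ U := fun x hx x' hx' h => by
    rw [← h3 x hx, ← h3 x' hx', h]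
  have hderiv : ∀ x ∈ U, HasFDerivWithinAt φ (fderiv ℝ φ x) U x := fun x hx =>
    ((hφ.contDiffAt (hU.mem_nhds hx)).differentiableAt (by norm_cast)).hasFDerivAt.hasFDerivWithinAt
  have hcv := lintegral_image_eq_lintegral_abs_det_fderiv_mul μ hU.measurableSet hderiv hinj
    (fun y => f y * ENNReal.ofReal (τ y ^ 2))
  rw [hVeq] at hcv
  have hL : ∫⁻ y, f y * ENNReal.ofReal (τ y ^ 2) ∂μ = ∫⁻ y in V, f y * ENNReal.ofReal (τ y ^ 2) ∂μ := by
    rw [← lintegral_indicator hV.measurableSet]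
    refine lintegral_congr fun y => ?_
    by_cases hy : y ∈ V
    · simp [hy]
    · have : τ y = 0 := by simp [hτ, pushRoot, hy]
      simp [hy, this]
  have hR : ∫⁻ x, f (φ x) * ENNReal.ofReal (σ x ^ 2) ∂μ =
      ∫⁻ x in U, f (φ x) * ENNReal.ofReal (σ x ^ 2) ∂μ := by
    rw [← lintegral_indicator hU.measurableSet]
    refine lintegral_congr fun x => ?_
    by_cases hx : x ∈ U
    · simp [hx]
    · have : σ x = 0 := image_eq_zero_of_notMem_tsupport fun h => hx (hσU h)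
      simp [hx, this]
  rw [hL, hcv, hR]
  refine setLIntegral_congr_fun hU.measurableSet fun x hx => ?_
  have hm := det_mul_det_eq_one hU hφ hV hψ h1 h3 hx
  have hτφ : τ (φ x) ^ 2 = σ x ^ 2 * |(fderiv ℝ ψ (φ x)).det| := by
    simp only [hτ, pushRoot, h1 x hx, if_true, h3 x hx, mul_pow]
    rw [Real.sq_sqrt (abs_nonneg _)]
  rw [hτφ, ← mul_assoc, mul_comm (ENNReal.ofReal _) (f _), mul_assoc,
    ← ENNReal.ofReal_mul (abs_nonneg _)]
  congr 2
  have h7 : |(fderiv ℝ φ x).det| * |(fderiv ℝ ψ (φ x)).det| = 1 := by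
    rw [← abs_mul, mul_comm, hm, abs_one]
  calc |(fderiv ℝ φ x).det| * (σ x ^ 2 * |(fderiv ℝ ψ (φ x)).det|)
      = σ x ^ 2 * (|(fderiv ℝ φ x).det| * |(fderiv ℝ ψ (φ x)).det|) := by ring
    _ = σ x ^ 2 := by rw [h7, mul_one]

end

end Crest.Agent.S0175Lib
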