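import Mathlib
import Crest.Agent.S0175Lib.TwoSheet

/-!
# Monge plans approximating the two-sheet plan
-/

set_option autoImplicit false
set_option linter.unusedSectionVars false

namespace Crest.Agent.S0175Lib

open MeasureTheory Set Filter Topology
open scoped ENNReal
open Crest.AnalysisR.OT

namespace TwoSheet

variable {X : Type*} [MetricSpace X] [MeasurableSpace X] (d : TwoSheet X)

open Classical in
/-- forward cyclic map -/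
noncomputable def Tfwd (S : Set X) (ψ₁ θ₁ ψ₂ θ₂ : X → X) : X → X := fun x =>
  if x ∈ d.A then (if x ∈ S then d.Y true (ψ₁ x) else d.Y false (ψ₂ x))
  else if x ∈ d.B true then d.Z true (d.XY true x)
  else if x ∈ d.C true then θ₁ (d.XZ true x)
  else if x ∈ d.B false then d.Z false (d.XY false x)
  else if x ∈ d.C false then θ₂ (d.XZ false x)
  else x

open Classical in
/-- backward cyclic map -/
noncomputable def Tbwd (S : Set X) (ψ₁ θ₁ ψ₂ θ₂ : X → X) : X → X := fun x =>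
  if x ∈ d.A then (if x ∈ S then d.Z true (ψ₁ x) else d.Z false (ψ₂ x))
  else if x ∈ d.B true then θ₁ (d.XY true x)
  else if x ∈ d.C true then d.Y true (d.XZ true x)
  else if x ∈ d.B false then θ₂ (d.XY false x)
  else if x ∈ d.C false then d.Y false (d.XZ false x)
  else x

variable {S : Set X} {ψ₁ θ₁ ψ₂ θ₂ : X → X}

lemma meas_Tfwd (hS : MeasurableSet S) (hψ₁ : Measurable ψ₁) (hθ₁ : Measurable θ₁)
    (hψ₂ : Measurable ψ₂) (hθ₂ : Measurable θ₂) : Measurable (d.Tfwd S ψ₁ θ₁ ψ₂ θ₂) := by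
  classical
  refine Measurable.ite d.hA (Measurable.ite hS ((d.hY _).comp hψ₁) ((d.hY _).comp hψ₂)) ?_
  refine Measurable.ite (d.hB _) ((d.hZ _).comp (d.hXY _)) ?_
  refine Measurable.ite (d.hC _) (hθ₁.comp (d.hXZ _)) ?_
  refine Measurable.ite (d.hB _) ((d.hZ _).comp (d.hXY _)) ?_
  exact Measurable.ite (d.hC _) (hθ₂.comp (d.hXZ _)) measurable_id

lemma meas_Tbwd (hS : MeasurableSet S) (hψ₁ : Measurable ψ₁) (hθ₁ : Measurable θ₁)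
    (hψ₂ : Measurable ψ₂) (hθ₂ : Measurable θ₂) : Measurable (d.Tbwd S ψ₁ θ₁ ψ₂ θ₂) := by
  classical
  refine Measurable.ite d.hA (Measurable.ite hS ((d.hZ _).comp hψ₁) ((d.hZ _).comp hψ₂)) ?_
  refine Measurable.ite (d.hB _) (hθ₁.comp (d.hXY _)) ?_
  refine Measurable.ite (d.hC _) ((d.hY _).comp (d.hXZ _)) ?_
  refine Measurable.ite (d.hB _) (hθ₂.comp (d.hXY _)) ?_
  exact Measurable.ite (d.hC _) ((d.hY _).comp (d.hXZ _)) measurable_id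

section values

variable {t : X} (ht : t ∈ d.A)
include ht

lemma not_A_Y (j : Bool) : d.Y j t ∉ d.A := d.Y_not_A j ht
lemma not_A_Z (j : Bool) : d.Z j t ∉ d.A := d.Z_not_A j ht
lemma not_C_Y (i j : Bool) : d.Y j t ∉ d.C i :=
  fun h => Set.disjoint_left.mp (d.dBC j i) (d.Y_mem j t ht) h
lemma not_B_Z (i j : Bool) : d.Z j t ∉ d.B i :=
  fun h => Set.disjoint_left.mp (d.dBC i j) h (d.Z_mem j t ht)

lemma Tfwd_Y_true : d.Tfwd S ψ₁ θ₁ ψ₂ θ₂ (d.Y true t) = d.Z true t := by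
  simp [Tfwd, d.not_A_Y ht, d.Y_mem true t ht, d.XY_Y true t ht]

lemma Tfwd_Z_true : d.Tfwd S ψ₁ θ₁ ψ₂ θ₂ (d.Z true t) = θ₁ t := by
  simp [Tfwd, d.not_A_Z ht, d.not_B_Z ht, d.Z_mem true t ht, d.XZ_Z true t ht]

lemma Y_false_not_B_true : d.Y false t ∉ d.B true := fun h =>
  Set.disjoint_left.mp d.dBB h (d.Y_mem false t ht)

lemma Z_false_not_C_true : d.Z false t ∉ d.C true := fun h =>
  Set.disjoint_left.mp d.dCC h (d.Z_mem false t ht)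

lemma Tfwd_Y_false : d.Tfwd S ψ₁ θ₁ ψ₂ θ₂ (d.Y false t) = d.Z false t := by
  simp [Tfwd, d.not_A_Y ht, d.not_C_Y ht, d.Y_false_not_B_true ht, d.Y_mem false t ht,
    d.XY_Y false t ht]

lemma Tfwd_Z_false : d.Tfwd S ψ₁ θ₁ ψ₂ θ₂ (d.Z false t) = θ₂ t := by
  simp [Tfwd, d.not_A_Z ht, d.not_B_Z ht, d.Z_false_not_C_true ht, d.Z_mem false t ht,
    d.XZ_Z false t ht]

lemma Tbwd_Y_true : d.Tbwd S ψ₁ θ₁ ψ₂ θ₂ (d.Y true t) = θ₁ t := by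
  simp [Tbwd, d.not_A_Y ht, d.Y_mem true t ht, d.XY_Y true t ht]

lemma Tbwd_Z_true : d.Tbwd S ψ₁ θ₁ ψ₂ θ₂ (d.Z true t) = d.Y true t := by
  simp [Tbwd, d.not_A_Z ht, d.not_B_Z ht, d.Z_mem true t ht, d.XZ_Z true t ht]

lemma Tbwd_Y_false : d.Tbwd S ψ₁ θ₁ ψ₂ θ₂ (d.Y false t) = θ₂ t := by
  simp [Tbwd, d.not_A_Y ht, d.not_C_Y ht, d.Y_false_not_B_true ht, d.Y_mem false t ht,
    d.XY_Y false t ht]

lemma Tbwd_Z_false : d.Tbwd S ψ₁ θ₁ ψ₂ θ₂ (d.Z false t) = d.Y false t := by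
  simp [Tbwd, d.not_A_Z ht, d.not_B_Z ht, d.Z_false_not_C_true ht, d.Z_mem false t ht,
    d.XZ_Z false t ht]

lemma Tfwd_of_mem (hS : t ∈ S) : d.Tfwd S ψ₁ θ₁ ψ₂ θ₂ t = d.Y true (ψ₁ t) := by
  simp [Tfwd, ht, hS]

lemma Tfwd_of_not_mem (hS : t ∉ S) : d.Tfwd S ψ₁ θ₁ ψ₂ θ₂ t = d.Y false (ψ₂ t) := by
  simp [Tfwd, ht, hS]

lemma Tbwd_of_mem (hS : t ∈ S) : d.Tbwd S ψ₁ θ₁ ψ₂ θ₂ t = d.Z true (ψ₁ t) := by
  simp [Tbwd, ht, hS]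

lemma Tbwd_of_not_mem (hS : t ∉ S) : d.Tbwd S ψ₁ θ₁ ψ₂ θ₂ t = d.Z false (ψ₂ t) := by
  simp [Tbwd, ht, hS]

end values

lemma half_add_half (ν : Measure X) : (2⁻¹ : ℝ≥0∞) • ν + (2⁻¹ : ℝ≥0∞) • ν = ν := by
  rw [← add_smul, ENNReal.inv_two_add_inv_two, one_smul]

lemma ae_restrict_A (S' : Set X) : ∀ᵐ t ∂(d.m₀.restrict S'), t ∈ d.A :=
  Measure.absolutelyContinuous_of_le Measure.restrict_le_self d.ae_mem_A

/-- The data produced by the splitting lemma -/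
structure SplitData (d : TwoSheet X) (S : Set X) (ψ₁ θ₁ ψ₂ θ₂ : X → X) (δ : ℝ) : Prop where
  hS : MeasurableSet S
  hψ₁ : Measurable ψ₁
  hθ₁ : Measurable θ₁
  hψ₂ : Measurable ψ₂
  hθ₂ : Measurable θ₂
  mψ₁ : (d.m₀.restrict S).map ψ₁ = (2⁻¹ : ℝ≥0∞) • d.m₀
  mθ₁ : ((2⁻¹ : ℝ≥0∞) • d.m₀).map θ₁ = d.m₀.restrict S
  mψ₂ : (d.m₀.restrict Sᶜ).map ψ₂ = (2⁻¹ : ℝ≥0∞) • d.m₀
  mθ₂ : ((2⁻¹ : ℝ≥0∞) • d.m₀).map θ₂ = d.m₀.restrict Sᶜ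
  dψ₁ : ∀ᵐ x ∂(d.m₀.restrict S), dist (ψ₁ x) x ≤ δ
  dθ₁ : ∀ᵐ x ∂d.m₀, dist (θ₁ x) x ≤ δ
  dψ₂ : ∀ᵐ x ∂(d.m₀.restrict Sᶜ), dist (ψ₂ x) x ≤ δ
  dθ₂ : ∀ᵐ x ∂d.m₀, dist (θ₂ x) x ≤ δ

variable {δ : ℝ}

lemma SplitData.map_θ₁ (h : SplitData d S ψ₁ θ₁ ψ₂ θ₂ δ) :
    d.m₀.map θ₁ = d.m₀.restrict S + d.m₀.restrict S := by
  have := h.mθ₁
  rw [Measure.map_smul] at this
  rw [← this, half_add_half]

lemma SplitData.map_θ₂ (h : SplitData d S ψ₁ θ₁ ψ₂ θ₂ δ) :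
    d.m₀.map θ₂ = d.m₀.restrict Sᶜ + d.m₀.restrict Sᶜ := by
  have := h.mθ₂
  rw [Measure.map_smul] at this
  rw [← this, half_add_half]

lemma SplitData.θ₁_mem_A (h : SplitData d S ψ₁ θ₁ ψ₂ θ₂ δ) : ∀ᵐ t ∂d.m₀, θ₁ t ∈ d.A := by
  have h1 : ∀ᵐ t ∂((2⁻¹ : ℝ≥0∞) • d.m₀), θ₁ t ∈ d.A := by
    rw [ae_iff]
    have : ((2⁻¹ : ℝ≥0∞) • d.m₀) (θ₁ ⁻¹' d.Aᶜ) = 0 := by
      rw [← Measure.map_apply h.hθ₁ d.hA.compl, h.mθ₁]
      exact Measure.absolutelyContinuous_of_le Measure.restrict_le_self d.hm₀A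
    exact this
  rwa [Measure.ae_ennreal_smul_measure_iff (by simp)] at h1

lemma SplitData.θ₂_mem_A (h : SplitData d S ψ₁ θ₁ ψ₂ θ₂ δ) : ∀ᵐ t ∂d.m₀, θ₂ t ∈ d.A := by
  have h1 : ∀ᵐ t ∂((2⁻¹ : ℝ≥0∞) • d.m₀), θ₂ t ∈ d.A := by
    rw [ae_iff]
    have : ((2⁻¹ : ℝ≥0∞) • d.m₀) (θ₂ ⁻¹' d.Aᶜ) = 0 := by
      rw [← Measure.map_apply h.hθ₂ d.hA.compl, h.mθ₂]
      exact Measure.absolutelyContinuous_of_le Measure.restrict_le_self d.hm₀A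
    exact this
  rwa [Measure.ae_ennreal_smul_measure_iff (by simp)] at h1

lemma SplitData.ψ₁_mem_A (h : SplitData d S ψ₁ θ₁ ψ₂ θ₂ δ) :
    ∀ᵐ x ∂(d.m₀.restrict S), ψ₁ x ∈ d.A := by
  rw [ae_iff]
  have : (d.m₀.restrict S) (ψ₁ ⁻¹' d.Aᶜ) = 0 := by
    rw [← Measure.map_apply h.hψ₁ d.hA.compl, h.mψ₁]
    simp [d.hm₀A]
  exact this

lemma SplitData.ψ₂_mem_A (h : SplitData d S ψ₁ θ₁ ψ₂ θ₂ δ) :
    ∀ᵐ x ∂(d.m₀.restrict Sᶜ), ψ₂ x ∈ d.A := by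
  rw [ae_iff]
  have : (d.m₀.restrict Sᶜ) (ψ₂ ⁻¹' d.Aᶜ) = 0 := by
    rw [← Measure.map_apply h.hψ₂ d.hA.compl, h.mψ₂]
    simp [d.hm₀A]
  exact this

lemma SplitData.map_restrict_fwd (h : SplitData d S ψ₁ θ₁ ψ₂ θ₂ δ) :
    (d.m₀.restrict S).map (d.Tfwd S ψ₁ θ₁ ψ₂ θ₂) = (2⁻¹ : ℝ≥0∞) • d.m₀.map (d.Y true) := by
  have e : d.Tfwd S ψ₁ θ₁ ψ₂ θ₂ =ᵐ[d.m₀.restrict S] d.Y true ∘ ψ₁ := by
    filter_upwards [d.ae_restrict_A S, ae_restrict_mem h.hS] with x hx hxS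
    exact d.Tfwd_of_mem hx hxS
  rw [Measure.map_congr e, ← Measure.map_map (d.hY _) h.hψ₁, h.mψ₁, Measure.map_smul]

lemma SplitData.map_restrict_compl_fwd (h : SplitData d S ψ₁ θ₁ ψ₂ θ₂ δ) :
    (d.m₀.restrict Sᶜ).map (d.Tfwd S ψ₁ θ₁ ψ₂ θ₂) = (2⁻¹ : ℝ≥0∞) • d.m₀.map (d.Y false) := by
  have e : d.Tfwd S ψ₁ θ₁ ψ₂ θ₂ =ᵐ[d.m₀.restrict Sᶜ] d.Y false ∘ ψ₂ := by
    filter_upwards [d.ae_restrict_A Sᶜ, ae_restrict_mem h.hS.compl] with x hx hxS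
    exact d.Tfwd_of_not_mem hx hxS
  rw [Measure.map_congr e, ← Measure.map_map (d.hY _) h.hψ₂, h.mψ₂, Measure.map_smul]

lemma SplitData.map_restrict_bwd (h : SplitData d S ψ₁ θ₁ ψ₂ θ₂ δ) :
    (d.m₀.restrict S).map (d.Tbwd S ψ₁ θ₁ ψ₂ θ₂) = (2⁻¹ : ℝ≥0∞) • d.m₀.map (d.Z true) := by
  have e : d.Tbwd S ψ₁ θ₁ ψ₂ θ₂ =ᵐ[d.m₀.restrict S] d.Z true ∘ ψ₁ := by
    filter_upwards [d.ae_restrict_A S, ae_restrict_mem h.hS] with x hx hxS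
    exact d.Tbwd_of_mem hx hxS
  rw [Measure.map_congr e, ← Measure.map_map (d.hZ _) h.hψ₁, h.mψ₁, Measure.map_smul]

lemma SplitData.map_restrict_compl_bwd (h : SplitData d S ψ₁ θ₁ ψ₂ θ₂ δ) :
    (d.m₀.restrict Sᶜ).map (d.Tbwd S ψ₁ θ₁ ψ₂ θ₂) = (2⁻¹ : ℝ≥0∞) • d.m₀.map (d.Z false) := by
  have e : d.Tbwd S ψ₁ θ₁ ψ₂ θ₂ =ᵐ[d.m₀.restrict Sᶜ] d.Z false ∘ ψ₂ := by
    filter_upwards [d.ae_restrict_A Sᶜ, ae_restrict_mem h.hS.compl] with x hx hxS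
    exact d.Tbwd_of_not_mem hx hxS
  rw [Measure.map_congr e, ← Measure.map_map (d.hZ _) h.hψ₂, h.mψ₂, Measure.map_smul]

/-- `Tfwd` preserves `μ` -/
lemma SplitData.map_fwd (h : SplitData d S ψ₁ θ₁ ψ₂ θ₂ δ) :
    d.μ.map (d.Tfwd S ψ₁ θ₁ ψ₂ θ₂) = d.μ := by
  have hT := d.meas_Tfwd (S := S) (ψ₁ := ψ₁) (θ₁ := θ₁) (ψ₂ := ψ₂) (θ₂ := θ₂)
    h.hS h.hψ₁ h.hθ₁ h.hψ₂ h.hθ₂
  set T := d.Tfwd S ψ₁ θ₁ ψ₂ θ₂ with hTdef
  have hm₀ : d.m₀.map T = (2⁻¹ : ℝ≥0∞) • d.m₀.map (d.Y true) +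
      (2⁻¹ : ℝ≥0∞) • d.m₀.map (d.Y false) := by
    conv_lhs => rw [← Measure.restrict_add_restrict_compl (μ := d.m₀) h.hS]
    rw [Measure.map_add _ _ hT, h.map_restrict_fwd, h.map_restrict_compl_fwd]
  have h1 : (d.m₀.map (d.Y true)).map T = d.m₀.map (d.Z true) := by
    rw [Measure.map_map hT (d.hY _)]
    refine Measure.map_congr ?_
    filter_upwards [d.ae_mem_A] with t ht
    exact d.Tfwd_Y_true ht
  have h2 : (d.m₀.map (d.Z true)).map T = d.m₀.restrict S + d.m₀.restrict S := by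
    rw [Measure.map_map hT (d.hZ _), ← h.map_θ₁]
    refine Measure.map_congr ?_
    filter_upwards [d.ae_mem_A] with t ht
    exact d.Tfwd_Z_true ht
  have h3 : (d.m₀.map (d.Y false)).map T = d.m₀.map (d.Z false) := by
    rw [Measure.map_map hT (d.hY _)]
    refine Measure.map_congr ?_
    filter_upwards [d.ae_mem_A] with t ht
    exact d.Tfwd_Y_false ht
  have h4 : (d.m₀.map (d.Z false)).map T = d.m₀.restrict Sᶜ + d.m₀.restrict Sᶜ := by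
    rw [Measure.map_map hT (d.hZ _), ← h.map_θ₂]
    refine Measure.map_congr ?_
    filter_upwards [d.ae_mem_A] with t ht
    exact d.Tfwd_Z_false ht
  rw [μ, Measure.map_smul]
  congr 1
  rw [M, Measure.map_add _ _ hT, Measure.map_add _ _ hT, Measure.map_add _ _ hT,
    Measure.map_add _ _ hT, Measure.map_add _ _ hT, h1, h2, h3, h4, hm₀]
  have e1 := half_add_half (d.m₀.map (d.Y true))
  have e2 := half_add_half (d.m₀.map (d.Y false))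
  have e3 := Measure.restrict_add_restrict_compl (μ := d.m₀) h.hS
  calc _ = ((2⁻¹ : ℝ≥0∞) • d.m₀.map (d.Y true) + (2⁻¹ : ℝ≥0∞) • d.m₀.map (d.Y true)) +
        ((2⁻¹ : ℝ≥0∞) • d.m₀.map (d.Y false) + (2⁻¹ : ℝ≥0∞) • d.m₀.map (d.Y false)) +
        d.m₀.map (d.Z true) + d.m₀.map (d.Z false) +
        ((d.m₀.restrict S + d.m₀.restrict Sᶜ) + (d.m₀.restrict S + d.m₀.restrict Sᶜ)) := by abel
    _ = _ := by rw [e1, e2, e3]; abel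

/-- `Tbwd` preserves `μ` -/
lemma SplitData.map_bwd (h : SplitData d S ψ₁ θ₁ ψ₂ θ₂ δ) :
    d.μ.map (d.Tbwd S ψ₁ θ₁ ψ₂ θ₂) = d.μ := by
  have hT := d.meas_Tbwd (S := S) (ψ₁ := ψ₁) (θ₁ := θ₁) (ψ₂ := ψ₂) (θ₂ := θ₂)
    h.hS h.hψ₁ h.hθ₁ h.hψ₂ h.hθ₂
  set T := d.Tbwd S ψ₁ θ₁ ψ₂ θ₂ with hTdef
  have hm₀ : d.m₀.map T = (2⁻¹ : ℝ≥0∞) • d.m₀.map (d.Z true) +
      (2⁻¹ : ℝ≥0∞) • d.m₀.map (d.Z false) := by
    conv_lhs => rw [← Measure.restrict_add_restrict_compl (μ := d.m₀) h.hS]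
    rw [Measure.map_add _ _ hT, h.map_restrict_bwd, h.map_restrict_compl_bwd]
  have h1 : (d.m₀.map (d.Z true)).map T = d.m₀.map (d.Y true) := by
    rw [Measure.map_map hT (d.hZ _)]
    refine Measure.map_congr ?_
    filter_upwards [d.ae_mem_A] with t ht
    exact d.Tbwd_Z_true ht
  have h2 : (d.m₀.map (d.Y true)).map T = d.m₀.restrict S + d.m₀.restrict S := by
    rw [Measure.map_map hT (d.hY _), ← h.map_θ₁]
    refine Measure.map_congr ?_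
    filter_upwards [d.ae_mem_A] with t ht
    exact d.Tbwd_Y_true ht
  have h3 : (d.m₀.map (d.Z false)).map T = d.m₀.map (d.Y false) := by
    rw [Measure.map_map hT (d.hZ _)]
    refine Measure.map_congr ?_
    filter_upwards [d.ae_mem_A] with t ht
    exact d.Tbwd_Z_false ht
  have h4 : (d.m₀.map (d.Y false)).map T = d.m₀.restrict Sᶜ + d.m₀.restrict Sᶜ := by
    rw [Measure.map_map hT (d.hY _), ← h.map_θ₂]
    refine Measure.map_congr ?_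
    filter_upwards [d.ae_mem_A] with t ht
    exact d.Tbwd_Y_false ht
  rw [μ, Measure.map_smul]
  congr 1
  rw [M, Measure.map_add _ _ hT, Measure.map_add _ _ hT, Measure.map_add _ _ hT,
    Measure.map_add _ _ hT, Measure.map_add _ _ hT, h1, h2, h3, h4, hm₀]
  have e1 := half_add_half (d.m₀.map (d.Z true))
  have e2 := half_add_half (d.m₀.map (d.Z false))
  have e3 := Measure.restrict_add_restrict_compl (μ := d.m₀) h.hS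
  calc _ = ((2⁻¹ : ℝ≥0∞) • d.m₀.map (d.Z true) + (2⁻¹ : ℝ≥0∞) • d.m₀.map (d.Z true)) +
        ((2⁻¹ : ℝ≥0∞) • d.m₀.map (d.Z false) + (2⁻¹ : ℝ≥0∞) • d.m₀.map (d.Z false)) +
        d.m₀.map (d.Y true) + d.m₀.map (d.Y false) +
        ((d.m₀.restrict S + d.m₀.restrict Sᶜ) + (d.m₀.restrict S + d.m₀.restrict Sᶜ)) := by abel
    _ = _ := by rw [e1, e2, e3]; abel

/-- The cost of the Monge plan `(Tfwd, Tbwd)`. -/
lemma SplitData.cost_le (h : SplitData d S ψ₁ θ₁ ψ₂ θ₂ δ) {η : ℝ≥0∞}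
    (happrox : ∀ j, ∀ t ∈ d.A, ∀ a ∈ d.A, dist a t ≤ δ →
      d.c (a, d.Y j t, d.Z j t) ≤ d.c (t, d.Y j t, d.Z j t) + η) :
    ∫⁻ x, d.c (x, d.Tfwd S ψ₁ θ₁ ψ₂ θ₂ x, d.Tbwd S ψ₁ θ₁ ψ₂ θ₂ x) ∂d.μ ≤
      ∫⁻ p, d.c p ∂d.π₀ + η := by
  have hT := d.meas_Tfwd (S := S) (ψ₁ := ψ₁) (θ₁ := θ₁) (ψ₂ := ψ₂) (θ₂ := θ₂)
    h.hS h.hψ₁ h.hθ₁ h.hψ₂ h.hθ₂
  have hT' := d.meas_Tbwd (S := S) (ψ₁ := ψ₁) (θ₁ := θ₁) (ψ₂ := ψ₂) (θ₂ := θ₂)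
    h.hS h.hψ₁ h.hθ₁ h.hψ₂ h.hθ₂
  set T := d.Tfwd S ψ₁ θ₁ ψ₂ θ₂ with hTdef
  set T' := d.Tbwd S ψ₁ θ₁ ψ₂ θ₂ with hT'def
  set f : X → ℝ≥0∞ := fun x => d.c (x, T x, T' x) with hf
  have hfm : Measurable f := d.hc.comp (measurable_id.prodMk (hT.prodMk hT'))
  -- sheet costs as measurable functions
  have hg : ∀ j, Measurable fun t => d.c (t, d.Y j t, d.Z j t) := fun j =>
    d.hc.comp (d.meas_G j)
  -- piece over `S`
  have hS1 : ∫⁻ x in S, f x ∂d.m₀ ≤ (2⁻¹ : ℝ≥0∞) * d.Cj true + η * d.m₀ S := by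
    have hle : ∀ᵐ x ∂(d.m₀.restrict S), f x ≤ d.c (ψ₁ x, d.Y true (ψ₁ x), d.Z true (ψ₁ x)) + η := by
      filter_upwards [d.ae_restrict_A S, ae_restrict_mem h.hS, h.ψ₁_mem_A, h.dψ₁]
        with x hx hxS hψ hd
      have e1 : T x = d.Y true (ψ₁ x) := d.Tfwd_of_mem hx hxS
      have e2 : T' x = d.Z true (ψ₁ x) := d.Tbwd_of_mem hx hxS
      simp only [hf, e1, e2]
      exact happrox true _ hψ _ hx (by rw [dist_comm]; exact hd)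
    calc ∫⁻ x in S, f x ∂d.m₀
        ≤ ∫⁻ x in S, (d.c (ψ₁ x, d.Y true (ψ₁ x), d.Z true (ψ₁ x)) + η) ∂d.m₀ :=
          lintegral_mono_ae hle
      _ = ∫⁻ x in S, d.c (ψ₁ x, d.Y true (ψ₁ x), d.Z true (ψ₁ x)) ∂d.m₀ + η * d.m₀ S := by
          rw [lintegral_add_right _ measurable_const, lintegral_const,
            Measure.restrict_apply MeasurableSet.univ, univ_inter]
      _ = (2⁻¹ : ℝ≥0∞) * d.Cj true + η * d.m₀ S := by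
          congr 1
          have := lintegral_map (μ := d.m₀.restrict S) (hg true) h.hψ₁
          rw [← this, h.mψ₁, lintegral_smul_measure, smul_eq_mul, Cj]
  have hS2 : ∫⁻ x in Sᶜ, f x ∂d.m₀ ≤ (2⁻¹ : ℝ≥0∞) * d.Cj false + η * d.m₀ Sᶜ := by
    have hle : ∀ᵐ x ∂(d.m₀.restrict Sᶜ),
        f x ≤ d.c (ψ₂ x, d.Y false (ψ₂ x), d.Z false (ψ₂ x)) + η := by
      filter_upwards [d.ae_restrict_A Sᶜ, ae_restrict_mem h.hS.compl, h.ψ₂_mem_A, h.dψ₂]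
        with x hx hxS hψ hd
      have e1 : T x = d.Y false (ψ₂ x) := d.Tfwd_of_not_mem hx hxS
      have e2 : T' x = d.Z false (ψ₂ x) := d.Tbwd_of_not_mem hx hxS
      simp only [hf, e1, e2]
      exact happrox false _ hψ _ hx (by rw [dist_comm]; exact hd)
    calc ∫⁻ x in Sᶜ, f x ∂d.m₀
        ≤ ∫⁻ x in Sᶜ, (d.c (ψ₂ x, d.Y false (ψ₂ x), d.Z false (ψ₂ x)) + η) ∂d.m₀ :=
          lintegral_mono_ae hle
      _ = ∫⁻ x in Sᶜ, d.c (ψ₂ x, d.Y false (ψ₂ x), d.Z false (ψ₂ x)) ∂d.m₀ + η * d.m₀ Sᶜ := by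
          rw [lintegral_add_right _ measurable_const, lintegral_const,
            Measure.restrict_apply MeasurableSet.univ, univ_inter]
      _ = (2⁻¹ : ℝ≥0∞) * d.Cj false + η * d.m₀ Sᶜ := by
          congr 1
          have := lintegral_map (μ := d.m₀.restrict Sᶜ) (hg false) h.hψ₂
          rw [← this, h.mψ₂, lintegral_smul_measure, smul_eq_mul, Cj]
  have hm : ∫⁻ x, f x ∂d.m₀ ≤ (2⁻¹ : ℝ≥0∞) * d.Cj true + η * d.m₀ S +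
      ((2⁻¹ : ℝ≥0∞) * d.Cj false + η * d.m₀ Sᶜ) := by
    rw [← lintegral_add_compl f h.hS]
    exact add_le_add hS1 hS2
  have hmS : d.m₀ S + d.m₀ Sᶜ = 1 := prob_add_prob_compl h.hS
  -- the other four pieces
  have key : ∀ (j : Bool) (θ : X → X), (∀ᵐ t ∂d.m₀, θ t ∈ d.A) → (∀ᵐ t ∂d.m₀, dist (θ t) t ≤ δ) →
      ∀ F : X → X × X × X, (∀ t ∈ d.A, d.c (F t) = d.c (θ t, d.Y j t, d.Z j t)) →
      ∫⁻ t, d.c (F t) ∂d.m₀ ≤ d.Cj j + η := by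
    intro j θ hθ hdθ F hF
    have : ∫⁻ t, d.c (F t) ∂d.m₀ ≤ ∫⁻ t, (d.c (t, d.Y j t, d.Z j t) + η) ∂d.m₀ := by
      refine lintegral_mono_ae ?_
      filter_upwards [d.ae_mem_A, hθ, hdθ] with t ht hθt hdt
      rw [hF t ht]
      exact happrox j t ht _ hθt hdt
    rw [lintegral_add_right _ measurable_const, lintegral_const, measure_univ, mul_one] at this
    exact this
  have hYt : ∫⁻ t, f (d.Y true t) ∂d.m₀ ≤ d.Cj true + η :=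
    key true θ₁ h.θ₁_mem_A h.dθ₁ (fun t => (d.Y true t, T (d.Y true t), T' (d.Y true t)))
      (fun t ht => by
        rw [show T (d.Y true t) = d.Z true t from d.Tfwd_Y_true ht,
          show T' (d.Y true t) = θ₁ t from d.Tbwd_Y_true ht, d.c_swap23, d.c_swap12])
  have hZt : ∫⁻ t, f (d.Z true t) ∂d.m₀ ≤ d.Cj true + η :=
    key true θ₁ h.θ₁_mem_A h.dθ₁ (fun t => (d.Z true t, T (d.Z true t), T' (d.Z true t)))
      (fun t ht => by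
        rw [show T (d.Z true t) = θ₁ t from d.Tfwd_Z_true ht,
          show T' (d.Z true t) = d.Y true t from d.Tbwd_Z_true ht, d.c_swap12, d.c_swap23])
  have hYf : ∫⁻ t, f (d.Y false t) ∂d.m₀ ≤ d.Cj false + η :=
    key false θ₂ h.θ₂_mem_A h.dθ₂ (fun t => (d.Y false t, T (d.Y false t), T' (d.Y false t)))
      (fun t ht => by
        rw [show T (d.Y false t) = d.Z false t from d.Tfwd_Y_false ht,
          show T' (d.Y false t) = θ₂ t from d.Tbwd_Y_false ht, d.c_swap23, d.c_swap12])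
  have hZf : ∫⁻ t, f (d.Z false t) ∂d.m₀ ≤ d.Cj false + η :=
    key false θ₂ h.θ₂_mem_A h.dθ₂ (fun t => (d.Z false t, T (d.Z false t), T' (d.Z false t)))
      (fun t ht => by
        rw [show T (d.Z false t) = θ₂ t from d.Tfwd_Z_false ht,
          show T' (d.Z false t) = d.Y false t from d.Tbwd_Z_false ht, d.c_swap12, d.c_swap23])
  rw [d.lintegral_μ hfm, d.cost_π₀]
  set a := d.Cj true
  set b := d.Cj false
  set s := d.m₀ S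
  set s' := d.m₀ Sᶜ
  calc _ ≤ 6⁻¹ * (((2⁻¹ : ℝ≥0∞) * a + η * s + ((2⁻¹ : ℝ≥0∞) * b + η * s')) +
        ((2⁻¹ : ℝ≥0∞) * a + η * s + ((2⁻¹ : ℝ≥0∞) * b + η * s')) + (a + η) + (a + η) + (b + η)
          + (b + η)) := by gcongr
    _ = (6⁻¹ * 3 * (a + b)) + (6⁻¹ * 6) * η + (6⁻¹ * 2) * η * ((s + s') - 1 + 0) * 0 := by
        have e : (2⁻¹ : ℝ≥0∞) * a + (2⁻¹ : ℝ≥0∞) * a = a := by
          rw [← add_mul, ENNReal.inv_two_add_inv_two, one_mul]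
        have e' : (2⁻¹ : ℝ≥0∞) * b + (2⁻¹ : ℝ≥0∞) * b = b := by
          rw [← add_mul, ENNReal.inv_two_add_inv_two, one_mul]
        have e'' : η * s + η * s' = η := by
          rw [← mul_add, hmS, mul_one]
        calc _ = 6⁻¹ * (((2⁻¹ : ℝ≥0∞) * a + (2⁻¹ : ℝ≥0∞) * a) +
              ((2⁻¹ : ℝ≥0∞) * b + (2⁻¹ : ℝ≥0∞) * b) + ((η * s + η * s') + (η * s + η * s')) +
              (a + η) + (a + η) + (b + η) + (b + η)) := by ring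
          _ = 6⁻¹ * (3 * (a + b) + 6 * η) := by rw [e, e', e'']; ring
          _ = _ := by ring
    _ = (2⁻¹ : ℝ≥0∞) * (a + b) + η := by
        have h6 : (6⁻¹ : ℝ≥0∞) * 3 = 2⁻¹ := by
          rw [show (6 : ℝ≥0∞) = 3 * 2 by norm_num, ENNReal.mul_inv (by simp) (by simp), mul_comm,
            ← mul_assoc, ENNReal.mul_inv_cancel (by simp) (by simp), one_mul]
        rw [h6, six_inv_mul_six, mul_zero, add_zero, one_mul]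

end TwoSheet

/-- The abstract main theorem. -/
theorem TwoSheet.main {X : Type*} [MetricSpace X] [TopologicalSpace.SeparableSpace X]
    [MeasurableSpace X] [BorelSpace X] [StandardBorelSpace X] [Nonempty X] (d : TwoSheet X) :
    ∃ π₀ : Measure (X × X × X), IsCoupling₃ d.μ π₀ ∧ ∫⁻ p, d.c p ∂π₀ < ⊤ ∧
      (∀ π : Measure (X × X × X), IsCoupling₃ d.μ π → ∫⁻ p, d.c p ∂π₀ ≤ ∫⁻ p, d.c p ∂π) ∧
      (∀ T₂ T₃ : X → X, Measurable T₂ → Measurable T₃ → d.μ.map T₂ = d.μ → d.μ.map T₃ = d.μ →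
        ∫⁻ p, d.c p ∂π₀ < ∫⁻ x, d.c (x, T₂ x, T₃ x) ∂d.μ) ∧
      (∀ ε : ℝ≥0∞, 0 < ε → ∃ T₂ T₃ : X → X, Measurable T₂ ∧ Measurable T₃ ∧
        d.μ.map T₂ = d.μ ∧ d.μ.map T₃ = d.μ ∧
        ∫⁻ x, d.c (x, T₂ x, T₃ x) ∂d.μ < ∫⁻ p, d.c p ∂π₀ + ε) := by
  refine ⟨d.π₀, d.π₀_coupling, lt_top_iff_ne_top.2 d.cost_π₀_ne_top, fun π hπ => d.π₀_optimal hπ,
    fun T₂ T₃ h1 h2 h3 h4 => d.no_monge h1 h2 h3 h4, fun ε hε => ?_⟩
  -- choose `η`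
  set η : ℝ≥0∞ := min ε 1 / 2 with hη
  have hmin : 0 < min ε 1 := lt_min hε one_pos
  have hηpos : 0 < η := ENNReal.div_pos hmin.ne' (by simp)
  have hηlt : η < ε := by
    have h1 : min ε 1 ≠ ⊤ := ne_top_of_le_ne_top ENNReal.one_ne_top (min_le_right _ _)
    calc η < min ε 1 := ENNReal.half_lt_self hmin.ne' h1
      _ ≤ ε := min_le_left _ _
  obtain ⟨δ, hδ, happrox⟩ := d.approx η hηpos
  obtain ⟨S, ψ₁, θ₁, ψ₂, θ₂, hS, h1, h2, h3, h4, h5, h6, h7, h8, h9, h10, h11, h12⟩ :=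
    exists_split d.m₀ hδ
  have hsplit : TwoSheet.SplitData d S ψ₁ θ₁ ψ₂ θ₂ δ :=
    ⟨hS, h1, h2, h3, h4, h5, h6, h7, h8, h9, h10, h11, h12⟩
  refine ⟨d.Tfwd S ψ₁ θ₁ ψ₂ θ₂, d.Tbwd S ψ₁ θ₁ ψ₂ θ₂, d.meas_Tfwd hS h1 h2 h3 h4,
    d.meas_Tbwd hS h1 h2 h3 h4, TwoSheet.SplitData.map_fwd d hsplit, TwoSheet.SplitData.map_bwd d hsplit, ?_⟩
  calc _ ≤ ∫⁻ p, d.c p ∂d.π₀ + η := TwoSheet.SplitData.cost_le d hsplit happrox
    _ < _ := ENNReal.add_lt_add_left d.cost_π₀_ne_top hηlt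

end Crest.Agent.S0175Lib
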