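import Mathlib
import Crest.Agent.S0175Lib.Build
import Crest.Agent.S0175Lib.TwoSheetMonge
import Crest.Agent.S0175Lib.DensityPush

/-!
# The density of the marginal measure
-/

set_option autoImplicit false
set_option linter.unusedSectionVars false

namespace Crest.Agent.S0175Lib

open MeasureTheory Set Filter Topology Metric
open scoped ENNReal ContDiff RealInnerProductSpace
open Crest.AnalysisR.OT

lemma measure_ext_of_lintegral {X : Type*} [MeasurableSpace X] {μ ν : Measure X}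
    (h : ∀ f : X → ℝ≥0∞, Measurable f → ∫⁻ x, f x ∂μ = ∫⁻ x, f x ∂ν) : μ = ν :=
  Measure.ext fun s hs => by
    have := h (s.indicator 1) (measurable_one.indicator hs)
    rwa [lintegral_indicator_one hs, lintegral_indicator_one hs] at this

variable {E : Type*} [NormedAddCommGroup E] [InnerProductSpace ℝ E] [FiniteDimensional ℝ E]
  [MeasurableSpace E] [BorelSpace E]

namespace Setup

variable (D : Setup E)

/-- A normalised radial bump supported in `A`. -/
lemma exists_bump : ∃ σ : E → ℝ, ContDiff ℝ ∞ σ ∧ (∀ x, 0 ≤ σ x) ∧ HasCompactSupport σ ∧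
    tsupport σ ⊆ D.A ∧ (∀ x, σ (D.R x) = σ x) ∧ ∫ x, σ x ^ 2 = 1 := by
  have ha := D.ha0
  set a := D.a with ha'
  let σ₀ : E → ℝ := fun x => Real.smoothTransition (1 - ‖x‖ ^ 2 / a ^ 2)
  have hσ₀ : ContDiff ℝ ∞ σ₀ := by
    refine (Real.smoothTransition.contDiff (n := ⊤)).comp ?_
    exact contDiff_const.sub ((contDiff_norm_sq ℝ).div_const _)
  have hnn : ∀ x, 0 ≤ σ₀ x := fun x => Real.smoothTransition.nonneg _
  have hzero : ∀ x, a < ‖x‖ → σ₀ x = 0 := by
    intro x hx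
    refine Real.smoothTransition.zero_of_nonpos ?_
    have : 1 ≤ ‖x‖ ^ 2 / a ^ 2 := by
      rw [one_le_div (by positivity)]
      gcongr
    linarith
  have hts : tsupport σ₀ ⊆ closedBall 0 a := by
    refine closure_minimal (fun x hx => ?_) isClosed_closedBall
    by_contra hcon
    rw [mem_closedBall_zero_iff, not_le] at hcon
    exact hx (hzero x hcon)
  have hcs : HasCompactSupport σ₀ :=
    (isCompact_closedBall (0 : E) a).of_isClosed_subset (isClosed_tsupport _) hts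
  have hR : ∀ x, σ₀ (D.R x) = σ₀ x := by
    intro x
    simp only [σ₀]
    rw [D.R.norm_map]
  have hcs2 : HasCompactSupport fun x => σ₀ x ^ 2 := by
    have : (fun x => σ₀ x ^ 2) = fun x => σ₀ x * σ₀ x := by
      funext x; ring
    rw [this]
    exact hcs.mul_left
  have hcont2 : Continuous fun x => σ₀ x ^ 2 := hσ₀.continuous.pow 2
  have hone : σ₀ 0 = 1 := by
    simp only [σ₀]
    rw [norm_zero]
    simp
  have hN : 0 < ∫ x, σ₀ x ^ 2 := by
    refine hcont2.integral_pos_of_hasCompactSupport_nonneg_nonzero hcs2 (fun x => by positivity)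
      (x := 0) ?_
    simp [hone]
  set N := ∫ x, σ₀ x ^ 2 with hNdef
  refine ⟨fun x => (Real.sqrt N)⁻¹ * σ₀ x, contDiff_const.mul hσ₀, fun x => ?_, ?_, ?_, ?_, ?_⟩
  · exact mul_nonneg (by positivity) (hnn x)
  · exact hcs.mul_left
  · refine (tsupport_mul_subset_right).trans hts
  · intro x
    simp only
    rw [hR]
  · simp only [mul_pow]
    rw [integral_const_mul, ← hNdef, inv_pow, Real.sq_sqrt hN.le]
    exact inv_mul_cancel₀ hN.ne'

/-- Properties of the bump. -/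
structure IsBump (σ : E → ℝ) : Prop where
  smooth : ContDiff ℝ ∞ σ
  nonneg : ∀ x, 0 ≤ σ x
  cs : HasCompactSupport σ
  ts : tsupport σ ⊆ D.A
  hR : ∀ x, σ (D.R x) = σ x
  norm : ∫ x, σ x ^ 2 = 1

/-- The base measure. -/
noncomputable def m₀ (σ : E → ℝ) : Measure E := volume.withDensity fun x => ENNReal.ofReal (σ x ^ 2)

variable {D} {σ : E → ℝ}

lemma IsBump.zero (h : D.IsBump σ) {x : E} (hx : x ∉ D.A) : σ x = 0 :=
  image_eq_zero_of_notMem_tsupport fun h2 => hx (h.ts h2)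

lemma IsBump.cont (h : D.IsBump σ) : Continuous σ := h.smooth.continuous

lemma measurable_ofReal_sq {τ : E → ℝ} (hτ : Continuous τ) :
    Measurable fun x => ENNReal.ofReal (τ x ^ 2) :=
  ENNReal.measurable_ofReal.comp (hτ.pow 2).measurable

lemma lintegral_m₀ (hσ : Continuous σ) {g : E → ℝ≥0∞} (hg : Measurable g) :
    ∫⁻ t, g t ∂(m₀ σ) = ∫⁻ t, g t * ENNReal.ofReal (σ t ^ 2) := by
  rw [m₀, lintegral_withDensity_eq_lintegral_mul _ (measurable_ofReal_sq hσ) hg]
  refine lintegral_congr fun t => ?_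
  simp [Pi.mul_apply, mul_comm]

lemma IsBump.prob (h : D.IsBump σ) : IsProbabilityMeasure (m₀ σ) := ⟨by
  have hint : Integrable fun x => σ x ^ 2 :=
    (h.cont.pow 2).integrable_of_hasCompactSupport (by
      have : σ ^ 2 = fun x => σ x * σ x := by
        funext x; simp [sq]
      rw [this]
      exact h.cs.mul_left)
  rw [m₀, withDensity_apply _ MeasurableSet.univ, Measure.restrict_univ,
    ← ofReal_integral_eq_lintegral_ofReal hint (Eventually.of_forall fun x => by positivity),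
    h.norm, ENNReal.ofReal_one]⟩

lemma IsBump.compl (h : D.IsBump σ) : m₀ σ D.Aᶜ = 0 := by
  have hA : MeasurableSet D.A := isClosed_closedBall.measurableSet
  rw [m₀, withDensity_apply _ hA.compl]
  refine setLIntegral_eq_zero hA.compl fun x hx => ?_
  simp [h.zero hx]

lemma atomless (D : Setup E) : NullSingletonClass (m₀ (E := E) σ) := by
  have : Nontrivial E := ⟨⟨D.e₁, 0, fun h => by
    have := D.he₁
    rw [h, norm_zero] at this
    exact zero_ne_one this⟩⟩
  unfold m₀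
  infer_instance

lemma term_true {τ : E → ℝ} {Φ φ : E → E} (hσA : ∀ x, x ∉ D.A → σ x = 0)
    (hagree : ∀ t ∈ D.A, Φ t = φ t)
    (hτ : ∀ f : E → ℝ≥0∞, ∫⁻ y, f y * ENNReal.ofReal (τ y ^ 2) =
      ∫⁻ x, f (φ x) * ENNReal.ofReal (σ x ^ 2)) (f : E → ℝ≥0∞) :
    ∫⁻ t, f (Φ t) * ENNReal.ofReal (σ t ^ 2) = ∫⁻ y, f y * ENNReal.ofReal (τ y ^ 2) := by
  rw [hτ]
  refine lintegral_congr fun x => ?_
  by_cases hx : x ∈ D.A
  · rw [hagree x hx]
  · simp [hσA x hx]

lemma term_false {τ : E → ℝ} {Φ φ : E → E} (hσA : ∀ x, x ∉ D.A → σ x = 0)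
    (hσR : ∀ x, σ (D.R x) = σ x) (hagree : ∀ t ∈ D.A, Φ (D.R t) = D.R (φ t))
    (hτ : ∀ f : E → ℝ≥0∞, ∫⁻ y, f y * ENNReal.ofReal (τ y ^ 2) =
      ∫⁻ x, f (φ x) * ENNReal.ofReal (σ x ^ 2))
    {f : E → ℝ≥0∞} (hf : Measurable f) (hΦ : Measurable Φ) (hσc : Continuous σ)
    (hτc : Continuous τ) :
    ∫⁻ t, f (Φ t) * ENNReal.ofReal (σ t ^ 2) = ∫⁻ y, f y * ENNReal.ofReal (τ (D.R y) ^ 2) := by
  have hmp : MeasurePreserving D.R volume volume := D.R.measurePreserving
  have h1 : ∫⁻ t, f (Φ t) * ENNReal.ofReal (σ t ^ 2) =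
      ∫⁻ x, f (Φ (D.R x)) * ENNReal.ofReal (σ (D.R x) ^ 2) :=
    (hmp.lintegral_comp (f := fun t => f (Φ t) * ENNReal.ofReal (σ t ^ 2))
      ((hf.comp hΦ).mul (measurable_ofReal_sq hσc))).symm
  have h2 : ∫⁻ y, f y * ENNReal.ofReal (τ (D.R y) ^ 2) =
      ∫⁻ y, f (D.R y) * ENNReal.ofReal (τ (D.R (D.R y)) ^ 2) :=
    (hmp.lintegral_comp (f := fun y => f y * ENNReal.ofReal (τ (D.R y) ^ 2))
      (hf.mul (measurable_ofReal_sq (hτc.comp D.R.continuous)))).symm
  rw [h1, h2]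
  simp only [D.hRR, hσR]
  rw [hτ (fun y => f (D.R y))]
  refine lintegral_congr fun x => ?_
  by_cases hx : x ∈ D.A
  · rw [hagree x hx]
  · simp [hσA x hx]

lemma five_sq (a b c d e : ℝ) (hab : a * b = 0) (hac : a * c = 0) (had : a * d = 0)
    (hae : a * e = 0) (hbc : b * c = 0) (hbd : b * d = 0) (hbe : b * e = 0) (hcd : c * d = 0)
    (hce : c * e = 0) (hde : d * e = 0) :
    (a + b + c + d + e) ^ 2 = a ^ 2 + b ^ 2 + c ^ 2 + d ^ 2 + e ^ 2 := by
  linear_combination 2 * hab + 2 * hac + 2 * had + 2 * hae + 2 * hbc + 2 * hbd + 2 * hbe +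
    2 * hcd + 2 * hce + 2 * hde

lemma mul_zero_of_disjoint {a b : E → ℝ} {S T : Set E} (hd : Disjoint S T)
    (ha : ∀ x, x ∉ S → a x = 0) (hb : ∀ x, x ∉ T → b x = 0) (x : E) : a x * b x = 0 := by
  by_cases hx : x ∈ S
  · rw [hb x (Set.disjoint_left.mp hd hx), mul_zero]
  · rw [ha x hx, zero_mul]

end Setup

end Crest.Agent.S0175Lib
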