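import Mathlib
import Crest.Agent.S0175Lib.Density

/-!
# The density of the marginal measure, part two
-/

set_option autoImplicit false
set_option linter.unusedSectionVars false

namespace Crest.Agent.S0175Lib

open MeasureTheory Set Filter Topology Metric
open scoped ENNReal ContDiff RealInnerProductSpace
open Crest.AnalysisR.OT

variable {E : Type*} [NormedAddCommGroup E] [InnerProductSpace ℝ E] [FiniteDimensional ℝ E]
  [MeasurableSpace E] [BorelSpace E]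

lemma ofReal_six {a b c d e f : ℝ} (ha : 0 ≤ a) (hb : 0 ≤ b) (hc : 0 ≤ c) (hd : 0 ≤ d) (he : 0 ≤ e)
    (hf : 0 ≤ f) : ENNReal.ofReal (6⁻¹ * (a + b + c + d + e + f)) =
      6⁻¹ * (ENNReal.ofReal a + ENNReal.ofReal b + ENNReal.ofReal c + ENNReal.ofReal d +
        ENNReal.ofReal e + ENNReal.ofReal f) := by
  rw [ENNReal.ofReal_mul (by norm_num), ENNReal.ofReal_add (by positivity) hf,
    ENNReal.ofReal_add (by positivity) he, ENNReal.ofReal_add (by positivity) hd,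
    ENNReal.ofReal_add (by positivity) hc, ENNReal.ofReal_add ha hb]
  congr 1
  rw [ENNReal.ofReal_inv_of_pos (by norm_num)]
  norm_num

namespace Setup

variable {D : Setup E} {σ : E → ℝ}

/-- The pushed density on `B`. -/
noncomputable def τB (D : Setup E) (σ : E → ℝ) : E → ℝ := pushRoot D.sh.Uy D.sh.XY σ

/-- The pushed density on `C`. -/
noncomputable def τC (D : Setup E) (σ : E → ℝ) : E → ℝ := pushRoot D.sh.Uz D.sh.XZ σ

lemma pushB (h : D.IsBump σ) : ContDiff ℝ ∞ (τB D σ) ∧ HasCompactSupport (τB D σ) ∧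
    tsupport (τB D σ) ⊆ D.sh.Y '' tsupport σ ∧ ∀ f : E → ℝ≥0∞,
      ∫⁻ y, f y * ENNReal.ofReal (τB D σ y ^ 2) = ∫⁻ x, f (D.sh.Y x) * ENNReal.ofReal (σ x ^ 2) :=
  push_density (μ := (volume : Measure E)) D.sh.hUx D.sh.hUy
    D.sh.Y_smooth D.sh.XY_smooth D.sh.Y_maps D.sh.XY_maps D.sh.XY_Y D.sh.Y_XY h.smooth h.cs
    (h.ts.trans D.A_sub_Ux)

lemma pushC (h : D.IsBump σ) : ContDiff ℝ ∞ (τC D σ) ∧ HasCompactSupport (τC D σ) ∧
    tsupport (τC D σ) ⊆ D.sh.Z '' tsupport σ ∧ ∀ f : E → ℝ≥0∞,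
      ∫⁻ y, f y * ENNReal.ofReal (τC D σ y ^ 2) = ∫⁻ x, f (D.sh.Z x) * ENNReal.ofReal (σ x ^ 2) :=
  push_density (μ := (volume : Measure E)) D.sh.hUx D.sh.hUz
    D.sh.Z_smooth D.sh.XZ_smooth D.sh.Z_maps D.sh.XZ_maps D.sh.XZ_Z D.sh.Z_XZ h.smooth h.cs
    (h.ts.trans D.A_sub_Ux)

lemma τB_smooth (h : D.IsBump σ) : ContDiff ℝ ∞ (τB D σ) := (pushB h).1
lemma τC_smooth (h : D.IsBump σ) : ContDiff ℝ ∞ (τC D σ) := (pushC h).1
lemma τB_cs (h : D.IsBump σ) : HasCompactSupport (τB D σ) := (pushB h).2.1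
lemma τC_cs (h : D.IsBump σ) : HasCompactSupport (τC D σ) := (pushC h).2.1

lemma τB_zero (h : D.IsBump σ) {x : E} (hx : x ∉ D.B₀) : τB D σ x = 0 :=
  image_eq_zero_of_notMem_tsupport fun h2 => hx (image_mono h.ts ((pushB h).2.2.1 h2))

lemma τC_zero (h : D.IsBump σ) {x : E} (hx : x ∉ D.C₀) : τC D σ x = 0 :=
  image_eq_zero_of_notMem_tsupport fun h2 => hx (image_mono h.ts ((pushC h).2.2.1 h2))

lemma τB_nonneg (h : D.IsBump σ) (x : E) : 0 ≤ τB D σ x := pushRoot_nonneg h.nonneg x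
lemma τC_nonneg (h : D.IsBump σ) (x : E) : 0 ≤ τC D σ x := pushRoot_nonneg h.nonneg x

/-- The square root of the final density. -/
noncomputable def w (D : Setup E) (σ : E → ℝ) (x : E) : ℝ :=
  Real.sqrt (1 / 3) * σ x + Real.sqrt (1 / 6) * τB D σ x + Real.sqrt (1 / 6) * τC D σ x +
    Real.sqrt (1 / 6) * τB D σ (D.R x) + Real.sqrt (1 / 6) * τC D σ (D.R x)

lemma w_smooth (h : D.IsBump σ) : ContDiff ℝ ∞ (w D σ) := by
  unfold w
  have hR : ContDiff ℝ ∞ (fun x => D.R x) := D.R.contDiff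
  exact (((contDiff_const.mul h.smooth).add (contDiff_const.mul (τB_smooth h))).add
    (contDiff_const.mul (τC_smooth h))).add
    (contDiff_const.mul ((τB_smooth h).comp hR)) |>.add
    (contDiff_const.mul ((τC_smooth h).comp hR))

lemma w_nonneg (h : D.IsBump σ) (x : E) : 0 ≤ w D σ x := by
  unfold w
  have h1 := h.nonneg x
  have h2 := τB_nonneg h x
  have h3 := τC_nonneg h x
  have h4 := τB_nonneg h (D.R x)
  have h5 := τC_nonneg h (D.R x)
  positivity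

lemma w_cs (h : D.IsBump σ) : HasCompactSupport (w D σ) := by
  have hcomp : ∀ {τ : E → ℝ}, HasCompactSupport τ → HasCompactSupport fun x => τ (D.R x) :=
    fun hτ => hτ.comp_homeomorph D.R.toHomeomorph
  unfold w
  exact ((((h.cs.mul_left).add ((τB_cs h).mul_left)).add ((τC_cs h).mul_left)).add
    ((hcomp (τB_cs h)).mul_left)).add ((hcomp (τC_cs h)).mul_left)

lemma mem_Bj_false {x : E} : x ∈ D.Bj false ↔ D.R x ∈ D.B₀ := Iff.rfl
lemma mem_Cj_false {x : E} : x ∈ D.Cj false ↔ D.R x ∈ D.C₀ := Iff.rfl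
lemma mem_Bj_true {x : E} : x ∈ D.Bj true ↔ x ∈ D.B₀ := Iff.rfl
lemma mem_Cj_true {x : E} : x ∈ D.Cj true ↔ x ∈ D.C₀ := Iff.rfl

lemma w_sq (h : D.IsBump σ) (x : E) : w D σ x ^ 2 = 6⁻¹ * (σ x ^ 2 + σ x ^ 2 + τB D σ x ^ 2 +
    τC D σ x ^ 2 + τB D σ (D.R x) ^ 2 + τC D σ (D.R x) ^ 2) := by
  have z1 : ∀ x, x ∉ D.A → Real.sqrt (1 / 3) * σ x = 0 := fun x hx => by rw [h.zero hx, mul_zero]
  have z2 : ∀ x, x ∉ D.Bj true → Real.sqrt (1 / 6) * τB D σ x = 0 := fun x hx => by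
    rw [τB_zero h hx, mul_zero]
  have z3 : ∀ x, x ∉ D.Cj true → Real.sqrt (1 / 6) * τC D σ x = 0 := fun x hx => by
    rw [τC_zero h hx, mul_zero]
  have z4 : ∀ x, x ∉ D.Bj false → Real.sqrt (1 / 6) * τB D σ (D.R x) = 0 := fun x hx => by
    have hx' : D.R x ∉ D.B₀ := hx
    rw [τB_zero h hx', mul_zero]
  have z5 : ∀ x, x ∉ D.Cj false → Real.sqrt (1 / 6) * τC D σ (D.R x) = 0 := fun x hx => by
    have hx' : D.R x ∉ D.C₀ := hx
    rw [τC_zero h hx', mul_zero]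
  have key := five_sq _ _ _ _ _
    (mul_zero_of_disjoint (D.dAB true) z1 z2 x)
    (mul_zero_of_disjoint (D.dAC true) z1 z3 x)
    (mul_zero_of_disjoint (D.dAB false) z1 z4 x)
    (mul_zero_of_disjoint (D.dAC false) z1 z5 x)
    (mul_zero_of_disjoint (D.dBC true true) z2 z3 x)
    (mul_zero_of_disjoint D.dBB z2 z4 x)
    (mul_zero_of_disjoint (D.dBC true false) z2 z5 x)
    (mul_zero_of_disjoint (D.dBC false true).symm z3 z4 x)
    (mul_zero_of_disjoint D.dCC z3 z5 x)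
    (mul_zero_of_disjoint (D.dBC false false) z4 z5 x)
  rw [w, key]
  simp only [mul_pow]
  rw [Real.sq_sqrt (by norm_num), Real.sq_sqrt (by norm_num)]
  ring

/-- The final density. -/
noncomputable def ρ (D : Setup E) (σ : E → ℝ) (x : E) : ℝ := w D σ x ^ 2

lemma ofReal_ρ (h : D.IsBump σ) (x : E) : ENNReal.ofReal (ρ D σ x) =
    6⁻¹ * (ENNReal.ofReal (σ x ^ 2) + ENNReal.ofReal (σ x ^ 2) + ENNReal.ofReal (τB D σ x ^ 2) +
      ENNReal.ofReal (τC D σ x ^ 2) + ENNReal.ofReal (τB D σ (D.R x) ^ 2) +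
      ENNReal.ofReal (τC D σ (D.R x) ^ 2)) := by
  rw [ρ, w_sq h]
  exact ofReal_six (by positivity) (by positivity) (by positivity) (by positivity) (by positivity)
    (by positivity)

lemma lintegral_six {g₁ g₂ g₃ g₄ g₅ g₆ : E → ℝ≥0∞} (h₂ : Measurable g₂) (h₃ : Measurable g₃)
    (h₄ : Measurable g₄) (h₅ : Measurable g₅) (h₆ : Measurable g₆) :
    ∫⁻ x, (g₁ x + g₂ x + g₃ x + g₄ x + g₅ x + g₆ x) = (∫⁻ x, g₁ x) + (∫⁻ x, g₂ x) + (∫⁻ x, g₃ x) +
      (∫⁻ x, g₄ x) + (∫⁻ x, g₅ x) + (∫⁻ x, g₆ x) := by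
  rw [lintegral_add_right _ h₆, lintegral_add_right _ h₅, lintegral_add_right _ h₄,
    lintegral_add_right _ h₃, lintegral_add_right _ h₂]

lemma ρ_measurable (h : D.IsBump σ) : Measurable fun x => ENNReal.ofReal (ρ D σ x) :=
  ENNReal.measurable_ofReal.comp (((w_smooth h).continuous.pow 2).measurable)

/-- The abstract data attached to the bump. -/
noncomputable def data (D : Setup E) (h : D.IsBump σ) : TwoSheet E :=
  D.toTwoSheet (m₀ σ) h.prob (atomless D) h.compl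

lemma Y_agree {t : E} (ht : t ∈ D.A) : D.Yj true t = D.sh.Y t := by
  rw [D.Yj_eq true ht]; rfl
lemma Z_agree {t : E} (ht : t ∈ D.A) : D.Zj true t = D.sh.Z t := by
  rw [D.Zj_eq true ht]; rfl
lemma Y_agree' {t : E} (ht : t ∈ D.A) : D.Yj false (D.R t) = D.R (D.sh.Y t) := by
  simp only [Yj, Rj_false, D.hRR]
  rw [D.Ybar_A ht]
lemma Z_agree' {t : E} (ht : t ∈ D.A) : D.Zj false (D.R t) = D.R (D.sh.Z t) := by
  simp only [Zj, Rj_false, D.hRR]
  rw [D.Zbar_A ht]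

/-- The marginal measure of the two-sheet data is exactly the density measure. -/
theorem measOfDensity_eq (h : D.IsBump σ) : measOfDensity (ρ D σ) = (data D h).μ := by
  refine measure_ext_of_lintegral fun f hf => ?_
  rw [TwoSheet.lintegral_μ _ hf]
  show ∫⁻ x, f x ∂(measOfDensity (ρ D σ)) = 6⁻¹ * (∫⁻ t, f t ∂(m₀ σ) + ∫⁻ t, f t ∂(m₀ σ) +
    ∫⁻ t, f (D.Yj true t) ∂(m₀ σ) + ∫⁻ t, f (D.Zj true t) ∂(m₀ σ) +
    ∫⁻ t, f (D.Yj false t) ∂(m₀ σ) + ∫⁻ t, f (D.Zj false t) ∂(m₀ σ))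
  have hc := h.cont
  rw [lintegral_m₀ hc hf, lintegral_m₀ hc (g := fun t => f (D.Yj true t))
      (hf.comp (D.measurable_Yj true)),
    lintegral_m₀ hc (g := fun t => f (D.Zj true t)) (hf.comp (D.measurable_Zj true)),
    lintegral_m₀ hc (g := fun t => f (D.Yj false t)) (hf.comp (D.measurable_Yj false)),
    lintegral_m₀ hc (g := fun t => f (D.Zj false t)) (hf.comp (D.measurable_Zj false))]
  have hz : ∀ x, x ∉ D.A → σ x = 0 := fun x hx => h.zero hx
  rw [term_true (D := D) hz (fun t ht => Y_agree ht) (pushB h).2.2.2 f,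
    term_true (D := D) hz (fun t ht => Z_agree ht) (pushC h).2.2.2 f,
    term_false (D := D) hz h.hR (fun t ht => Y_agree' ht) (pushB h).2.2.2 hf
      (D.measurable_Yj false) hc (τB_smooth h).continuous,
    term_false (D := D) hz h.hR (fun t ht => Z_agree' ht) (pushC h).2.2.2 hf
      (D.measurable_Zj false) hc (τC_smooth h).continuous]
  rw [measOfDensity, lintegral_withDensity_eq_lintegral_mul _ (ρ_measurable h) hf]
  have hσm := measurable_ofReal_sq hc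
  have hBm := measurable_ofReal_sq (τB_smooth h).continuous
  have hCm := measurable_ofReal_sq (τC_smooth h).continuous
  have hRc : Continuous fun x => D.R x := D.R.continuous
  have hBm' := measurable_ofReal_sq ((τB_smooth h).continuous.comp hRc)
  have hCm' := measurable_ofReal_sq ((τC_smooth h).continuous.comp hRc)
  have e : ∀ x, (fun x => ENNReal.ofReal (ρ D σ x)) x * f x = 6⁻¹ * (f x * ENNReal.ofReal (σ x ^ 2) +
      f x * ENNReal.ofReal (σ x ^ 2) + f x * ENNReal.ofReal (τB D σ x ^ 2) +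
      f x * ENNReal.ofReal (τC D σ x ^ 2) + f x * ENNReal.ofReal (τB D σ (D.R x) ^ 2) +
      f x * ENNReal.ofReal (τC D σ (D.R x) ^ 2)) := by
    intro x
    simp only [ofReal_ρ h x]
    ring
  simp only [Pi.mul_apply]
  simp only [e]
  rw [lintegral_const_mul' _ _ (by norm_num : (6⁻¹ : ℝ≥0∞) ≠ ⊤)]
  congr 1
  exact lintegral_six (g₁ := fun x => f x * ENNReal.ofReal (σ x ^ 2))
    (g₂ := fun x => f x * ENNReal.ofReal (σ x ^ 2))
    (g₃ := fun x => f x * ENNReal.ofReal (τB D σ x ^ 2))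
    (g₄ := fun x => f x * ENNReal.ofReal (τC D σ x ^ 2))
    (g₅ := fun x => f x * ENNReal.ofReal (τB D σ (D.R x) ^ 2))
    (g₆ := fun x => f x * ENNReal.ofReal (τC D σ (D.R x) ^ 2))
    (hf.mul hσm) (hf.mul hBm) (hf.mul hCm) (hf.mul hBm') (hf.mul hCm')

/-- `∫ ρ = 1`. -/
lemma integral_ρ (h : D.IsBump σ) : ∫ x, ρ D σ x = 1 := by
  have hm : (measOfDensity (ρ D σ)) univ = 1 := by
    rw [measOfDensity_eq h]
    exact measure_univ
  rw [measOfDensity, withDensity_apply _ MeasurableSet.univ, Measure.restrict_univ] at hm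
  have hcont : Continuous (ρ D σ) := (w_smooth h).continuous.pow 2
  rw [integral_eq_lintegral_of_nonneg_ae (Eventually.of_forall fun x => by
    simp only [Pi.zero_apply, ρ]; positivity) hcont.aestronglyMeasurable, hm]
  simp

lemma sqrt_ρ (h : D.IsBump σ) (x : E) : Real.sqrt (ρ D σ x) = w D σ x := by
  rw [ρ, Real.sqrt_sq (w_nonneg h x)]

/-- The final theorem for a setup. -/
theorem final (D : Setup E) : ∃ ρ : E → ℝ, (∀ x, 0 ≤ ρ x) ∧ ContDiff ℝ ∞ ρ ∧ HasCompactSupport ρ ∧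
      ContDiff ℝ ∞ (fun x => Real.sqrt (ρ x)) ∧ ∫ x, ρ x = 1 ∧
      ∃ π₀ : Measure (E × E × E),
        IsCoupling₃ (measOfDensity ρ) π₀ ∧ ∫⁻ p, tripleCost D.s p ∂π₀ < ⊤ ∧
        (∀ π : Measure (E × E × E), IsCoupling₃ (measOfDensity ρ) π →
          ∫⁻ p, tripleCost D.s p ∂π₀ ≤ ∫⁻ p, tripleCost D.s p ∂π) ∧
        (∀ T₂ T₃ : E → E, Measurable T₂ → Measurable T₃ →
          (measOfDensity ρ).map T₂ = measOfDensity ρ → (measOfDensity ρ).map T₃ = measOfDensity ρ →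
          ∫⁻ p, tripleCost D.s p ∂π₀ < ∫⁻ x, tripleCost D.s (x, T₂ x, T₃ x) ∂(measOfDensity ρ)) ∧
        (∀ ε : ℝ≥0∞, 0 < ε → ∃ T₂ T₃ : E → E, Measurable T₂ ∧ Measurable T₃ ∧
          (measOfDensity ρ).map T₂ = measOfDensity ρ ∧ (measOfDensity ρ).map T₃ = measOfDensity ρ ∧
          ∫⁻ x, tripleCost D.s (x, T₂ x, T₃ x) ∂(measOfDensity ρ) <
            ∫⁻ p, tripleCost D.s p ∂π₀ + ε) := by
  obtain ⟨σ, h1, h2, h3, h4, h5, h6⟩ := D.exists_bump
  have h : D.IsBump σ := ⟨h1, h2, h3, h4, h5, h6⟩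
  refine ⟨ρ D σ, fun x => by simp only [ρ]; positivity, (w_smooth h).pow 2, ?_, ?_,
    integral_ρ h, ?_⟩
  · have : ρ D σ = fun x => w D σ x * w D σ x := by
      funext x; simp only [ρ]; ring
    rw [this]
    exact (w_cs h).mul_left
  · simp only [sqrt_ρ h]
    exact w_smooth h
  · rw [measOfDensity_eq h]
    exact (data D h).main

end Setup

end Crest.Agent.S0175Lib
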