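import Mathlib
import Crest.Agent.S0175Lib.Marginal

/-!
# Existence of the setup
-/

set_option autoImplicit false
set_option linter.unusedSectionVars false

namespace Crest.Agent.S0175Lib

open MeasureTheory Set Filter Topology Metric
open scoped ENNReal ContDiff RealInnerProductSpace
open Crest.AnalysisR.OT

section general

variable {E : Type*} [NormedAddCommGroup E] [InnerProductSpace ℝ E] [FiniteDimensional ℝ E]

lemma Psi_center {s κ : ℝ} {e g : E} (he : ‖e‖ = 1) : Psi s κ e g 0 e (-e) = a₀ s := by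
  simp only [Psi, realCost, a₀]
  have h1 : ‖(0 : E) - e‖ = 1 := by rw [zero_sub, norm_neg, he]
  have h2 : ‖(0 : E) - -e‖ = 1 := by rw [sub_neg_eq_add, zero_add, he]
  have h3 : ‖e - -e‖ = 2 := by
    rw [sub_neg_eq_add, ← two_smul ℝ, norm_smul, he]
    norm_num
  rw [h1, h2, h3]
  simp only [Real.one_rpow, norm_zero, sub_self, inner_zero_right]
  ring

/-- Existence of the setup from the linear algebra data. -/
theorem exists_setup_of {s : ℝ} (hs : 0 < s) {e₁ e₂ : E} (he₁ : ‖e₁‖ = 1) (he₂ : ‖e₂‖ = 1)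
    (horth : ⟪e₁, e₂⟫ = 0) (R : E ≃ₗᵢ[ℝ] E) (hRR : ∀ x, R (R x) = x) (hRe : R e₁ = e₂) :
    ∃ D : Setup E, D.s = s := by
  have hne : Nonempty (Sheet s (κ₀ s) e₁ (gE s e₁)) :=
    exists_sheet (ρ := ρ₀ s) hs he₁ rfl ((ρ₀_le hs).trans (by norm_num)) (hκ1 hs) (hκ2 hs) (hκ3 hs)
  obtain ⟨sh⟩ := hne
  obtain ⟨r, δ, good⟩ := exists_params hs ‖gE s e₁‖
  have he0 : e₁ ≠ 0 := by
    intro h
    rw [h, norm_zero] at he₁
    exact zero_ne_one he₁
  have hz : (0 : E) ∈ sh.Ux := sh.zero_mem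
  have hY : ContinuousAt sh.Y 0 := sh.Y_smooth.continuousOn.continuousAt (sh.hUx.mem_nhds hz)
  have hZ : ContinuousAt sh.Z 0 := sh.Z_smooth.continuousOn.continuousAt (sh.hUx.mem_nhds hz)
  have hid : ContinuousAt (fun t : E => t) 0 := continuousAt_id
  have hn : ∀ {a b : E → E}, ContinuousAt a 0 → ContinuousAt b 0 → a 0 ≠ b 0 →
      ContinuousAt (fun t => ‖a t - b t‖ ^ (-s)) 0 := fun ha hb hne =>
    ((ha.sub hb).norm).rpow_const (Or.inl (norm_ne_zero_iff.2 (sub_ne_zero.2 hne)))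
  have hne1 : (0 : E) ≠ sh.Y 0 := by rw [sh.Y_zero]; exact he0.symm
  have hne2 : (0 : E) ≠ sh.Z 0 := by rw [sh.Z_zero]; simpa using he0
  have hne3 : sh.Y 0 ≠ sh.Z 0 := by
    rw [sh.Y_zero, sh.Z_zero]
    intro h
    have h2 : (2 : ℝ) • e₁ = 0 := by
      rw [two_smul]
      nth_rewrite 1 [h]
      simp
    rw [smul_eq_zero] at h2
    rcases h2 with h2 | h2
    · norm_num at h2
    · exact he0 h2
  have hPsi : ContinuousAt (fun t => Psi s (κ₀ s) e₁ (gE s e₁) t (sh.Y t) (sh.Z t)) 0 := by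
    unfold Psi realCost
    refine ContinuousAt.sub (ContinuousAt.add (ContinuousAt.add
      (((hn hid hY hne1).add (hn hid hZ hne2)).add (hn hY hZ hne3)) ?_) ?_) ?_
    · exact continuousAt_const.mul (continuousAt_id.norm.pow 2)
    · exact continuousAt_const.mul (((hY.sub continuousAt_const).norm).pow 2)
    · exact continuousAt_const.inner (hY.sub continuousAt_const)
  have hval : Psi s (κ₀ s) e₁ (gE s e₁) 0 (sh.Y 0) (sh.Z 0) = a₀ s := by
    rw [sh.Y_zero, sh.Z_zero, Psi_center he₁]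
  have e1 : ∀ᶠ t in 𝓝 (0 : E), t ∈ sh.Ux := sh.hUx.mem_nhds hz
  have e2 : ∀ᶠ t in 𝓝 (0 : E), ‖sh.Y t - e₁‖ < r := by
    have : ContinuousAt (fun t => ‖sh.Y t - e₁‖) 0 := (hY.sub continuousAt_const).norm
    refine this.eventually (gt_mem_nhds ?_)
    simp [sh.Y_zero, good.hr0]
  have e3 : ∀ᶠ t in 𝓝 (0 : E), ‖sh.Z t + e₁‖ < r := by
    have : ContinuousAt (fun t => ‖sh.Z t + e₁‖) 0 := (hZ.add continuousAt_const).norm
    refine this.eventually (gt_mem_nhds ?_)
    simp [sh.Z_zero, good.hr0]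
  have e4 : ∀ᶠ t in 𝓝 (0 : E),
      |Psi s (κ₀ s) e₁ (gE s e₁) t (sh.Y t) (sh.Z t) - a₀ s| < δ := by
    have : ContinuousAt (fun t => |Psi s (κ₀ s) e₁ (gE s e₁) t (sh.Y t) (sh.Z t) - a₀ s|) 0 :=
      (hPsi.sub continuousAt_const).abs
    refine this.eventually (gt_mem_nhds ?_)
    simp only [hval, sub_self, abs_zero]
    exact good.hδ0
  obtain ⟨ε, hε, hball⟩ := Metric.eventually_nhds_iff_ball.1 (e1.and (e2.and (e3.and e4)))
  have ha : 0 < min (ε / 2) r := lt_min (by positivity) good.hr0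
  have hsub : ∀ t ∈ closedBall (0 : E) (min (ε / 2) r), t ∈ ball (0 : E) ε := by
    intro t ht
    rw [mem_closedBall_zero_iff] at ht
    rw [mem_ball_zero_iff]
    have := ht.trans (min_le_left _ _)
    linarith
  refine ⟨⟨s, hs, e₁, e₂, he₁, he₂, horth, R, hRR, hRe, sh, r, δ, min (ε / 2) r, good, ha,
    min_le_right _ _, fun t ht => (hball t (hsub t ht)).1,
    fun t ht => (hball t (hsub t ht)).2.1.le, fun t ht => (hball t (hsub t ht)).2.2.1.le,
    fun t ht => (hball t (hsub t ht)).2.2.2.le⟩, rfl⟩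

end general

/-- The setup on Euclidean space. -/
theorem exists_setup (d : ℕ) (hd : 2 ≤ d) (s : ℝ) (hs : 0 < s) :
    ∃ D : Setup (EuclideanSpace ℝ (Fin d)), D.s = s := by
  let i₀ : Fin d := ⟨0, by omega⟩
  let i₁ : Fin d := ⟨1, by omega⟩
  have hi : i₀ ≠ i₁ := by
    intro h
    have := congrArg Fin.val h
    simp [i₀, i₁] at this
  refine exists_setup_of hs (e₁ := EuclideanSpace.single i₀ 1) (e₂ := EuclideanSpace.single i₁ 1)
    (by simp) (by simp) ?_ (LinearIsometryEquiv.piLpCongrLeft 2 ℝ ℝ (Equiv.swap i₀ i₁)) ?_ ?_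
  · simp [EuclideanSpace.inner_single_left, hi]
  · intro x
    ext i
    simp [LinearIsometryEquiv.piLpCongrLeft_apply, Equiv.piCongrLeft']
  · rw [EuclideanSpace.piLpCongrLeft_single]
    simp

end Crest.Agent.S0175Lib
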